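import Mathlib

namespace Vale.Agent.P170

open Filter

/-- Property (A) for a real sequence. -/
def PropA (r : ℕ → ℝ) : Prop :=
  ∀ ε : ℝ, 0 < ε → ∃ n0 : ℕ, ∀ n1 ≥ n0, ∀ n2 ≥ n0, min (r n1) (r n2) - ε ≤ r (n1 + n2)

/-- Property (B') for a real sequence. -/
def PropB (r : ℕ → ℝ) : Prop :=
  ∀ ε : ℝ, 0 < ε → ∃ δ : ℝ, 0 < δ ∧ ∃ n0 : ℕ, ∀ n ≥ n0, ∀ d : ℕ, (d : ℝ) ≤ δ * n →
    r (n + d) - ε ≤ r n

/-- sums of `u+1` integers from `[a,n]` -/
lemma sum_lemma (r : ℕ → ℝ) (a n nA : ℕ) (c εA : ℝ) (hεA : 0 ≤ εA) (han : a ≤ n) (hnA : nA ≤ a)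
    (hA : ∀ n1 ≥ nA, ∀ n2 ≥ nA, min (r n1) (r n2) - εA ≤ r (n1 + n2))
    (hbase : ∀ N, a ≤ N → N ≤ n → c ≤ r N) (u : ℕ) :
    ∀ N, (u + 1) * a ≤ N → N ≤ (u + 1) * n → c - u * εA ≤ r N := by
  induction u with
  | zero =>
    intro N h1 h2
    simp only [zero_add, one_mul] at h1 h2
    simpa using hbase N h1 h2
  | succ u ih =>
    intro N h1 h2
    have hX : (u + 1 + 1) * a = (u + 1) * a + a := by ring
    have hY : (u + 1 + 1) * n = (u + 1) * n + n := by ring
    have hXY : (u + 1) * a ≤ (u + 1) * n := Nat.mul_le_mul_left _ han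
    have haX : a ≤ (u + 1) * a := Nat.le_mul_of_pos_left a (Nat.succ_pos u)
    rw [hX] at h1
    rw [hY] at h2
    set X := (u + 1) * a
    set Y := (u + 1) * n
    set n' := max a (N - Y) with hn'
    have g1 : a ≤ n' := le_max_left _ _
    have g2 : n' ≤ n := by
      apply max_le han; omega
    have g3 : N - Y ≤ n' := le_max_right _ _
    have g4 : n' ≤ N - X := by
      apply max_le <;> omega
    have g5 : X ≤ N - n' := by omega
    have g6 : N - n' ≤ Y := by omega
    have hN : N = (N - n') + n' := by omega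
    have i1 := ih (N - n') g5 g6
    have i2 := hbase n' g1 g2
    have i3 := hA (N - n') (by omega) n' (by omega)
    rw [← hN] at i3
    have hu : (0:ℝ) ≤ u * εA := by positivity
    have i4 : c - u * εA ≤ min (r (N - n')) (r n') := le_min i1 (by linarith)
    push_cast
    linarith

/-- Scale monotonicity: from (A) and (B'). -/
theorem scale_mono (r : ℕ → ℝ) (hA : PropA r) (hB : PropB r) :
    ∀ ε : ℝ, 0 < ε → ∃ T : ℕ, ∀ J : ℕ, ∃ n0 : ℕ, ∀ n ≥ n0, ∀ N : ℕ, T * n ≤ N → N ≤ J * n →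
      r n - ε ≤ r N := by
  intro ε hε
  obtain ⟨δ, hδ, nB, hnB⟩ := hB (ε / 2) (by positivity)
  set D := ⌈1 / δ⌉₊ + 1 with hD
  have hD1 : 1 / δ ≤ D := by
    have : 1 / δ ≤ (⌈1 / δ⌉₊ : ℝ) := Nat.le_ceil _
    rw [hD]; push_cast; linarith
  have hDpos : (0:ℝ) < D := by rw [hD]; positivity
  refine ⟨2 * (D + 1), ?_⟩
  intro J
  set εA : ℝ := ε / (2 * (J + 1)) with hεA
  have hεA0 : 0 < εA := by positivity
  obtain ⟨nA, hnA⟩ := hA εA hεA0
  refine ⟨max (2 * (nA + nB)) (D + 1), ?_⟩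
  intro n hn N hN1 hN2
  have hn1 : 2 * (nA + nB) ≤ n := le_trans (le_max_left _ _) hn
  have hn2 : D + 1 ≤ n := le_trans (le_max_right _ _) hn
  set s := n / (D + 1) with hs
  have hs1 : (D + 1) * s ≤ n := Nat.mul_div_le n (D + 1)
  have hs2 : n < (D + 1) * s + (D + 1) := by
    have := Nat.lt_mul_div_succ n (Nat.succ_pos D)
    rw [← hs] at this
    linarith [this]
  have hs3 : 1 ≤ s := by
    rw [hs]; exact (Nat.one_le_div_iff (Nat.succ_pos D)).2 hn2
  have hDge : 1 ≤ D := by rw [hD]; omega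
  have hs4 : 2 * s ≤ n := by nlinarith
  set a := n - s with ha
  have han : a ≤ n := Nat.sub_le _ _
  have hanA : nA ≤ a := by omega
  have hanB : nB ≤ a := by omega
  have hbase : ∀ N', a ≤ N' → N' ≤ n → r n - ε / 2 ≤ r N' := by
    intro N' h1 h2
    have h3 := hnB N' (le_trans hanB h1) (n - N') ?_
    · have : N' + (n - N') = n := by omega
      rw [this] at h3
      exact h3
    · -- n - N' ≤ s ≤ N'/D ≤ δ N'
      have g1 : n - N' ≤ s := by omega
      have g2 : D * s ≤ N' := by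
        have : D * s + s ≤ n := by nlinarith
        omega
      have g1' : ((n - N' : ℕ) : ℝ) ≤ s := by exact_mod_cast g1
      have g2' : (D : ℝ) * s ≤ N' := by exact_mod_cast g2
      have g3 : 1 ≤ δ * D := by
        rw [div_le_iff₀ hδ] at hD1; linarith
      have hs0 : (0:ℝ) ≤ s := Nat.cast_nonneg _
      have g4 : (s:ℝ) ≤ δ * D * s := by nlinarith
      have g5 : δ * D * s ≤ δ * N' := by
        have := mul_le_mul_of_nonneg_left g2' hδ.le
        linarith
      linarith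
  have hnpos : 0 < n := by omega
  set u := N / n with hu
  have hu1 : N < (u + 1) * n := by
    have := Nat.lt_mul_div_succ N hnpos
    rw [← hu] at this
    linarith [this]
  have hu2 : u * n ≤ N := Nat.div_mul_le_self N n
  have hu3 : 2 * (D + 1) ≤ u := by
    rw [hu]; exact (Nat.le_div_iff_mul_le hnpos).2 hN1
  have hu4 : u ≤ J := by
    rw [hu]
    calc N / n ≤ J * n / n := Nat.div_le_div_right hN2
      _ = J := Nat.mul_div_cancel _ hnpos
  have hua : (u + 1) * a ≤ N := by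
    -- (u+1) a = (u+1) n - (u+1) s ≤ N + n - (u+1) s and (u+1) s ≥ n
    have g1 : n ≤ (u + 1) * s := by nlinarith
    have g2 : (u + 1) * a + (u + 1) * s = (u + 1) * n := by
      rw [← Nat.mul_add]; congr 1; omega
    have g3 : (u + 1) * n = u * n + n := by ring
    omega
  have key := sum_lemma r a n nA (r n - ε / 2) εA hεA0.le han hanA hnA hbase u N hua hu1.le
  have hfin : (u : ℝ) * εA ≤ ε / 2 := by
    have g1 : (u : ℝ) ≤ J := by exact_mod_cast hu4
    have g2 : (u : ℝ) * εA ≤ J * εA := mul_le_mul_of_nonneg_right g1 hεA0.le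
    have g3 : (J : ℝ) * εA ≤ ε / 2 := by
      rw [hεA]
      have hJ : (0:ℝ) ≤ J := Nat.cast_nonneg _
      rw [mul_div_assoc', div_le_div_iff₀ (by positivity) (by norm_num)]
      nlinarith
    linarith
  linarith

/-- the conclusion of `scale_mono` -/
def ScaleMono (r : ℕ → ℝ) : Prop :=
  ∀ ε : ℝ, 0 < ε → ∃ T : ℕ, ∀ J : ℕ, ∃ n0 : ℕ, ∀ n ≥ n0, ∀ N : ℕ, T * n ≤ N → N ≤ J * n →
      r n - ε ≤ r N

/-- convergence along one subsequence with bounded ratios forces convergence -/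
theorem subseq_conv (r : ℕ → ℝ) (hS : ScaleMono r) (ν : ℕ → ℕ) (hν : StrictMono ν) (ρ : ℕ)
    (hρ : ∀ j, ν (j + 1) ≤ ρ * ν j) (α : ℝ) (hα : Tendsto (fun j => r (ν j)) atTop (nhds α)) :
    Tendsto r atTop (nhds α) := by
  rw [Metric.tendsto_atTop] at hα ⊢
  intro ε hε
  obtain ⟨T, hT⟩ := hS (ε / 2) (by positivity)
  obtain ⟨n0, hn0⟩ := hT (ρ * (T + 1))
  obtain ⟨j0, hj0⟩ := hα (ε / 2) (by positivity)
  have hνid : ∀ j, j ≤ ν j := hν.id_le
  set j1 := max j0 n0 with hj1
  refine ⟨max ((T + 1) * ν j1) (max n0 (ν j0 + 1)), ?_⟩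
  intro n hn
  have hna : (T + 1) * ν j1 ≤ n := le_trans (le_max_left _ _) hn
  have hnb : n0 ≤ n := le_trans (le_trans (le_max_left _ _) (le_max_right _ _)) hn
  have hnc : ν j0 + 1 ≤ n := le_trans (le_trans (le_max_right _ _) (le_max_right _ _)) hn
  rw [Real.dist_eq, abs_lt]
  constructor
  · -- lower bound
    set j := Nat.findGreatest (fun j => (T + 1) * ν j ≤ n) n with hj
    have hj1n : j1 ≤ n := by
      have h1 := hνid j1
      nlinarith
    have hjge : j1 ≤ j := Nat.le_findGreatest hj1n hna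
    have hjP : (T + 1) * ν j ≤ n :=
      Nat.findGreatest_spec (P := fun j => (T + 1) * ν j ≤ n) hj1n hna
    have hjn : ¬ ((T + 1) * ν (j + 1) ≤ n) := by
      intro hcon
      have h1 : j + 1 ≤ n := by
        have := hνid (j + 1)
        nlinarith
      have := Nat.le_findGreatest (P := fun j => (T + 1) * ν j ≤ n) h1 hcon
      omega
    push Not at hjn
    have hup : n ≤ ρ * (T + 1) * ν j := by
      have h1 := hρ j
      have h2 : (T + 1) * ν (j + 1) ≤ (T + 1) * (ρ * ν j) := Nat.mul_le_mul_left _ h1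
      have h3 : (T + 1) * (ρ * ν j) = ρ * (T + 1) * ν j := by ring
      omega
    have hlow : T * ν j ≤ n := by nlinarith
    have hνn0 : n0 ≤ ν j := le_trans (le_trans (le_max_right _ _) hjge) (hνid j)
    have h1 := hn0 (ν j) hνn0 n hlow hup
    have h2 := hj0 j (le_trans (le_max_left _ _) hjge)
    rw [Real.dist_eq, abs_lt] at h2
    linarith [h2.1]
  · -- upper bound
    have hex : ∃ j, (T + 1) * n ≤ ν j := ⟨(T + 1) * n, hνid _⟩
    set j := Nat.find hex with hj
    have hjP : (T + 1) * n ≤ ν j := Nat.find_spec hex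
    have hjgt : j0 < j := by
      by_contra hcon
      push Not at hcon
      have h1 : ν j ≤ ν j0 := hν.monotone hcon
      nlinarith
    obtain ⟨i, hi⟩ : ∃ i, j = i + 1 := ⟨j - 1, by omega⟩
    have hmin : ¬ ((T + 1) * n ≤ ν i) := Nat.find_min hex (by omega)
    push Not at hmin
    have hup : ν j ≤ ρ * (T + 1) * n := by
      rw [hi]
      have h1 := hρ i
      have h2 : ρ * ν i ≤ ρ * ((T + 1) * n) := Nat.mul_le_mul_left _ hmin.le
      have h3 : ρ * ((T + 1) * n) = ρ * (T + 1) * n := by ring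
      omega
    have hlow : T * n ≤ ν j := by nlinarith
    have h1 := hn0 n hnb (ν j) hlow hup
    have h2 := hj0 j hjgt.le
    rw [Real.dist_eq, abs_lt] at h2
    linarith [h2.2]

end Vale.Agent.P170
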