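import Mathlib

namespace Vale.Agent.P170

open Finset

/-- A proper `k`-clause over the variable type `V`: a set `c.1.1` of exactly `k` distinct variables
together with the subset `c.1.2` of those variables that occur positively (the others occur negated). -/
def Clause (k : ℕ) (V : Type) [DecidableEq V] : Type :=
  {c : Finset V × Finset V // c.1.card = k ∧ c.2 ⊆ c.1}

instance (k : ℕ) (V : Type) [DecidableEq V] [Fintype V] : Fintype (Clause k V) :=
  inferInstanceAs (Fintype {c : Finset V × Finset V // c.1.card = k ∧ c.2 ⊆ c.1})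

instance (k : ℕ) (V : Type) [DecidableEq V] : DecidableEq (Clause k V) :=
  inferInstanceAs (DecidableEq {c : Finset V × Finset V // c.1.card = k ∧ c.2 ⊆ c.1})

/-- The assignment `σ` satisfies the clause `c`: some literal of `c` is true under `σ`. -/
def Clause.Sat {k : ℕ} {V : Type} [DecidableEq V] (c : Clause k V) (σ : V → Bool) : Prop :=
  ∃ v ∈ c.1.1, (σ v = true ↔ v ∈ c.1.2)

/-- Probability that `m` independent uniform proper `k`-clauses over the variable type `V`
are simultaneously satisfiable (number of satisfiable `m`-tuples over number of `m`-tuples). -/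
noncomputable def satP (k : ℕ) (V : Type) [DecidableEq V] (m : ℕ) : ℝ :=
  (Nat.card {F : Fin m → Clause k V // ∃ σ : V → Bool, ∀ i, (F i).Sat σ} : ℝ) /
    (Nat.card (Fin m → Clause k V) : ℝ)

/-- `P_{k,n}(m)` of the problem. -/
noncomputable def satProb (k n m : ℕ) : ℝ := satP k (Fin n) m

/-- `r` is a sharp threshold sequence for random `k`-SAT in the sense of Friedgut's theorem:
for every `ε > 0`, `P_{k,n}(⌊(r n - ε) n⌋) → 1` and `P_{k,n}(⌊(r n + ε) n⌋) → 0`. -/
def IsThresholdSeq (k : ℕ) (r : ℕ → ℝ) : Prop :=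
  ∀ ε : ℝ, 0 < ε →
    Filter.Tendsto (fun n : ℕ => satProb k n ⌊(r n - ε) * n⌋₊) Filter.atTop (nhds 1) ∧
    Filter.Tendsto (fun n : ℕ => satProb k n ⌊(r n + ε) * n⌋₊) Filter.atTop (nhds 0)

/-- `α` is a limiting threshold of random `k`-SAT, as in the problem. -/
def HasLimitingThreshold (k : ℕ) (α : ℝ) : Prop :=
  0 < α ∧
  (∀ c : ℝ, 0 ≤ c → c < α →
    Filter.Tendsto (fun n : ℕ => satProb k n ⌊c * n⌋₊) Filter.atTop (nhds 1)) ∧
  (∀ c : ℝ, α < c →
    Filter.Tendsto (fun n : ℕ => satProb k n ⌊c * n⌋₊) Filter.atTop (nhds 0))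

end Vale.Agent.P170
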