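import Mathlib
import Vale.Agent.P170.Defs

namespace Vale.Agent.P170

open Finset

variable {k : ℕ} {V : Type} [DecidableEq V] [Fintype V]

/-- the clauses falsified by all assignments of a nonempty family are counted by the frozen variables -/
lemma card_bad {A : Type} (S : Set A) (hS : S.Nonempty) (ev : A → V → Bool)
    [DecidablePred (fun c : Clause k V => ∀ s ∈ S, ¬ c.Sat (ev s))]
    [DecidablePred (fun v : V => ∀ s ∈ S, ∀ t ∈ S, ev s v = ev t v)] :
    (univ.filter (fun c : Clause k V => ∀ s ∈ S, ¬ c.Sat (ev s))).card =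
      ((univ.filter (fun v : V => ∀ s ∈ S, ∀ t ∈ S, ev s v = ev t v)).card).choose k := by
  obtain ⟨s0, hs0⟩ := hS
  rw [← Finset.card_powersetCard]
  have key : ∀ (c : Clause k V) (s : A), ¬ c.Sat (ev s) → ∀ v ∈ c.1.1, (v ∈ c.1.2 ↔ ev s v = false) := by
    intro c s h v hv
    have h' : ¬ (ev s v = true ↔ v ∈ c.1.2) := fun hh => h ⟨v, hv, hh⟩
    by_cases h1 : v ∈ c.1.2 <;> cases h2 : ev s v <;> simp_all
  apply Finset.card_bij (fun c _ => c.1.1)
  · intro c hc
    simp only [mem_filter, mem_univ, true_and] at hc
    rw [Finset.mem_powersetCard]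
    refine ⟨?_, c.2.1⟩
    intro v hv
    simp only [mem_filter, mem_univ, true_and]
    intro s hs t ht
    have h1 := key c s (hc s hs) v hv
    have h2 := key c t (hc t ht) v hv
    by_cases h3 : v ∈ c.1.2
    · rw [h1.1 h3, h2.1 h3]
    · have h4 : ev s v = true := by
        cases h : ev s v
        · exact absurd (h1.2 h) h3
        · rfl
      have h5 : ev t v = true := by
        cases h : ev t v
        · exact absurd (h2.2 h) h3
        · rfl
      rw [h4, h5]
  · intro c hc d hd hcd
    simp only [mem_filter, mem_univ, true_and] at hc hd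
    apply Subtype.ext
    apply Prod.ext hcd
    ext v
    constructor
    · intro hv
      have hv1 : v ∈ c.1.1 := c.2.2 hv
      have hv2 : v ∈ d.1.1 := hcd ▸ hv1
      exact (key d s0 (hd s0 hs0) v hv2).2 ((key c s0 (hc s0 hs0) v hv1).1 hv)
    · intro hv
      have hv1 : v ∈ d.1.1 := d.2.2 hv
      have hv2 : v ∈ c.1.1 := hcd ▸ hv1
      exact (key c s0 (hc s0 hs0) v hv2).2 ((key d s0 (hd s0 hs0) v hv1).1 hv)
  · intro U hU
    rw [Finset.mem_powersetCard] at hU
    let c0 : Clause k V := ⟨(U, U.filter (fun v => ev s0 v = false)), hU.2, Finset.filter_subset _ _⟩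
    refine ⟨c0, ?_, rfl⟩
    rw [Finset.mem_filter]
    refine ⟨mem_univ _, ?_⟩
    intro s hs hsat
    obtain ⟨v, hv, hiff0⟩ := hsat
    have hiff : (ev s v = true ↔ v ∈ U.filter (fun v => ev s0 v = false)) := hiff0
    simp only [mem_filter] at hiff
    have hv' : v ∈ U := hv
    have hfr := hU.1 hv'
    simp only [mem_filter, mem_univ, true_and] at hfr
    have := hfr s hs s0 hs0
    cases h : ev s v
    · rw [h] at hiff this
      have := hiff.2 ⟨hv', this.symm⟩
      simp at this
    · rw [h] at hiff this
      have := (hiff.1 rfl).2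
      rw [← ‹true = ev s0 v›] at this
      simp at this

/-- number of proper `k`-clauses -/
lemma card_clause : Fintype.card (Clause k V) = 2 ^ k * (Fintype.card V).choose k := by
  classical
  have h1 : Fintype.card (Clause k V) =
      (univ.filter (fun c : Finset V × Finset V => c.1.card = k ∧ c.2 ⊆ c.1)).card := by
    exact Fintype.card_subtype (fun c : Finset V × Finset V => c.1.card = k ∧ c.2 ⊆ c.1)
  rw [h1]
  rw [Finset.card_eq_sum_card_fiberwise (f := Prod.fst) (t := powersetCard k univ)]
  · have : ∀ U ∈ powersetCard k (univ : Finset V),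
        (Finset.filter (fun a : Finset V × Finset V => a.1 = U)
          (univ.filter (fun c : Finset V × Finset V => c.1.card = k ∧ c.2 ⊆ c.1))).card = 2 ^ k := by
      intro U hU
      rw [Finset.mem_powersetCard] at hU
      have : (Finset.filter (fun a : Finset V × Finset V => a.1 = U)
          (univ.filter (fun c : Finset V × Finset V => c.1.card = k ∧ c.2 ⊆ c.1))) =
          (U.powerset).image (fun W => (U, W)) := by
        ext ⟨X, Y⟩
        simp only [mem_filter, mem_univ, true_and, mem_image, mem_powerset, Prod.mk.injEq]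
        constructor
        · rintro ⟨⟨h1, h2⟩, rfl⟩
          exact ⟨Y, h2, rfl, rfl⟩
        · rintro ⟨W, hW, rfl, rfl⟩
          exact ⟨⟨hU.2, hW⟩, rfl⟩
      rw [this, Finset.card_image_of_injective, Finset.card_powerset, hU.2]
      intro a b hab
      exact (Prod.mk.inj hab).2
    rw [Finset.sum_congr rfl this]
    simp [mul_comm]
  · intro c hc
    simp only [coe_filter, mem_univ, true_and, Set.mem_ofPred_eq] at hc
    simp [Finset.mem_powersetCard, hc.1]

end Vale.Agent.P170
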