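import Mathlib

namespace Vale.Agent.P170

open Finset

lemma choose_ratio_eq (a n k : ℕ) :
    (a.choose k : ℝ) / (n.choose k : ℝ) = (a.descFactorial k : ℝ) / (n.descFactorial k : ℝ) := by
  rw [Nat.descFactorial_eq_factorial_mul_choose, Nat.descFactorial_eq_factorial_mul_choose]
  push_cast
  have : (k.factorial : ℝ) ≠ 0 := by positivity
  rw [mul_div_mul_left _ _ this]

lemma desc_pos {n k : ℕ} (h : k ≤ n) : (0 : ℝ) < (n.descFactorial k : ℝ) := by
  exact_mod_cast Nat.descFactorial_pos.2 h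

lemma desc_ratio_nonneg (a n k : ℕ) : (0:ℝ) ≤ (a.descFactorial k : ℝ) / (n.descFactorial k : ℝ) := by
  positivity

lemma desc_ratio_le_pow (a n k : ℕ) (han : a ≤ n) (hk : k ≤ n) :
    (a.descFactorial k : ℝ) / (n.descFactorial k : ℝ) ≤ ((a : ℝ) / n) ^ k := by
  induction k with
  | zero => simp
  | succ k ih =>
    have hk' : k ≤ n := by omega
    have ih' := ih hk'
    rw [Nat.descFactorial_succ, Nat.descFactorial_succ, pow_succ]
    push_cast
    have hn : (0:ℝ) < n := by
      have : 0 < n := by omega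
      exact_mod_cast this
    have hnk : (0:ℝ) < ((n - k : ℕ) : ℝ) := by
      have : 0 < n - k := by omega
      exact_mod_cast this
    have h1 : ((a - k : ℕ) : ℝ) / ((n - k : ℕ) : ℝ) ≤ (a : ℝ) / n := by
      rw [div_le_div_iff₀ hnk hn]
      by_cases hak : k ≤ a
      · rw [Nat.cast_sub hak, Nat.cast_sub hk']
        have : (a : ℝ) ≤ n := by exact_mod_cast han
        have hk0 : (0:ℝ) ≤ k := Nat.cast_nonneg _
        nlinarith
      · have : a - k = 0 := by omega
        rw [this]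
        simp only [Nat.cast_zero, zero_mul]
        positivity
    have h2 : (0:ℝ) ≤ ((a - k : ℕ) : ℝ) / ((n - k : ℕ) : ℝ) := by positivity
    have h3 := desc_ratio_nonneg a n k
    calc ((a - k : ℕ) : ℝ) * (a.descFactorial k : ℝ) / (((n - k : ℕ) : ℝ) * (n.descFactorial k : ℝ))
        = (((a - k : ℕ) : ℝ) / ((n - k : ℕ) : ℝ)) * ((a.descFactorial k : ℝ) / (n.descFactorial k : ℝ)) := by
          rw [mul_div_mul_comm]
      _ ≤ ((a : ℝ) / n) * ((a : ℝ) / n) ^ k := by
          apply mul_le_mul h1 ih' h3 (by positivity)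
      _ = ((a : ℝ) / n) ^ k * ((a : ℝ) / n) := by ring

lemma desc_ratio_le_one (a n k : ℕ) (han : a ≤ n) (hk : k ≤ n) :
    (a.descFactorial k : ℝ) / (n.descFactorial k : ℝ) ≤ 1 := by
  rw [div_le_one (desc_pos hk)]
  exact_mod_cast Nat.descFactorial_le k han

lemma pow_le_desc_ratio_add (a n k : ℕ) (han : a ≤ n) (hk : k ≤ n) (hn0 : 0 < n) :
    ((a : ℝ) / n) ^ k ≤ (a.descFactorial k : ℝ) / (n.descFactorial k : ℝ)
      + (k : ℝ) * (k - 1) / (2 * n) := by
  induction k with
  | zero => simp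
  | succ k ih =>
    have hk' : k ≤ n := by omega
    have ih' := ih hk'
    have hn : (0:ℝ) < n := by exact_mod_cast hn0
    have hnk : (0:ℝ) < ((n - k : ℕ) : ℝ) := by
      have : 0 < n - k := by omega
      exact_mod_cast this
    have ht0 : (0:ℝ) ≤ (a:ℝ)/n := by positivity
    have ht1 : (a:ℝ)/n ≤ 1 := by
      rw [div_le_one hn]; exact_mod_cast han
    have hp0 := desc_ratio_nonneg a n k
    have hp1 := desc_ratio_le_one a n k han hk'
    have hk0 : (0:ℝ) ≤ k := Nat.cast_nonneg _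
    rw [Nat.descFactorial_succ, Nat.descFactorial_succ, pow_succ]
    push_cast
    rw [mul_div_mul_comm]
    set p := (a.descFactorial k : ℝ) / (n.descFactorial k : ℝ) with hp
    set t := (a:ℝ)/n with ht
    have hsplit : ((k:ℝ) + 1) * ((k:ℝ) + 1 - 1) / (2 * n) = (k:ℝ) * (k - 1) / (2 * n) + k / n := by
      field_simp
      ring
    rw [hsplit]
    by_cases hak : k ≤ a
    · have h1 : t - k / n ≤ ((a - k : ℕ) : ℝ) / ((n - k : ℕ) : ℝ) := by
        rw [Nat.cast_sub hak, Nat.cast_sub hk']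
        have e : t - (k:ℝ) / n = ((a:ℝ) - k) / n := by rw [ht]; ring
        rw [e]
        have hak' : (0:ℝ) ≤ (a:ℝ) - k := by
          have : (k:ℝ) ≤ a := by exact_mod_cast hak
          linarith
        apply div_le_div_of_nonneg_left hak'
        · rw [Nat.cast_sub hk'] at hnk; exact hnk
        · linarith
      have hkn : (0:ℝ) ≤ (k:ℝ)/n := by positivity
      have h2 : (t - k / n) * p ≤ ((a - k : ℕ) : ℝ) / ((n - k : ℕ) : ℝ) * p :=
        mul_le_mul_of_nonneg_right h1 hp0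
      have hE : (0:ℝ) ≤ (k:ℝ) * (k - 1) / (2 * n) := by
        rcases Nat.eq_zero_or_pos k with h | h
        · subst h; simp
        · have : (1:ℝ) ≤ k := by exact_mod_cast h
          apply div_nonneg _ (by positivity)
          nlinarith
      -- t^k * t ≤ (p + E) * t ≤ p t + E
      have h3 : t ^ k * t ≤ (p + (k:ℝ) * (k - 1) / (2 * n)) * t :=
        mul_le_mul_of_nonneg_right ih' ht0
      nlinarith
    · have hz : a - k = 0 := by omega
      rw [hz]
      simp only [Nat.cast_zero, zero_div, zero_mul, zero_add]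
      have hak' : (a:ℝ) ≤ k := by
        have : a ≤ k := by omega
        exact_mod_cast this
      have h1 : t ≤ k / n := by
        rw [ht]; exact div_le_div_of_nonneg_right hak' hn.le
      have h2 : t ^ k ≤ 1 := pow_le_one₀ ht0 ht1
      have hE : (0:ℝ) ≤ (k:ℝ) * (k - 1) / (2 * n) := by
        rcases Nat.eq_zero_or_pos k with h | h
        · subst h; simp
        · have : (1:ℝ) ≤ k := by exact_mod_cast h
          apply div_nonneg _ (by positivity)
          nlinarith
      nlinarith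

/-- the convexity inequality with error term used in the interpolation step -/
lemma key_numeric (k n1 n2 a1 a2 : ℕ) (h1 : k ≤ n1) (h2 : k ≤ n2) (hn1 : 0 < n1) (hn2 : 0 < n2)
    (ha1 : a1 ≤ n1) (ha2 : a2 ≤ n2) :
    ((a1 + a2).choose k : ℝ) / ((n1 + n2).choose k : ℝ) ≤
      ((n1 : ℝ) / (n1 + n2)) * ((a1.choose k : ℝ) / (n1.choose k : ℝ)) +
      ((n2 : ℝ) / (n1 + n2)) * ((a2.choose k : ℝ) / (n2.choose k : ℝ)) +
      (k : ℝ) * (k - 1) / (n1 + n2) := by
  rw [choose_ratio_eq, choose_ratio_eq, choose_ratio_eq]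
  have hN1 : (0:ℝ) < n1 := by exact_mod_cast hn1
  have hN2 : (0:ℝ) < n2 := by exact_mod_cast hn2
  have hN : (0:ℝ) < (n1:ℝ) + n2 := by positivity
  have hA := desc_ratio_le_pow (a1 + a2) (n1 + n2) k (by omega) (by omega)
  have hB1 := pow_le_desc_ratio_add a1 n1 k ha1 h1 hn1
  have hB2 := pow_le_desc_ratio_add a2 n2 k ha2 h2 hn2
  set w1 := (n1 : ℝ) / (n1 + n2) with hw1
  set w2 := (n2 : ℝ) / (n1 + n2) with hw2
  have hw1' : 0 ≤ w1 := by positivity
  have hw2' : 0 ≤ w2 := by positivity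
  have hw : w1 + w2 = 1 := by
    rw [hw1, hw2]; field_simp
  have hconv : (w1 * ((a1:ℝ)/n1) + w2 * ((a2:ℝ)/n2)) ^ k ≤
      w1 * ((a1:ℝ)/n1) ^ k + w2 * ((a2:ℝ)/n2) ^ k := by
    have := (convexOn_pow k).2 (x := (a1:ℝ)/n1) (y := (a2:ℝ)/n2)
      (by simp only [Set.mem_Ici]; positivity) (by simp only [Set.mem_Ici]; positivity) hw1' hw2' hw
    simpa [smul_eq_mul] using this
  have heq : (((a1 + a2 : ℕ) : ℝ) / ((n1 + n2 : ℕ) : ℝ)) = w1 * ((a1:ℝ)/n1) + w2 * ((a2:ℝ)/n2) := by
    rw [hw1, hw2]; push_cast; field_simp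
  rw [heq] at hA
  have e1 : w1 * ((k : ℝ) * (k - 1) / (2 * n1)) + w2 * ((k : ℝ) * (k - 1) / (2 * n2))
      = (k : ℝ) * (k - 1) / (n1 + n2) := by
    rw [hw1, hw2]; field_simp; ring
  have g1 := mul_le_mul_of_nonneg_left hB1 hw1'
  have g2 := mul_le_mul_of_nonneg_left hB2 hw2'
  push_cast at hA ⊢
  linarith

end Vale.Agent.P170
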