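import Mathlib

namespace Vale.Agent.P170

open Finset

/-- indicator of nonemptiness -/
noncomputable def ind {A : Type} (S : Set A) : ℝ := by
  classical exact if S.Nonempty then 1 else 0

lemma ind_of_nonempty {A : Type} {S : Set A} (h : S.Nonempty) : ind S = 1 := by
  classical
  simp [ind, h]

lemma ind_of_empty {A : Type} {S : Set A} (h : ¬ S.Nonempty) : ind S = 0 := by
  classical
  simp [ind, h]

lemma ind_nonneg {A : Type} (S : Set A) : 0 ≤ ind S := by
  by_cases h : S.Nonempty
  · rw [ind_of_nonempty h]; norm_num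
  · rw [ind_of_empty h]

lemma ind_le_one {A : Type} (S : Set A) : ind S ≤ 1 := by
  by_cases h : S.Nonempty
  · rw [ind_of_nonempty h]
  · rw [ind_of_empty h]; norm_num

lemma ind_mono {A : Type} {S T : Set A} (h : S ⊆ T) : ind S ≤ ind T := by
  by_cases hS : S.Nonempty
  · rw [ind_of_nonempty hS, ind_of_nonempty (hS.mono h)]
  · rw [ind_of_empty hS]; exact ind_nonneg T

/-- averaging operator: apply one uniformly random constraint from `Ω`. -/
noncomputable def opT {A Ω : Type} [Fintype Ω] (sat : Ω → Set A) :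
    Module.End ℝ (Set A → ℝ) where
  toFun f := fun S => (∑ c, f (S ∩ sat c)) / (Fintype.card Ω : ℝ)
  map_add' f g := by
    funext S
    simp [Finset.sum_add_distrib, add_div]
  map_smul' r f := by
    funext S
    simp only [Pi.smul_apply, smul_eq_mul, RingHom.id_apply]
    rw [← Finset.mul_sum, mul_div_assoc]

lemma opT_apply {A Ω : Type} [Fintype Ω] (sat : Ω → Set A) (f : Set A → ℝ) (S : Set A) :
    opT sat f S = (∑ c, f (S ∩ sat c)) / (Fintype.card Ω : ℝ) := rfl

lemma opT_commute {A Ω Ω' : Type} [Fintype Ω] [Fintype Ω'] (sat : Ω → Set A) (sat' : Ω' → Set A) :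
    Commute (opT sat) (opT sat') := by
  apply LinearMap.ext
  intro f
  funext S
  simp only [Module.End.mul_apply, opT_apply]
  rw [← Finset.sum_div, ← Finset.sum_div, Finset.sum_comm, div_div, div_div, mul_comm]
  congr 1
  apply Finset.sum_congr rfl
  intro c _
  apply Finset.sum_congr rfl
  intro d _
  congr 1
  ext x
  simp only [Set.mem_inter_iff]
  tauto

/-- order preserving operators -/
def Mono {A : Type} (T : Module.End ℝ (Set A → ℝ)) : Prop :=
  ∀ f g : Set A → ℝ, f ≤ g → T f ≤ T g

lemma opT_mono {A Ω : Type} [Fintype Ω] (sat : Ω → Set A) : Mono (opT sat) := by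
  intro f g h S
  simp only [opT_apply]
  apply div_le_div_of_nonneg_right _ (Nat.cast_nonneg _)
  exact Finset.sum_le_sum (fun c _ => h _)

lemma Mono.pow {A : Type} {T : Module.End ℝ (Set A → ℝ)} (h : Mono T) (m : ℕ) : Mono (T ^ m) := by
  induction m with
  | zero => intro f g hfg; simpa using hfg
  | succ m ih =>
    intro f g hfg
    rw [pow_succ]
    simp only [Module.End.mul_apply]
    exact ih _ _ (h _ _ hfg)

lemma Mono.mul {A : Type} {T U : Module.End ℝ (Set A → ℝ)} (h : Mono T) (h' : Mono U) :
    Mono (T * U) := by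
  intro f g hfg
  simp only [Module.End.mul_apply]
  exact h _ _ (h' _ _ hfg)

lemma Mono.add {A : Type} {T U : Module.End ℝ (Set A → ℝ)} (h : Mono T) (h' : Mono U) :
    Mono (T + U) := by
  intro f g hfg
  simp only [LinearMap.add_apply]
  exact add_le_add (h _ _ hfg) (h' _ _ hfg)

lemma Mono.smul {A : Type} {T : Module.End ℝ (Set A → ℝ)} (h : Mono T) {r : ℝ} (hr : 0 ≤ r) :
    Mono (r • T) := by
  intro f g hfg S
  simp only [LinearMap.smul_apply, Pi.smul_apply, smul_eq_mul]
  exact mul_le_mul_of_nonneg_left (h _ _ hfg S) hr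

lemma Mono.one {A : Type} : Mono (1 : Module.End ℝ (Set A → ℝ)) := by
  intro f g hfg
  simpa using hfg

/-- formula for the iterated operator -/
lemma opT_pow_apply {A Ω : Type} [Fintype Ω] (sat : Ω → Set A) (m : ℕ) (f : Set A → ℝ) (S : Set A) :
    ((opT sat) ^ m) f S =
      (∑ F : Fin m → Ω, f (S ∩ ⋂ i, sat (F i))) / (Fintype.card Ω : ℝ) ^ m := by
  induction m generalizing S with
  | zero => simp
  | succ m ih =>
    rw [pow_succ']
    simp only [Module.End.mul_apply, opT_apply]
    simp_rw [ih]
    rw [← Finset.sum_div, div_div, ← pow_succ]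
    congr 1
    rw [← (Fin.consEquiv (fun _ => Ω)).sum_comp, Fintype.sum_prod_type]
    apply Finset.sum_congr rfl
    intro c _
    apply Finset.sum_congr rfl
    intro F _
    congr 1
    ext x
    simp only [Set.mem_inter_iff, Set.mem_iInter, Fin.consEquiv_apply]
    constructor
    · rintro ⟨⟨h1, h2⟩, h3⟩
      refine ⟨h1, ?_⟩
      intro i
      refine Fin.cases ?_ ?_ i
      · simpa using h2
      · intro j; simpa using h3 j
    · rintro ⟨h1, h2⟩
      refine ⟨⟨h1, ?_⟩, ?_⟩
      · simpa using h2 0
      · intro j; simpa using h2 j.succ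

end Vale.Agent.P170
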