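import Mathlib
import Vale.Agent.P170.Defs
import Vale.Agent.P170.Oper
import Vale.Agent.P170.Count
import Vale.Agent.P170.Numeric

namespace Vale.Agent.P170

open Finset

section general

variable {k : ℕ} {V : Type} [DecidableEq V] [Fintype V]

/-- constraint system given by clauses over `V` read through an evaluation map -/
def satOf {A : Type} (k : ℕ) (ev : A → V → Bool) : Clause k V → Set A :=
  fun c => {s | c.Sat (ev s)}

open Classical in
/-- number of frozen variables of a family of assignments -/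
noncomputable def frozen {A : Type} (S : Set A) (ev : A → V → Bool) : ℕ :=
  (univ.filter (fun v : V => ∀ s ∈ S, ∀ t ∈ S, ev s v = ev t v)).card

lemma frozen_le {A : Type} (S : Set A) (ev : A → V → Bool) : frozen S ev ≤ Fintype.card V := by
  classical
  unfold frozen
  exact Finset.card_le_univ _

lemma card_clause_pos (hk : k ≤ Fintype.card V) : (0:ℝ) < (Fintype.card (Clause k V) : ℝ) := by
  rw [card_clause]
  have : 0 < (Fintype.card V).choose k := Nat.choose_pos hk
  positivity

lemma opT_ind_empty {A Ω : Type} [Fintype Ω] (sat : Ω → Set A) {S : Set A} (hS : ¬ S.Nonempty) :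
    opT sat ind S = 0 := by
  rw [opT_apply]
  have : ∀ c, ind (S ∩ sat c) = 0 := by
    intro c
    apply ind_of_empty
    intro h
    exact hS (h.mono Set.inter_subset_left)
  simp [this]

lemma opT_ind_apply {A : Type} (S : Set A) (hS : S.Nonempty) (ev : A → V → Bool)
    (hk : k ≤ Fintype.card V) :
    opT (satOf k ev) ind S =
      1 - ((frozen S ev).choose k : ℝ) / ((2:ℝ) ^ k * ((Fintype.card V).choose k : ℝ)) := by
  classical
  rw [opT_apply]
  have hpos := card_clause_pos (k := k) (V := V) hk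
  have h1 : ∀ c : Clause k V, ind (S ∩ satOf k ev c) =
      1 - (if (∀ s ∈ S, ¬ c.Sat (ev s)) then (1:ℝ) else 0) := by
    intro c
    by_cases h : ∀ s ∈ S, ¬ c.Sat (ev s)
    · rw [if_pos h, ind_of_empty]
      · ring
      · rintro ⟨s, hs1, hs2⟩
        exact h s hs1 hs2
    · rw [if_neg h, ind_of_nonempty]
      · ring
      · push Not at h
        obtain ⟨s, hs1, hs2⟩ := h
        exact ⟨s, hs1, hs2⟩
  simp_rw [h1]
  rw [Finset.sum_sub_distrib, Finset.sum_boole, card_bad S hS ev]
  simp only [sum_const, card_univ, nsmul_eq_mul, mul_one]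
  rw [sub_div, div_self hpos.ne']
  congr 2
  rw [card_clause]
  push_cast
  ring

end general

section sums

variable {k : ℕ} {V1 V2 : Type} [DecidableEq V1] [Fintype V1] [DecidableEq V2] [Fintype V2]

lemma frozen_sum (S : Set (V1 ⊕ V2 → Bool)) :
    frozen S (fun s => s) = frozen S (fun s => s ∘ Sum.inl) + frozen S (fun s => s ∘ Sum.inr) := by
  classical
  unfold frozen
  simp only [Finset.card_filter, Fintype.sum_sum_type, Function.comp]

/-- global clauses -/
noncomputable def TG (k : ℕ) (V1 V2 : Type) [DecidableEq V1] [Fintype V1] [DecidableEq V2]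
    [Fintype V2] : Module.End ℝ (Set (V1 ⊕ V2 → Bool) → ℝ) :=
  opT (satOf (V := V1 ⊕ V2) k (fun s => s))

/-- clauses inside the first block -/
noncomputable def T1 (k : ℕ) (V1 V2 : Type) [DecidableEq V1] [Fintype V1] [DecidableEq V2]
    [Fintype V2] : Module.End ℝ (Set (V1 ⊕ V2 → Bool) → ℝ) :=
  opT (satOf (V := V1) k (fun s => s ∘ Sum.inl))

/-- clauses inside the second block -/
noncomputable def T2 (k : ℕ) (V1 V2 : Type) [DecidableEq V1] [Fintype V1] [DecidableEq V2]
    [Fintype V2] : Module.End ℝ (Set (V1 ⊕ V2 → Bool) → ℝ) :=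
  opT (satOf (V := V2) k (fun s => s ∘ Sum.inr))

/-- the loss factor per interpolation step -/
noncomputable def gam (k N : ℕ) : ℝ := (k : ℝ) * (k - 1) / ((N : ℝ) * ((2:ℝ) ^ k - 1))

lemma step_ineq (hk1 : 1 ≤ k) (h1 : k ≤ Fintype.card V1) (h2 : k ≤ Fintype.card V2)
    (S : Set (V1 ⊕ V2 → Bool)) :
    (1 - gam k (Fintype.card V1 + Fintype.card V2)) *
      (((Fintype.card V1 : ℝ) / (Fintype.card V1 + Fintype.card V2)) * T1 k V1 V2 ind S +
       ((Fintype.card V2 : ℝ) / (Fintype.card V1 + Fintype.card V2)) * T2 k V1 V2 ind S)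
      ≤ TG k V1 V2 ind S := by
  by_cases hS : S.Nonempty
  · unfold TG T1 T2
    rw [opT_ind_apply S hS _ h1, opT_ind_apply S hS _ h2,
      opT_ind_apply S hS _ (by rw [Fintype.card_sum]; omega), frozen_sum, Fintype.card_sum]
    set n1 := Fintype.card V1
    set n2 := Fintype.card V2
    set a1 := frozen S (fun s => s ∘ Sum.inl)
    set a2 := frozen S (fun s => s ∘ Sum.inr)
    have ha1 : a1 ≤ n1 := frozen_le _ _
    have ha2 : a2 ≤ n2 := frozen_le _ _
    have hn1 : 0 < n1 := by omega
    have hn2 : 0 < n2 := by omega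
    have key := key_numeric k n1 n2 a1 a2 h1 h2 hn1 hn2 ha1 ha2
    have hN1 : (0:ℝ) < n1 := by exact_mod_cast hn1
    have hN2 : (0:ℝ) < n2 := by exact_mod_cast hn2
    have hN : (0:ℝ) < (n1:ℝ) + n2 := by positivity
    have y1le : (a1.choose k : ℝ) / (n1.choose k : ℝ) ≤ 1 := by
      rw [choose_ratio_eq]; exact desc_ratio_le_one a1 n1 k ha1 h1
    have y2le : (a2.choose k : ℝ) / (n2.choose k : ℝ) ≤ 1 := by
      rw [choose_ratio_eq]; exact desc_ratio_le_one a2 n2 k ha2 h2
    have y1nn : (0:ℝ) ≤ (a1.choose k : ℝ) / (n1.choose k : ℝ) := by positivity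
    have y2nn : (0:ℝ) ≤ (a2.choose k : ℝ) / (n2.choose k : ℝ) := by positivity
    set y1 := (a1.choose k : ℝ) / (n1.choose k : ℝ)
    set y2 := (a2.choose k : ℝ) / (n2.choose k : ℝ)
    set x := ((a1 + a2).choose k : ℝ) / ((n1 + n2).choose k : ℝ)
    set w1 := (n1 : ℝ) / (n1 + n2) with hw1
    set w2 := (n2 : ℝ) / (n1 + n2) with hw2
    have hw1' : 0 ≤ w1 := by positivity
    have hw2' : 0 ≤ w2 := by positivity
    have hw : w1 + w2 = 1 := by
      rw [hw1, hw2]; field_simp
    have hp : (2:ℝ) ≤ (2:ℝ) ^ k := by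
      calc (2:ℝ) = 2 ^ 1 := by norm_num
        _ ≤ 2 ^ k := pow_le_pow_right₀ (by norm_num) hk1
    set p := (2:ℝ) ^ k with hpdef
    have e1 : (a1.choose k : ℝ) / (p * (n1.choose k : ℝ)) = y1 / p := by
      rw [div_mul_eq_div_div_swap]
    have e2 : (a2.choose k : ℝ) / (p * (n2.choose k : ℝ)) = y2 / p := by
      rw [div_mul_eq_div_div_swap]
    have e3 : ((a1 + a2).choose k : ℝ) / (p * ((n1 + n2).choose k : ℝ)) = x / p := by
      rw [div_mul_eq_div_div_swap]
    rw [e1, e2, e3]
    have hk0 : (1:ℝ) ≤ k := by exact_mod_cast hk1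
    have hg : gam k (n1 + n2) * (p - 1) = (k : ℝ) * (k - 1) / ((n1:ℝ) + n2) := by
      unfold gam
      push_cast
      rw [← hpdef]
      have : p - 1 ≠ 0 := by linarith
      field_simp
    have hg0 : 0 ≤ gam k (n1 + n2) := by
      unfold gam
      apply div_nonneg
      · nlinarith
      · apply mul_nonneg (Nat.cast_nonneg _); rw [← hpdef]; linarith
    set g := gam k (n1 + n2)
    set E := (k : ℝ) * (k - 1) / ((n1:ℝ) + n2)
    have hY : w1 * y1 + w2 * y2 ≤ 1 := by nlinarith
    set Y := w1 * y1 + w2 * y2 with hYdef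
    have hexp : w1 * (1 - y1 / p) + w2 * (1 - y2 / p) = 1 - Y / p := by
      rw [hYdef]
      have : w2 = 1 - w1 := by linarith
      rw [this]; field_simp; ring
    rw [hexp]
    have hp0 : 0 < p := by linarith
    -- goal: (1 - g) * (1 - Y / p) ≤ 1 - x / p
    have h3 : x / p ≤ Y / p + E / p := by
      rw [← add_div]
      exact div_le_div_of_nonneg_right key hp0.le
    have h4 : E / p = g * (1 - 1 / p) := by
      rw [← hg]; field_simp
    have h5 : Y / p ≤ 1 / p := div_le_div_of_nonneg_right hY hp0.le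
    nlinarith
  · unfold TG T1 T2
    rw [opT_ind_empty _ hS, opT_ind_empty _ hS, opT_ind_empty _ hS]
    simp

end sums

end Vale.Agent.P170
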