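import Mathlib
import Vale.Agent.P170.Interp

namespace Vale.Agent.P170

open Finset

section satP

variable {k : ℕ} {V : Type} [DecidableEq V] [Fintype V]

lemma satP_eq_sum (m : ℕ) :
    satP k V m = (∑ F : Fin m → Clause k V, ind {σ : V → Bool | ∀ i, (F i).Sat σ}) /
      (Fintype.card (Clause k V) : ℝ) ^ m := by
  classical
  unfold satP
  congr 1
  · rw [Nat.card_eq_fintype_card, Fintype.card_subtype, Finset.card_filter]
    push_cast
    apply Finset.sum_congr rfl
    intro F _
    by_cases h : ∃ σ : V → Bool, ∀ i, (F i).Sat σ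
    · rw [if_pos h, ind_of_nonempty]
      exact h
    · rw [if_neg h, ind_of_empty]
      exact h
  · rw [Nat.card_eq_fintype_card, Fintype.card_fun, Fintype.card_fin]
    push_cast
    rfl

lemma satP_eq_opT (m : ℕ) :
    satP k V m = ((opT (satOf (V := V) k (fun s => s))) ^ m) ind Set.univ := by
  rw [satP_eq_sum, opT_pow_apply]
  congr 1
  apply Finset.sum_congr rfl
  intro F _
  congr 1
  ext σ
  simp [satOf]

lemma satP_nonneg (m : ℕ) : 0 ≤ satP k V m := by
  unfold satP; positivity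

end satP

section sums

variable {k : ℕ} {V1 V2 : Type} [DecidableEq V1] [Fintype V1] [DecidableEq V2] [Fintype V2]

lemma eval_T1_T2 (j l : ℕ) :
    ((T1 k V1 V2) ^ j * (T2 k V1 V2) ^ l) ind Set.univ = satP k V1 j * satP k V2 l := by
  rw [Module.End.mul_apply]
  unfold T1 T2
  rw [opT_pow_apply]
  simp_rw [opT_pow_apply]
  rw [satP_eq_sum, satP_eq_sum, ← Finset.sum_div, div_div, div_mul_div_comm, Finset.sum_mul_sum,
    mul_comm ((Fintype.card (Clause k V2) : ℝ) ^ l)]
  congr 1
  apply Finset.sum_congr rfl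
  intro F1 _
  apply Finset.sum_congr rfl
  intro F2 _
  by_cases h1 : ∃ σ : V1 → Bool, ∀ i, (F1 i).Sat σ
  · by_cases h2 : ∃ σ : V2 → Bool, ∀ i, (F2 i).Sat σ
    · rw [ind_of_nonempty, ind_of_nonempty (S := {σ : V1 → Bool | ∀ i, (F1 i).Sat σ}) h1,
        ind_of_nonempty (S := {σ : V2 → Bool | ∀ i, (F2 i).Sat σ}) h2]
      · ring
      · obtain ⟨σ1, hσ1⟩ := h1
        obtain ⟨σ2, hσ2⟩ := h2
        refine ⟨Sum.elim σ1 σ2, ⟨Set.mem_univ _, ?_⟩, ?_⟩
        · simp only [Set.mem_iInter]
          intro i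
          have : (Sum.elim σ1 σ2) ∘ Sum.inl = σ1 := by funext x; rfl
          simp only [satOf, Set.mem_ofPred_eq, this]
          exact hσ1 i
        · simp only [Set.mem_iInter]
          intro i
          have : (Sum.elim σ1 σ2) ∘ Sum.inr = σ2 := by funext x; rfl
          simp only [satOf, Set.mem_ofPred_eq, this]
          exact hσ2 i
    · rw [ind_of_empty, ind_of_empty (S := {σ : V2 → Bool | ∀ i, (F2 i).Sat σ}) h2]
      · ring
      · rintro ⟨σ, ⟨_, _⟩, h⟩
        apply h2
        refine ⟨σ ∘ Sum.inr, ?_⟩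
        intro i
        simp only [Set.mem_iInter] at h
        exact h i
  · rw [ind_of_empty, ind_of_empty (S := {σ : V1 → Bool | ∀ i, (F1 i).Sat σ}) h1]
    · ring
    · rintro ⟨σ, ⟨_, h⟩, _⟩
      apply h1
      refine ⟨σ ∘ Sum.inl, ?_⟩
      intro i
      simp only [Set.mem_iInter] at h
      exact h i

lemma interp_pow (hk1 : 1 ≤ k) (h1 : k ≤ Fintype.card V1) (h2 : k ≤ Fintype.card V2)
    (hg : gam k (Fintype.card V1 + Fintype.card V2) ≤ 1) (M : ℕ) :
    (1 - gam k (Fintype.card V1 + Fintype.card V2)) ^ M •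
      (((((Fintype.card V1 : ℝ) / (Fintype.card V1 + Fintype.card V2)) • T1 k V1 V2 +
       ((Fintype.card V2 : ℝ) / (Fintype.card V1 + Fintype.card V2)) • T2 k V1 V2) ^ M) ind)
      ≤ ((TG k V1 V2) ^ M) ind := by
  set g := gam k (Fintype.card V1 + Fintype.card V2)
  set w1 := (Fintype.card V1 : ℝ) / (Fintype.card V1 + Fintype.card V2)
  set w2 := (Fintype.card V2 : ℝ) / (Fintype.card V1 + Fintype.card V2)
  set L := w1 • T1 k V1 V2 + w2 • T2 k V1 V2 with hL
  have hw1 : 0 ≤ w1 := by positivity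
  have hw2 : 0 ≤ w2 := by positivity
  have hg' : 0 ≤ 1 - g := by linarith
  have hLmono : Mono L := ((opT_mono _).smul hw1).add ((opT_mono _).smul hw2)
  have hGmono : Mono (TG k V1 V2) := opT_mono _
  have hcomm : Commute (TG k V1 V2) L := by
    apply Commute.add_right
    · exact (opT_commute _ _).smul_right _
    · exact (opT_commute _ _).smul_right _
  have hstep : (1 - g) • (L ind) ≤ TG k V1 V2 ind := by
    intro S
    have := step_ineq hk1 h1 h2 S
    simpa [hL, smul_eq_mul] using this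
  induction M with
  | zero => simp
  | succ M ih =>
    have e1 : ((TG k V1 V2) ^ (M + 1)) ind = ((TG k V1 V2) ^ M) (TG k V1 V2 ind) := by
      rw [pow_succ, Module.End.mul_apply]
    have s1 : ((TG k V1 V2) ^ M) ((1 - g) • (L ind)) ≤ ((TG k V1 V2) ^ M) (TG k V1 V2 ind) :=
      (hGmono.pow M) _ _ hstep
    have e2 : ((TG k V1 V2) ^ M) ((1 - g) • (L ind)) = (1 - g) • L (((TG k V1 V2) ^ M) ind) := by
      rw [map_smul]
      congr 1
      have := (hcomm.pow_left M).eq
      calc ((TG k V1 V2) ^ M) (L ind) = ((TG k V1 V2) ^ M * L) ind := rfl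
        _ = (L * (TG k V1 V2) ^ M) ind := by rw [this]
        _ = L (((TG k V1 V2) ^ M) ind) := rfl
    have s2 : L ((1 - g) ^ M • ((L ^ M) ind)) ≤ L (((TG k V1 V2) ^ M) ind) := hLmono _ _ ih
    have e3 : (1 - g) ^ (M + 1) • ((L ^ (M + 1)) ind) = (1 - g) • L ((1 - g) ^ M • ((L ^ M) ind)) := by
      rw [map_smul, smul_smul, pow_succ' L, Module.End.mul_apply, pow_succ']
    rw [e1, e3]
    refine le_trans ?_ s1
    rw [e2]
    intro S
    simp only [Pi.smul_apply, smul_eq_mul]
    exact mul_le_mul_of_nonneg_left (s2 S) hg'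

/-- supermultiplicativity, variable types version -/
lemma super_types (hk1 : 1 ≤ k) (h1 : k ≤ Fintype.card V1) (h2 : k ≤ Fintype.card V2)
    (hg : gam k (Fintype.card V1 + Fintype.card V2) ≤ 1) (M : ℕ) :
    (1 - gam k (Fintype.card V1 + Fintype.card V2)) ^ M *
      ∑ j ∈ range (M + 1), (M.choose j : ℝ) *
        ((Fintype.card V1 : ℝ) / (Fintype.card V1 + Fintype.card V2)) ^ j *
        ((Fintype.card V2 : ℝ) / (Fintype.card V1 + Fintype.card V2)) ^ (M - j) *
        (satP k V1 j * satP k V2 (M - j))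
      ≤ satP k (V1 ⊕ V2) M := by
  have h := interp_pow hk1 h1 h2 hg M Set.univ
  rw [satP_eq_opT]
  refine le_trans (le_of_eq ?_) h
  simp only [Pi.smul_apply, smul_eq_mul]
  congr 1
  have hc : Commute (((Fintype.card V1 : ℝ) / (Fintype.card V1 + Fintype.card V2)) • T1 k V1 V2)
      (((Fintype.card V2 : ℝ) / (Fintype.card V1 + Fintype.card V2)) • T2 k V1 V2) :=
    ((opT_commute _ _).smul_left _).smul_right _
  rw [hc.add_pow]
  simp only [LinearMap.sum_apply, Finset.sum_apply]
  apply Finset.sum_congr rfl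
  intro j _
  rw [smul_pow, smul_pow, smul_mul_smul_comm, ← eval_T1_T2]
  rw [← nsmul_eq_mul', LinearMap.smul_apply, Pi.smul_apply, LinearMap.smul_apply, Pi.smul_apply]
  simp only [smul_eq_mul, nsmul_eq_mul]
  ring

end sums

end Vale.Agent.P170
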