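import Mathlib
import Vale.Agent.P170.Super

namespace Vale.Agent.P170

open Finset

/-- functions of sets of assignments that are monotone for inclusion -/
def SetMono {A : Type} (f : Set A → ℝ) : Prop := ∀ S S' : Set A, S ⊆ S' → f S ≤ f S'

lemma ind_setMono {A : Type} : SetMono (ind (A := A)) := fun _ _ h => ind_mono h

lemma opT_setMono {A Ω : Type} [Fintype Ω] (sat : Ω → Set A) {f : Set A → ℝ} (hf : SetMono f) :
    SetMono (opT sat f) := by
  intro S S' h
  simp only [opT_apply]
  apply div_le_div_of_nonneg_right _ (Nat.cast_nonneg _)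
  exact Finset.sum_le_sum (fun c _ => hf _ _ (Set.inter_subset_inter_left _ h))

lemma opT_pow_setMono {A Ω : Type} [Fintype Ω] (sat : Ω → Set A) {f : Set A → ℝ} (hf : SetMono f)
    (m : ℕ) : SetMono (((opT sat) ^ m) f) := by
  induction m with
  | zero => simpa using hf
  | succ m ih =>
    rw [pow_succ', Module.End.mul_apply]
    exact opT_setMono sat ih

lemma opT_le_self {A Ω : Type} [Fintype Ω] (sat : Ω → Set A) {f : Set A → ℝ} (hf : SetMono f)
    (hf0 : ∀ S, 0 ≤ f S) : opT sat f ≤ f := by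
  intro S
  rw [opT_apply]
  rcases Nat.eq_zero_or_pos (Fintype.card Ω) with h | h
  · rw [h]; simpa using hf0 S
  · have hpos : (0:ℝ) < Fintype.card Ω := by exact_mod_cast h
    rw [div_le_iff₀ hpos]
    calc ∑ c, f (S ∩ sat c) ≤ ∑ _c : Ω, f S :=
          Finset.sum_le_sum (fun c _ => hf _ _ Set.inter_subset_left)
      _ = f S * Fintype.card Ω := by simp [mul_comm]

section satP

variable {k : ℕ} {V : Type} [DecidableEq V] [Fintype V]

lemma satP_succ_le (m : ℕ) : satP k V (m + 1) ≤ satP k V m := by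
  rw [satP_eq_opT, satP_eq_opT, pow_succ, Module.End.mul_apply]
  exact ((opT_mono _).pow m) _ _ (opT_le_self _ ind_setMono ind_nonneg) Set.univ

lemma satP_antitone : Antitone (satP k V) := antitone_nat_of_succ_le satP_succ_le

lemma satP_zero : satP k V 0 = 1 := by
  rw [satP_eq_opT]
  simp only [pow_zero, Module.End.one_apply]
  exact ind_of_nonempty ⟨fun _ => true, Set.mem_univ _⟩

lemma satP_le_one (m : ℕ) : satP k V m ≤ 1 := by
  rw [← satP_zero (k := k) (V := V)]
  exact satP_antitone (Nat.zero_le m)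

end satP

section equiv

variable {k : ℕ} {V W : Type} [DecidableEq V] [DecidableEq W]

/-- transport of clauses along an embedding of variables -/
def Clause.map (e : V ↪ W) (c : Clause k V) : Clause k W :=
  ⟨(c.1.1.map e, c.1.2.map e), by
    refine ⟨?_, ?_⟩
    · rw [Finset.card_map]; exact c.2.1
    · exact Finset.map_subset_map.2 c.2.2⟩

lemma Clause.map_sat (e : V ↪ W) (c : Clause k V) (σ : W → Bool) :
    (c.map e).Sat σ ↔ c.Sat (σ ∘ e) := by
  unfold Clause.Sat Clause.map
  simp only [Finset.mem_map, Function.comp]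
  constructor
  · rintro ⟨w, ⟨v, hv, rfl⟩, h⟩
    refine ⟨v, hv, ?_⟩
    rw [h]
    constructor
    · rintro ⟨v', hv', he⟩
      rw [← e.injective he]; exact hv'
    · intro hv'
      exact ⟨v, hv', rfl⟩
  · rintro ⟨v, hv, h⟩
    refine ⟨e v, ⟨v, hv, rfl⟩, ?_⟩
    rw [h]
    constructor
    · intro hv'
      exact ⟨v, hv', rfl⟩
    · rintro ⟨v', hv', he⟩
      rw [← e.injective he]; exact hv'

lemma Clause.map_injective (e : V ↪ W) : Function.Injective (Clause.map (k := k) e) := by
  intro c d h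
  have h1 : c.1.1.map e = d.1.1.map e := congrArg (fun x : Clause k W => x.1.1) h
  have h2 : c.1.2.map e = d.1.2.map e := congrArg (fun x : Clause k W => x.1.2) h
  apply Subtype.ext
  exact Prod.ext (Finset.map_injective e h1) (Finset.map_injective e h2)

/-- equivalence of clause types induced by an equivalence of variables -/
def Clause.equiv (e : V ≃ W) : Clause k V ≃ Clause k W where
  toFun := Clause.map e.toEmbedding
  invFun := Clause.map e.symm.toEmbedding
  left_inv c := by
    apply Subtype.ext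
    apply Prod.ext
    · simp [Clause.map, Finset.map_map]
    · simp [Clause.map, Finset.map_map]
  right_inv c := by
    apply Subtype.ext
    apply Prod.ext
    · simp [Clause.map, Finset.map_map]
    · simp [Clause.map, Finset.map_map]

lemma satP_congr (e : V ≃ W) (m : ℕ) : satP k V m = satP k W m := by
  unfold satP
  congr 2
  · apply Nat.card_congr
    refine Equiv.subtypeEquiv (Equiv.arrowCongr (Equiv.refl _) (Clause.equiv e)) ?_
    intro F
    constructor
    · rintro ⟨σ, hσ⟩
      refine ⟨σ ∘ e.symm, ?_⟩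
      intro i
      have : (Equiv.arrowCongr (Equiv.refl _) (Clause.equiv e)) F i = (F i).map e.toEmbedding := rfl
      rw [this, Clause.map_sat]
      have h2 : (σ ∘ e.symm) ∘ e.toEmbedding = σ := by funext x; simp
      rw [h2]; exact hσ i
    · rintro ⟨σ, hσ⟩
      refine ⟨σ ∘ e, ?_⟩
      intro i
      have h1 := hσ i
      have : (Equiv.arrowCongr (Equiv.refl _) (Clause.equiv e)) F i = (F i).map e.toEmbedding := rfl
      rw [this, Clause.map_sat] at h1
      exact h1
  · apply Nat.card_congr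
    exact Equiv.arrowCongr (Equiv.refl _) (Clause.equiv e)

end equiv

section restrict

variable {k : ℕ} {V1 V2 : Type} [DecidableEq V1] [Fintype V1] [DecidableEq V2] [Fintype V2]

/-- proportion of global clauses lying in the first block -/
noncomputable def qq (k : ℕ) (V1 V2 : Type) [DecidableEq V1] [Fintype V1] [DecidableEq V2]
    [Fintype V2] : ℝ :=
  (Fintype.card (Clause k V1) : ℝ) / (Fintype.card (Clause k (V1 ⊕ V2)) : ℝ)

lemma card_clause_le : Fintype.card (Clause k V1) ≤ Fintype.card (Clause k (V1 ⊕ V2)) :=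
  Fintype.card_le_of_injective _ (Clause.map_injective Function.Embedding.inl)

lemma restrict_step (hk : k ≤ Fintype.card V1) {f : Set (V1 ⊕ V2 → Bool) → ℝ} (hf : SetMono f) :
    TG k V1 V2 f ≤ (qq k V1 V2 • T1 k V1 V2 + (1 - qq k V1 V2) • 1) f := by
  classical
  intro S
  simp only [LinearMap.add_apply, LinearMap.smul_apply, Module.End.one_apply, Pi.add_apply,
    Pi.smul_apply, smul_eq_mul]
  unfold TG T1 qq
  rw [opT_apply, opT_apply]
  have hpos1 : (0:ℝ) < Fintype.card (Clause k V1) := card_clause_pos hk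
  have hpos : (0:ℝ) < Fintype.card (Clause k (V1 ⊕ V2)) :=
    lt_of_lt_of_le hpos1 (by exact_mod_cast card_clause_le)
  rw [div_le_iff₀ hpos]
  set ι : Clause k V1 → Clause k (V1 ⊕ V2) := Clause.map Function.Embedding.inl with hι
  have hinj : Function.Injective ι := Clause.map_injective _
  have hsplit : ∑ c, f (S ∩ satOf (V := V1 ⊕ V2) k (fun s => s) c) =
      ∑ c ∈ univ.image ι, f (S ∩ satOf (V := V1 ⊕ V2) k (fun s => s) c) +
      ∑ c ∈ (univ.image ι)ᶜ, f (S ∩ satOf (V := V1 ⊕ V2) k (fun s => s) c) := by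
    rw [Finset.sum_add_sum_compl]
  rw [hsplit, Finset.sum_image (fun a _ b _ h => hinj h)]
  have e1 : ∀ c : Clause k V1, f (S ∩ satOf (V := V1 ⊕ V2) k (fun s => s) (ι c)) =
      f (S ∩ satOf (V := V1) k (fun s => s ∘ Sum.inl) c) := by
    intro c
    congr 2
    ext σ
    simp only [satOf, Set.mem_ofPred_eq, hι]
    rw [Clause.map_sat]
    rfl
  simp_rw [e1]
  have e2 : ∑ c ∈ (univ.image ι)ᶜ, f (S ∩ satOf (V := V1 ⊕ V2) k (fun s => s) c) ≤
      ((Fintype.card (Clause k (V1 ⊕ V2)) : ℝ) - Fintype.card (Clause k V1)) * f S := by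
    calc ∑ c ∈ (univ.image ι)ᶜ, f (S ∩ satOf (V := V1 ⊕ V2) k (fun s => s) c)
        ≤ ∑ _c ∈ (univ.image ι)ᶜ, f S :=
          Finset.sum_le_sum (fun c _ => hf _ _ Set.inter_subset_left)
      _ = ((Fintype.card (Clause k (V1 ⊕ V2)) : ℝ) - Fintype.card (Clause k V1)) * f S := by
          rw [Finset.sum_const, Finset.card_compl, Finset.card_image_of_injective _ hinj,
            Finset.card_univ, nsmul_eq_mul, Nat.cast_sub card_clause_le]
  have e3 : ((Fintype.card (Clause k V1) : ℝ) / (Fintype.card (Clause k (V1 ⊕ V2)) : ℝ) *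
      ((∑ c, f (S ∩ satOf (V := V1) k (fun s => s ∘ Sum.inl) c)) / (Fintype.card (Clause k V1) : ℝ)) +
      (1 - (Fintype.card (Clause k V1) : ℝ) / (Fintype.card (Clause k (V1 ⊕ V2)) : ℝ)) * f S) *
      (Fintype.card (Clause k (V1 ⊕ V2)) : ℝ) =
      (∑ c, f (S ∩ satOf (V := V1) k (fun s => s ∘ Sum.inl) c)) +
      ((Fintype.card (Clause k (V1 ⊕ V2)) : ℝ) - Fintype.card (Clause k V1)) * f S := by
    field_simp
  rw [e3]
  linarith

lemma qq_nonneg : 0 ≤ qq k V1 V2 := by unfold qq; positivity

lemma qq_le_one : qq k V1 V2 ≤ 1 := by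
  unfold qq
  apply div_le_one_of_le₀ _ (Nat.cast_nonneg _)
  exact_mod_cast card_clause_le

lemma restrict_pow (hk : k ≤ Fintype.card V1) (M : ℕ) :
    ((TG k V1 V2) ^ M) ind ≤ ((qq k V1 V2 • T1 k V1 V2 + (1 - qq k V1 V2) • 1) ^ M) ind := by
  set K := qq k V1 V2 • T1 k V1 V2 + (1 - qq k V1 V2) • (1 : Module.End ℝ (Set (V1 ⊕ V2 → Bool) → ℝ))
    with hK
  have hKmono : Mono K :=
    ((opT_mono _).smul qq_nonneg).add (Mono.one.smul (by linarith [qq_le_one (k := k) (V1 := V1) (V2 := V2)]))
  induction M with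
  | zero => simp
  | succ M ih =>
    rw [pow_succ', pow_succ', Module.End.mul_apply, Module.End.mul_apply]
    exact le_trans (restrict_step hk (opT_pow_setMono _ ind_setMono M)) (hKmono _ _ ih)

/-- restriction inequality, variable types version -/
lemma restrict_types (hk : k ≤ Fintype.card V1) (M : ℕ) :
    satP k (V1 ⊕ V2) M ≤ ∑ j ∈ range (M + 1), (M.choose j : ℝ) *
        (qq k V1 V2) ^ j * (1 - qq k V1 V2) ^ (M - j) * satP k V1 j := by
  have h := restrict_pow (V2 := V2) hk M Set.univ
  rw [satP_eq_opT]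
  refine le_trans h (le_of_eq ?_)
  have hc : Commute (qq k V1 V2 • T1 k V1 V2)
      ((1 - qq k V1 V2) • (1 : Module.End ℝ (Set (V1 ⊕ V2 → Bool) → ℝ))) :=
    ((Commute.one_right _).smul_left _).smul_right _
  rw [hc.add_pow]
  simp only [LinearMap.sum_apply, Finset.sum_apply]
  apply Finset.sum_congr rfl
  intro j _
  have e := eval_T1_T2 (k := k) (V1 := V1) (V2 := V2) j 0
  rw [satP_zero, mul_one, pow_zero, mul_one] at e
  rw [smul_pow, smul_pow, one_pow, smul_mul_smul_comm, mul_one, ← e]
  rw [← nsmul_eq_mul', LinearMap.smul_apply, Pi.smul_apply, LinearMap.smul_apply, Pi.smul_apply]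
  simp only [smul_eq_mul, nsmul_eq_mul]
  ring

end restrict

end Vale.Agent.P170
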