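import Mathlib
import Vale.Agent.P170.Restrict

namespace Vale.Agent.P170

open Finset

section first

variable {k : ℕ} {V : Type} [DecidableEq V] [Fintype V]

lemma card_sat (σ : V → Bool) [DecidablePred (fun c : Clause k V => c.Sat σ)] :
    ((univ.filter (fun c : Clause k V => c.Sat σ)).card : ℝ) =
      ((2:ℝ) ^ k - 1) * ((Fintype.card V).choose k : ℝ) := by
  classical
  have h := card_bad (k := k) (V := V) (A := Unit) Set.univ ⟨(), Set.mem_univ _⟩ (fun _ => σ)
  have h1 : (univ.filter (fun c : Clause k V => ∀ s ∈ (Set.univ : Set Unit), ¬ c.Sat σ)) =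
      univ.filter (fun c : Clause k V => ¬ c.Sat σ) := by
    ext c; simp
  have h2 : (univ.filter (fun v : V => ∀ s ∈ (Set.univ : Set Unit), ∀ t ∈ (Set.univ : Set Unit),
      σ v = σ v)) = univ := by
    ext v; simp
  rw [h1, h2, Finset.card_univ] at h
  have h3 := Finset.card_filter_add_card_filter_not (s := (univ : Finset (Clause k V)))
    (fun c : Clause k V => c.Sat σ)
  rw [h, Finset.card_univ, card_clause] at h3
  have h4 : ((univ.filter (fun c : Clause k V => c.Sat σ)).card : ℝ) +
      ((Fintype.card V).choose k : ℝ) = (2:ℝ) ^ k * ((Fintype.card V).choose k : ℝ) := by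
    exact_mod_cast h3
  linarith

/-- first moment bound -/
lemma satP_le_first_moment (hk : k ≤ Fintype.card V) (m : ℕ) :
    satP k V m ≤ (2:ℝ) ^ (Fintype.card V) * (1 - 1 / (2:ℝ) ^ k) ^ m := by
  classical
  rw [satP_eq_sum]
  have hpos := card_clause_pos (k := k) (V := V) hk
  rw [div_le_iff₀ (pow_pos hpos m)]
  have h1 : ∀ F : Fin m → Clause k V, ind {σ : V → Bool | ∀ i, (F i).Sat σ} ≤
      ∑ σ : V → Bool, ∏ i, (if (F i).Sat σ then (1:ℝ) else 0) := by
    intro F
    by_cases h : ∃ σ : V → Bool, ∀ i, (F i).Sat σ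
    · obtain ⟨σ, hσ⟩ := h
      rw [ind_of_nonempty (S := {σ : V → Bool | ∀ i, (F i).Sat σ}) ⟨σ, hσ⟩]
      have : (1:ℝ) = ∏ i, (if (F i).Sat σ then (1:ℝ) else 0) := by
        rw [Finset.prod_eq_one]
        intro i _
        rw [if_pos (hσ i)]
      refine le_trans (le_of_eq this) ?_
      apply Finset.single_le_sum (f := fun σ : V → Bool => ∏ i, (if (F i).Sat σ then (1:ℝ) else 0))
      · intro τ _
        apply Finset.prod_nonneg
        intro i _
        split_ifs <;> norm_num
      · exact mem_univ σ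
    · rw [ind_of_empty (S := {σ : V → Bool | ∀ i, (F i).Sat σ}) h]
      apply Finset.sum_nonneg
      intro τ _
      apply Finset.prod_nonneg
      intro i _
      split_ifs <;> norm_num
  calc ∑ F : Fin m → Clause k V, ind {σ : V → Bool | ∀ i, (F i).Sat σ}
      ≤ ∑ F : Fin m → Clause k V, ∑ σ : V → Bool, ∏ i, (if (F i).Sat σ then (1:ℝ) else 0) :=
        Finset.sum_le_sum (fun F _ => h1 F)
    _ = ∑ σ : V → Bool, ∑ F : Fin m → Clause k V, ∏ i, (if (F i).Sat σ then (1:ℝ) else 0) :=
        Finset.sum_comm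
    _ = ∑ σ : V → Bool, (∑ c : Clause k V, (if c.Sat σ then (1:ℝ) else 0)) ^ m := by
        apply Finset.sum_congr rfl
        intro σ _
        rw [Fintype.sum_pow]
    _ = ∑ _σ : V → Bool, (((2:ℝ) ^ k - 1) * ((Fintype.card V).choose k : ℝ)) ^ m := by
        apply Finset.sum_congr rfl
        intro σ _
        rw [Finset.sum_boole, card_sat]
    _ = (2:ℝ) ^ (Fintype.card V) * (1 - 1 / (2:ℝ) ^ k) ^ m * (Fintype.card (Clause k V) : ℝ) ^ m := by
        rw [Finset.sum_const, Finset.card_univ, Fintype.card_fun, Fintype.card_bool, nsmul_eq_mul,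
          card_clause, mul_assoc, ← mul_pow]
        push_cast
        congr 2
        field_simp

end first

section fin

variable {k : ℕ}

lemma satProb_antitone (n : ℕ) : Antitone (satProb k n) := satP_antitone

lemma satProb_zero (n : ℕ) : satProb k n 0 = 1 := satP_zero

lemma satProb_le_one (n m : ℕ) : satProb k n m ≤ 1 := satP_le_one m

lemma satProb_nonneg (n m : ℕ) : 0 ≤ satProb k n m := satP_nonneg m

lemma satProb_first_moment {n : ℕ} (hk : k ≤ n) (m : ℕ) :
    satProb k n m ≤ (2:ℝ) ^ n * (1 - 1 / (2:ℝ) ^ k) ^ m := by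
  have := satP_le_first_moment (k := k) (V := Fin n) (by simpa using hk) m
  simpa [satProb] using this

/-- supermultiplicativity of the satisfiability probability (binomial splitting of the clauses) -/
lemma satProb_super (hk1 : 1 ≤ k) {n1 n2 : ℕ} (h1 : k ≤ n1) (h2 : k ≤ n2)
    (hg : gam k (n1 + n2) ≤ 1) (M : ℕ) :
    (1 - gam k (n1 + n2)) ^ M *
      ∑ j ∈ range (M + 1), (M.choose j : ℝ) *
        ((n1 : ℝ) / (n1 + n2)) ^ j * ((n2 : ℝ) / (n1 + n2)) ^ (M - j) *
        (satProb k n1 j * satProb k n2 (M - j))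
      ≤ satProb k (n1 + n2) M := by
  have := super_types (k := k) (V1 := Fin n1) (V2 := Fin n2) hk1 (by simpa using h1)
    (by simpa using h2) (by simpa using hg) M
  rw [satP_congr finSumFinEquiv] at this
  simpa [satProb] using this

/-- restriction inequality -/
lemma satProb_restrict {n d : ℕ} (hk : k ≤ n) (M : ℕ) :
    satProb k (n + d) M ≤ ∑ j ∈ range (M + 1), (M.choose j : ℝ) *
        ((n.choose k : ℝ) / ((n + d).choose k : ℝ)) ^ j *
        (1 - (n.choose k : ℝ) / ((n + d).choose k : ℝ)) ^ (M - j) * satProb k n j := by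
  have := restrict_types (k := k) (V1 := Fin n) (V2 := Fin d) (by simpa using hk) M
  rw [satP_congr finSumFinEquiv] at this
  have hq : qq k (Fin n) (Fin d) = (n.choose k : ℝ) / ((n + d).choose k : ℝ) := by
    unfold qq
    rw [card_clause, card_clause]
    simp only [Fintype.card_fin, Fintype.card_sum]
    push_cast
    have : ((2:ℝ) ^ k) ≠ 0 := by positivity
    rw [mul_div_mul_left _ _ this]
  rw [hq] at this
  exact this

end fin

end Vale.Agent.P170
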