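import Mathlib
import Vale.Agent.P170.Moment

namespace Vale.Agent.P170

open Finset

lemma binom_sum (M : ℕ) (w : ℝ) :
    ∑ j ∈ range (M + 1), (M.choose j : ℝ) * w ^ j * (1 - w) ^ (M - j) = 1 := by
  have := add_pow w (1 - w) M
  rw [add_sub_cancel, one_pow] at this
  refine Eq.trans ?_ this.symm
  apply Finset.sum_congr rfl
  intro j _
  ring

lemma binom_mean (M : ℕ) (w : ℝ) :
    ∑ j ∈ range (M + 1), (M.choose j : ℝ) * w ^ j * (1 - w) ^ (M - j) * (j : ℝ) = M * w := by
  have := congrArg (Polynomial.eval w) (bernsteinPolynomial.sum_smul ℝ M)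
  simp only [Polynomial.eval_finsetSum, bernsteinPolynomial,
    Polynomial.eval_mul, Polynomial.eval_pow, Polynomial.eval_X, Polynomial.eval_sub,
    Polynomial.eval_one, Polynomial.eval_natCast, nsmul_eq_mul] at this
  rw [← this]
  apply Finset.sum_congr rfl
  intro j _
  ring

lemma binom_var (M : ℕ) (w : ℝ) :
    ∑ j ∈ range (M + 1), (M.choose j : ℝ) * w ^ j * (1 - w) ^ (M - j) * ((j : ℝ) - M * w) ^ 2
      = M * w * (1 - w) := by
  have := congrArg (Polynomial.eval w) (bernsteinPolynomial.variance ℝ M)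
  simp only [Polynomial.eval_finsetSum, bernsteinPolynomial,
    Polynomial.eval_mul, Polynomial.eval_pow, Polynomial.eval_X, Polynomial.eval_sub,
    Polynomial.eval_one, Polynomial.eval_natCast, nsmul_eq_mul] at this
  rw [← this]
  apply Finset.sum_congr rfl
  intro j _
  ring

variable {k : ℕ}

/-- quantitative consequence of supermultiplicativity -/
lemma satProb_super' (hk1 : 1 ≤ k) {n1 n2 : ℕ} (h1 : k ≤ n1) (h2 : k ≤ n2)
    (hg : gam k (n1 + n2) ≤ 1) (M m1 m2 : ℕ) (t : ℝ) (ht : 0 < t)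
    (hm1 : (M : ℝ) * ((n1 : ℝ) / (n1 + n2)) + t ≤ m1)
    (hm2 : (M : ℝ) * ((n2 : ℝ) / (n1 + n2)) + t ≤ m2) :
    (1 - gam k (n1 + n2)) ^ M *
      ((1 - (M : ℝ) * ((n1 : ℝ) / (n1 + n2)) * ((n2 : ℝ) / (n1 + n2)) / t ^ 2) *
        (satProb k n1 m1 * satProb k n2 m2))
      ≤ satProb k (n1 + n2) M := by
  refine le_trans ?_ (satProb_super hk1 h1 h2 hg M)
  apply mul_le_mul_of_nonneg_left _ (pow_nonneg (by linarith) M)
  have hn1 : (0:ℝ) < n1 := by
    have : 0 < n1 := by omega
    exact_mod_cast this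
  have hn2 : (0:ℝ) < n2 := by
    have : 0 < n2 := by omega
    exact_mod_cast this
  set w := (n1 : ℝ) / (n1 + n2) with hw
  have hw2 : (n2 : ℝ) / (n1 + n2) = 1 - w := by
    rw [hw]; field_simp; ring
  rw [hw2] at hm2 ⊢
  have hw0 : 0 ≤ w := by positivity
  have hw1 : 0 ≤ 1 - w := by rw [← hw2]; positivity
  set Q := satProb k n1 m1 * satProb k n2 m2 with hQ
  have hQ0 : 0 ≤ Q := mul_nonneg (satProb_nonneg _ _) (satProb_nonneg _ _)
  have e : (1 - (M : ℝ) * w * (1 - w) / t ^ 2) * Q =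
      ∑ j ∈ range (M + 1), (M.choose j : ℝ) * w ^ j * (1 - w) ^ (M - j) *
        ((1 - ((j : ℝ) - M * w) ^ 2 / t ^ 2) * Q) := by
    have e1 : ∀ j ∈ range (M + 1), (M.choose j : ℝ) * w ^ j * (1 - w) ^ (M - j) *
        ((1 - ((j : ℝ) - M * w) ^ 2 / t ^ 2) * Q) =
        Q * ((M.choose j : ℝ) * w ^ j * (1 - w) ^ (M - j)) -
        Q / t ^ 2 * ((M.choose j : ℝ) * w ^ j * (1 - w) ^ (M - j) * ((j : ℝ) - M * w) ^ 2) := by
      intro j _; ring
    rw [Finset.sum_congr rfl e1, Finset.sum_sub_distrib, ← Finset.mul_sum, ← Finset.mul_sum,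
      binom_sum, binom_var]
    ring
  rw [e]
  apply Finset.sum_le_sum
  intro j hj
  have hjM : j ≤ M := by
    have := Finset.mem_range.1 hj; omega
  apply mul_le_mul_of_nonneg_left _ (by positivity)
  by_cases hc : j ≤ m1 ∧ M - j ≤ m2
  · have g1 : satProb k n1 m1 ≤ satProb k n1 j := satProb_antitone n1 hc.1
    have g2 : satProb k n2 m2 ≤ satProb k n2 (M - j) := satProb_antitone n2 hc.2
    have g3 : Q ≤ satProb k n1 j * satProb k n2 (M - j) :=
      mul_le_mul g1 g2 (satProb_nonneg _ _) (satProb_nonneg _ _)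
    have g4 : (1 - ((j : ℝ) - M * w) ^ 2 / t ^ 2) * Q ≤ 1 * Q := by
      apply mul_le_mul_of_nonneg_right _ hQ0
      have : 0 ≤ ((j : ℝ) - M * w) ^ 2 / t ^ 2 := by positivity
      linarith
    linarith
  · have hbig : t ^ 2 ≤ ((j : ℝ) - M * w) ^ 2 := by
      rw [not_and_or] at hc
      rcases hc with hc | hc
      · have : (m1 : ℝ) < j := by
          have : m1 < j := by omega
          exact_mod_cast this
        have : t ≤ (j : ℝ) - M * w := by linarith
        exact pow_le_pow_left₀ ht.le this 2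
      · have h3 : (m2 : ℝ) < ((M - j : ℕ) : ℝ) := by
          have : m2 < M - j := by omega
          exact_mod_cast this
        rw [Nat.cast_sub hjM] at h3
        have : t ≤ -((j : ℝ) - M * w) := by nlinarith
        calc t ^ 2 ≤ (-((j : ℝ) - M * w)) ^ 2 := pow_le_pow_left₀ ht.le this 2
          _ = ((j : ℝ) - M * w) ^ 2 := by ring
    have hneg : (1 - ((j : ℝ) - M * w) ^ 2 / t ^ 2) ≤ 0 := by
      have : 1 ≤ ((j : ℝ) - M * w) ^ 2 / t ^ 2 := by
        rw [le_div_iff₀ (by positivity)]; linarith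
      linarith
    have g5 : (1 - ((j : ℝ) - M * w) ^ 2 / t ^ 2) * Q ≤ 0 :=
      mul_nonpos_of_nonpos_of_nonneg hneg hQ0
    have g6 : 0 ≤ satProb k n1 j * satProb k n2 (M - j) :=
      mul_nonneg (satProb_nonneg _ _) (satProb_nonneg _ _)
    linarith

/-- quantitative consequence of the restriction inequality -/
lemma satProb_restrict' {n d : ℕ} (hk : k ≤ n) (M j0 : ℕ) (hj : j0 < M) :
    satProb k (n + d) M ≤ satProb k n j0 +
      (M : ℝ) * (1 - (n.choose k : ℝ) / ((n + d).choose k : ℝ)) / ((M : ℝ) - j0) := by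
  refine le_trans (satProb_restrict hk M) ?_
  set q := (n.choose k : ℝ) / ((n + d).choose k : ℝ) with hq
  have hq0 : 0 ≤ q := by positivity
  have hq1 : 0 ≤ 1 - q := by
    have : q ≤ 1 := by
      rw [hq]
      apply div_le_one_of_le₀ _ (Nat.cast_nonneg _)
      exact_mod_cast Nat.choose_le_choose k (Nat.le_add_right n d)
    linarith
  have hD : (0:ℝ) < (M : ℝ) - j0 := by
    have : (j0 : ℝ) < M := by exact_mod_cast hj
    linarith
  have e : satProb k n j0 + (M : ℝ) * (1 - q) / ((M : ℝ) - j0) =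
      ∑ j ∈ range (M + 1), (M.choose j : ℝ) * q ^ j * (1 - q) ^ (M - j) *
        (satProb k n j0 + ((M : ℝ) - j) / ((M : ℝ) - j0)) := by
    have e1 : ∀ j ∈ range (M + 1), (M.choose j : ℝ) * q ^ j * (1 - q) ^ (M - j) *
        (satProb k n j0 + ((M : ℝ) - j) / ((M : ℝ) - j0)) =
        (satProb k n j0 + M / ((M : ℝ) - j0)) * ((M.choose j : ℝ) * q ^ j * (1 - q) ^ (M - j)) -
        1 / ((M : ℝ) - j0) * ((M.choose j : ℝ) * q ^ j * (1 - q) ^ (M - j) * (j : ℝ)) := by
      intro j _; ring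
    rw [Finset.sum_congr rfl e1, Finset.sum_sub_distrib, ← Finset.mul_sum, ← Finset.mul_sum,
      binom_sum, binom_mean]
    ring
  rw [e]
  apply Finset.sum_le_sum
  intro j hj'
  have hjM : j ≤ M := by
    have := Finset.mem_range.1 hj'; omega
  have hjM' : (j : ℝ) ≤ M := by exact_mod_cast hjM
  apply mul_le_mul_of_nonneg_left _ (by positivity)
  by_cases hc : j0 ≤ j
  · have g1 : satProb k n j ≤ satProb k n j0 := satProb_antitone n hc
    have g2 : 0 ≤ ((M : ℝ) - j) / ((M : ℝ) - j0) := div_nonneg (by linarith) hD.le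
    linarith
  · have g1 : satProb k n j ≤ 1 := satProb_le_one _ _
    have g2 : 1 ≤ ((M : ℝ) - j) / ((M : ℝ) - j0) := by
      rw [le_div_iff₀ hD]
      have : (j : ℝ) ≤ j0 := by
        have : j ≤ j0 := by omega
        exact_mod_cast this
      linarith
    have g3 := satProb_nonneg (k := k) n j0
    linarith

end Vale.Agent.P170
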