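import Mathlib
import Vale.Agent.P170.Binom

namespace Vale.Agent.P170

open Finset Filter

variable {k : ℕ} {r : ℕ → ℝ}

lemma ev_bounds (hr : IsThresholdSeq k r) {ε θ : ℝ} (hε : 0 < ε) (hθ : 0 < θ) :
    ∃ n0 : ℕ, ∀ n ≥ n0, 1 - θ ≤ satProb k n ⌊(r n - ε) * n⌋₊ ∧
      satProb k n ⌊(r n + ε) * n⌋₊ ≤ θ := by
  have h1 := (hr ε hε).1.eventually (Ici_mem_nhds (show (1 - θ) < 1 by linarith))
  have h2 := (hr ε hε).2.eventually (Iic_mem_nhds hθ)
  obtain ⟨n0, hn0⟩ := Filter.eventually_atTop.1 (h1.and h2)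
  exact ⟨n0, fun n hn => hn0 n hn⟩

lemma r_add_nonneg (hr : IsThresholdSeq k r) {ε : ℝ} (hε : 0 < ε) :
    ∃ n0 : ℕ, ∀ n ≥ n0, 0 ≤ r n + ε := by
  obtain ⟨n0, hn0⟩ := ev_bounds hr hε (show (0:ℝ) < 1 / 2 by norm_num)
  refine ⟨n0, fun n hn => ?_⟩
  by_contra hneg
  push Not at hneg
  have h := (hn0 n hn).2
  have hx : (r n + ε) * n ≤ 0 := mul_nonpos_of_nonpos_of_nonneg hneg.le (Nat.cast_nonneg _)
  rw [Nat.floor_of_nonpos hx, satProb_zero] at h
  norm_num at h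

lemma two_mul_pow_le : (2:ℝ) * (1 - 1 / (2:ℝ) ^ k) ^ (2 ^ k) ≤ 2 * Real.exp (-1) := by
  have hp : (0:ℝ) < (2:ℝ) ^ k := by positivity
  have h1 : (1 - 1 / (2:ℝ) ^ k) ≤ Real.exp (-(1 / (2:ℝ) ^ k)) := by
    have := Real.add_one_le_exp (-(1 / (2:ℝ) ^ k))
    linarith
  have h0 : (0:ℝ) ≤ 1 - 1 / (2:ℝ) ^ k := by
    have : 1 / (2:ℝ) ^ k ≤ 1 := by
      rw [div_le_one hp]
      exact one_le_pow₀ (by norm_num)
    linarith
  have h2 : (1 - 1 / (2:ℝ) ^ k) ^ (2 ^ k) ≤ Real.exp (-(1 / (2:ℝ) ^ k)) ^ (2 ^ k) :=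
    pow_le_pow_left₀ h0 h1 _
  have h3 : Real.exp (-(1 / (2:ℝ) ^ k)) ^ (2 ^ k) = Real.exp (-1) := by
    rw [← Real.exp_nat_mul]
    congr 1
    push_cast
    field_simp
  rw [h3] at h2
  linarith

lemma r_bdd (hk : 1 ≤ k) (hr : IsThresholdSeq k r) :
    ∃ n0 : ℕ, ∀ n ≥ n0, r n ≤ (2:ℝ) ^ k + 1 := by
  obtain ⟨n0, hn0⟩ := ev_bounds hr (show (0:ℝ) < 1 by norm_num) (show (0:ℝ) < 1 / 4 by norm_num)
  refine ⟨max n0 (max k 1), fun n hn => ?_⟩
  have hn1 : n0 ≤ n := le_trans (le_max_left _ _) hn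
  have hn2 : k ≤ n := le_trans (le_trans (le_max_left _ _) (le_max_right _ _)) hn
  have hn3 : 1 ≤ n := le_trans (le_trans (le_max_right _ _) (le_max_right _ _)) hn
  by_contra hbig
  push Not at hbig
  have h := (hn0 n hn1).1
  have hfl : 2 ^ k * n ≤ ⌊(r n - 1) * n⌋₊ := by
    apply Nat.le_floor
    push_cast
    apply mul_le_mul_of_nonneg_right _ (Nat.cast_nonneg _)
    linarith
  have h1 : satProb k n ⌊(r n - 1) * n⌋₊ ≤ satProb k n (2 ^ k * n) := satProb_antitone n hfl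
  have h2 := satProb_first_moment (k := k) hn2 (2 ^ k * n)
  have h3 : (2:ℝ) ^ n * (1 - 1 / (2:ℝ) ^ k) ^ (2 ^ k * n) =
      ((2:ℝ) * (1 - 1 / (2:ℝ) ^ k) ^ (2 ^ k)) ^ n := by
    rw [mul_pow, ← pow_mul]
  have h4 := two_mul_pow_le (k := k)
  have h5 : (2:ℝ) * Real.exp (-1) < 3 / 4 := by
    rw [Real.exp_neg]
    have := Real.exp_one_gt_d9
    have hpos : (0:ℝ) < Real.exp 1 := Real.exp_pos 1
    rw [← div_eq_mul_inv, div_lt_iff₀ hpos]
    linarith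
  have h0 : (0:ℝ) ≤ (2:ℝ) * (1 - 1 / (2:ℝ) ^ k) ^ (2 ^ k) := by
    have hp : (0:ℝ) < (2:ℝ) ^ k := by positivity
    have : 1 / (2:ℝ) ^ k ≤ 1 := by
      rw [div_le_one hp]
      exact one_le_pow₀ (by norm_num)
    have : (0:ℝ) ≤ 1 - 1 / (2:ℝ) ^ k := by linarith
    positivity
  have h6 : ((2:ℝ) * (1 - 1 / (2:ℝ) ^ k) ^ (2 ^ k)) ^ n ≤ (2:ℝ) * (1 - 1 / (2:ℝ) ^ k) ^ (2 ^ k) := by
    apply pow_le_of_le_one h0 (by linarith) (by omega)
  rw [h3] at h2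
  linarith

lemma one_sub_q_le (n d : ℕ) (hk : k ≤ n) (hn : 0 < n) :
    1 - (n.choose k : ℝ) / ((n + d).choose k : ℝ) ≤
      (k : ℝ) * (d / ((n : ℝ) + d)) + (k : ℝ) * (k - 1) / (2 * ((n : ℝ) + d)) := by
  have h1 := pow_le_desc_ratio_add n (n + d) k (by omega) (by omega) (by omega)
  rw [← choose_ratio_eq] at h1
  have hN : (0:ℝ) < (n : ℝ) + d := by
    have : (0:ℝ) < n := by exact_mod_cast hn
    positivity
  have h2 : 1 + (k : ℝ) * (-(d / ((n : ℝ) + d))) ≤ (1 + -(d / ((n : ℝ) + d))) ^ k := by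
    apply one_add_mul_le_pow
    have : (d : ℝ) / ((n : ℝ) + d) ≤ 1 := by
      rw [div_le_one hN]
      have : (0:ℝ) ≤ n := Nat.cast_nonneg _
      linarith
    linarith
  have h3 : (1 + -(d / ((n : ℝ) + d))) = (n : ℝ) / ((n + d : ℕ) : ℝ) := by
    push_cast
    field_simp
    ring
  rw [h3] at h2
  push_cast at h1 h2 ⊢
  linarith

set_option maxHeartbeats 1000000 in
/-- Property (B'): the threshold sequence cannot increase quickly. -/
lemma propB (hk : 1 ≤ k) (hr : IsThresholdSeq k r) {ε : ℝ} (hε : 0 < ε) :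
    ∃ δ : ℝ, 0 < δ ∧ ∃ n0 : ℕ, ∀ n ≥ n0, ∀ d : ℕ, (d : ℝ) ≤ δ * n → r (n + d) - ε ≤ r n := by
  set B : ℝ := (2:ℝ) ^ k + 1 with hB
  have hB0 : 0 < B := by positivity
  set e : ℝ := ε / 4 with he
  have he0 : 0 < e := by positivity
  have hk0 : (0:ℝ) < k := by exact_mod_cast hk
  obtain ⟨n1, hn1⟩ := ev_bounds hr he0 (show (0:ℝ) < 1 / 4 by norm_num)
  obtain ⟨n2, hn2⟩ := r_bdd hk hr
  obtain ⟨n3, hn3⟩ := r_add_nonneg hr he0
  set δ : ℝ := min 1 (e / (16 * B * k)) with hδ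
  have hδ0 : 0 < δ := lt_min one_pos (by positivity)
  refine ⟨δ, hδ0, max (max n1 n2) (max (max n3 k) (max (⌈1 / e⌉₊ + 1) (⌈8 * B * k ^ 2 / e⌉₊ + 1))), ?_⟩
  intro n hn d hd
  have hna : n1 ≤ n := le_trans (le_trans (le_max_left _ _) (le_max_left _ _)) hn
  have hnb : n2 ≤ n := le_trans (le_trans (le_max_right _ _) (le_max_left _ _)) hn
  have hnc : n3 ≤ n := le_trans (le_trans (le_trans (le_max_left _ _) (le_max_left _ _)) (le_max_right _ _)) hn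
  have hnd : k ≤ n := le_trans (le_trans (le_trans (le_max_right _ _) (le_max_left _ _)) (le_max_right _ _)) hn
  have hne : ⌈1 / e⌉₊ + 1 ≤ n :=
    le_trans (le_trans (le_trans (le_max_left _ _) (le_max_right _ _)) (le_max_right _ _)) hn
  have hnf : ⌈8 * B * k ^ 2 / e⌉₊ + 1 ≤ n :=
    le_trans (le_trans (le_trans (le_max_right _ _) (le_max_right _ _)) (le_max_right _ _)) hn
  have hnpos : 0 < n := by omega
  have hnR : (0:ℝ) < n := by exact_mod_cast hnpos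
  have hne' : 1 / e ≤ n := by
    have h1 : 1 / e ≤ (⌈1 / e⌉₊ : ℝ) := Nat.le_ceil _
    have h2 : ((⌈1 / e⌉₊ + 1 : ℕ) : ℝ) ≤ n := by exact_mod_cast hne
    push_cast at h2
    linarith
  have hnf' : 8 * B * k ^ 2 / e ≤ n := by
    have h1 : 8 * B * k ^ 2 / e ≤ (⌈8 * B * k ^ 2 / e⌉₊ : ℝ) := Nat.le_ceil _
    have h2 : ((⌈8 * B * k ^ 2 / e⌉₊ + 1 : ℕ) : ℝ) ≤ n := by exact_mod_cast hnf
    push_cast at h2
    linarith
  have hen : 1 ≤ e * n := by
    rw [div_le_iff₀ he0] at hne'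
    linarith
  by_contra hcon
  push Not at hcon
  set N := n + d with hN
  have hNn : n ≤ N := Nat.le_add_right n d
  have hNR : (N : ℝ) = n + d := by rw [hN]; push_cast; ring
  have hd0 : (0:ℝ) ≤ d := Nat.cast_nonneg _
  have hδ1 : δ ≤ 1 := min_le_left _ _
  have hN2 : (N : ℝ) ≤ 2 * n := by
    rw [hNR]; nlinarith
  have hrn : 0 ≤ r n + e := hn3 n hnc
  have hrN : r N ≤ B := hn2 N (le_trans hnb hNn)
  have hrN3 : 3 * e ≤ r N := by
    have : ε = 4 * e := by rw [he]; ring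
    linarith
  set x : ℝ := (r N - e) * N with hx
  set y : ℝ := (r n + e) * n with hy
  have hy0 : 0 ≤ y := mul_nonneg hrn hnR.le
  have hx0 : 0 ≤ x := mul_nonneg (by linarith) (Nat.cast_nonneg _)
  set M := ⌊x⌋₊ with hM
  set j0 := ⌊y⌋₊ with hj0
  have hMx : (M : ℝ) ≤ x := Nat.floor_le hx0
  have hxM : x < M + 1 := Nat.lt_floor_add_one x
  have hjy : (j0 : ℝ) ≤ y := Nat.floor_le hy0
  have hxy : 2 * e * n ≤ x - y := by
    have h1 : (r N - e) * n ≤ x := by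
      rw [hx]
      apply mul_le_mul_of_nonneg_left _ (by linarith)
      exact_mod_cast hNn
    have h2 : (r N - e) * n - y = (r N - r n - 2 * e) * n := by rw [hy]; ring
    have h3 : 2 * e ≤ r N - r n - 2 * e := by
      have : ε = 4 * e := by rw [he]; ring
      linarith
    have h4 : 2 * e * n ≤ (r N - r n - 2 * e) * n := mul_le_mul_of_nonneg_right h3 hnR.le
    linarith
  have hdiff : e * n ≤ (M : ℝ) - j0 := by nlinarith
  have hjM : j0 < M := by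
    have : (j0 : ℝ) < M := by nlinarith
    exact_mod_cast this
  have hres := satProb_restrict' (k := k) (n := n) (d := d) hnd M j0 hjM
  have hP1 := (hn1 N (le_trans hna hNn)).1
  have hP2 := (hn1 n hna).2
  have hq := one_sub_q_le (k := k) n d hnd hnpos
  set q1 : ℝ := 1 - (n.choose k : ℝ) / ((n + d).choose k : ℝ) with hq1
  have hNpos : (0:ℝ) < (n:ℝ) + d := by positivity
  have hdN : (d : ℝ) / ((n:ℝ) + d) ≤ δ := by
    rw [div_le_iff₀ hNpos]
    nlinarith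
  have hkδ : (k : ℝ) * δ ≤ e / (16 * B) := by
    have : δ ≤ e / (16 * B * k) := min_le_right _ _
    calc (k : ℝ) * δ ≤ k * (e / (16 * B * k)) := mul_le_mul_of_nonneg_left this hk0.le
      _ = e / (16 * B) := by field_simp
  have hk2 : (k : ℝ) * (k - 1) / (2 * ((n : ℝ) + d)) ≤ e / (16 * B) := by
    have h1 : (k : ℝ) * (k - 1) ≤ k ^ 2 := by nlinarith
    have h2 : (k : ℝ) * (k - 1) / (2 * ((n : ℝ) + d)) ≤ k ^ 2 / (2 * n) := by
      apply div_le_div₀ (by positivity) h1 (by positivity)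
      linarith
    have h3 : (k:ℝ) ^ 2 / (2 * n) ≤ e / (16 * B) := by
      rw [div_le_div_iff₀ (by positivity) (by positivity)]
      rw [div_le_iff₀ he0] at hnf'
      nlinarith
    linarith
  have hq1le : q1 ≤ e / (8 * B) := by
    have h1 : (k : ℝ) * (d / ((n : ℝ) + d)) ≤ k * δ := mul_le_mul_of_nonneg_left hdN hk0.le
    have h2 : e / (16 * B) + e / (16 * B) = e / (8 * B) := by field_simp; ring
    linarith
  have hMle : (M : ℝ) ≤ 2 * B * n := by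
    have h1 : x ≤ B * N := by
      rw [hx]
      apply mul_le_mul_of_nonneg_right _ (Nat.cast_nonneg _)
      linarith
    nlinarith
  have hfrac : (M : ℝ) * q1 / ((M : ℝ) - j0) ≤ 1 / 4 := by
    have hDpos : (0:ℝ) < (M : ℝ) - j0 := by nlinarith
    rw [div_le_iff₀ hDpos]
    have h1 : (M : ℝ) * q1 ≤ (2 * B * n) * (e / (8 * B)) := by
      have hM0 : (0:ℝ) ≤ M := Nat.cast_nonneg _
      calc (M : ℝ) * q1 ≤ M * (e / (8 * B)) := mul_le_mul_of_nonneg_left hq1le hM0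
        _ ≤ (2 * B * n) * (e / (8 * B)) := mul_le_mul_of_nonneg_right hMle (by positivity)
    have h2 : (2 * B * n) * (e / (8 * B)) = e * n / 4 := by field_simp; ring
    linarith
  linarith

end Vale.Agent.P170
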