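import Mathlib
import Vale.Agent.P170.Analysis

namespace Vale.Agent.P170

open Finset Filter

variable {k : ℕ} {r : ℕ → ℝ}

lemma gam_nonneg (hk : 1 ≤ k) (N : ℕ) : 0 ≤ gam k N := by
  unfold gam
  have hk0 : (1:ℝ) ≤ k := by exact_mod_cast hk
  have hp : (1:ℝ) ≤ (2:ℝ) ^ k := one_le_pow₀ (by norm_num)
  apply div_nonneg
  · nlinarith
  · apply mul_nonneg (Nat.cast_nonneg _); linarith

lemma gam_le (hk : 1 ≤ k) {N : ℕ} (hN : 0 < N) : gam k N ≤ (k:ℝ) ^ 2 / N := by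
  unfold gam
  have hk0 : (1:ℝ) ≤ k := by exact_mod_cast hk
  have hN' : (0:ℝ) < N := by exact_mod_cast hN
  have hp : (2:ℝ) ≤ (2:ℝ) ^ k := by
    calc (2:ℝ) = 2 ^ 1 := by norm_num
      _ ≤ 2 ^ k := pow_le_pow_right₀ (by norm_num) hk
  apply div_le_div₀ (by positivity) (by nlinarith) hN'
  nlinarith

lemma one_sub_pow_ge {g : ℝ} (hg0 : 0 ≤ g) (hg : g ≤ 1 / 2) (M : ℕ) :
    Real.exp (-(2 * g * M)) ≤ (1 - g) ^ M := by
  have h1 : Real.exp (-(2 * g)) ≤ 1 - g := by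
    rw [Real.exp_neg]
    have h2 : 1 + 2 * g ≤ Real.exp (2 * g) := by
      have := Real.add_one_le_exp (2 * g); linarith
    have h3 : (Real.exp (2 * g))⁻¹ ≤ (1 + 2 * g)⁻¹ := by
      apply inv_anti₀ (by linarith) h2
    have h4 : (1 + 2 * g)⁻¹ ≤ 1 - g := by
      rw [inv_le_iff_one_le_mul₀ (by linarith)]
      nlinarith
    linarith
  calc Real.exp (-(2 * g * M)) = Real.exp (-(2 * g)) ^ M := by
        rw [← Real.exp_nat_mul]; congr 1; ring
    _ ≤ (1 - g) ^ M := pow_le_pow_left₀ (Real.exp_pos _).le h1 M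

set_option maxHeartbeats 1000000 in
/-- Property (A): approximate min-superadditivity of the threshold sequence. -/
lemma propA (hk : 1 ≤ k) (hr : IsThresholdSeq k r) {ε : ℝ} (hε : 0 < ε) :
    ∃ n0 : ℕ, ∀ n1 ≥ n0, ∀ n2 ≥ n0, min (r n1) (r n2) - ε ≤ r (n1 + n2) := by
  set e : ℝ := ε / 4 with he
  have he0 : 0 < e := by positivity
  set B : ℝ := (2:ℝ) ^ k + 1 + e with hB
  have hB0 : 0 < B := by positivity
  have hk0 : (0:ℝ) < k := by exact_mod_cast hk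
  set κ : ℝ := Real.exp (-(2 * (k:ℝ) ^ 2 * B)) with hκ
  have hκ0 : 0 < κ := Real.exp_pos _
  obtain ⟨na, hna⟩ := ev_bounds hr he0 (show (0:ℝ) < 1 / 4 by norm_num)
  obtain ⟨nb, hnb⟩ := ev_bounds hr he0 (show (0:ℝ) < κ / 4 by positivity)
  obtain ⟨nc, hnc⟩ := r_bdd hk hr
  obtain ⟨nd, hnd⟩ := r_add_nonneg hr he0
  refine ⟨max (max (max na nb) (max nc nd)) (max (max k (2 * k ^ 2)) (max (⌈1 / e⌉₊ + 1) (⌈4 * B / e ^ 2⌉₊ + 1))), ?_⟩
  intro n1 hn1 n2 hn2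
  -- unpack the size conditions for a generic n
  have unpack : ∀ n : ℕ, max (max (max na nb) (max nc nd)) (max (max k (2 * k ^ 2)) (max (⌈1 / e⌉₊ + 1) (⌈4 * B / e ^ 2⌉₊ + 1))) ≤ n →
      na ≤ n ∧ nb ≤ n ∧ nc ≤ n ∧ nd ≤ n ∧ k ≤ n ∧ 2 * k ^ 2 ≤ n ∧ 1 ≤ e * n ∧ 4 * B / e ^ 2 ≤ n := by
    intro n hn
    simp only [max_le_iff] at hn
    obtain ⟨⟨⟨h1, h2⟩, h3, h4⟩, ⟨h5, h6⟩, h7, h8⟩ := hn
    refine ⟨h1, h2, h3, h4, h5, h6, ?_, ?_⟩
    · have g1 : 1 / e ≤ (⌈1 / e⌉₊ : ℝ) := Nat.le_ceil _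
      have g2 : ((⌈1 / e⌉₊ + 1 : ℕ) : ℝ) ≤ n := by exact_mod_cast h7
      push_cast at g2
      have g3 : 1 / e ≤ n := by linarith
      rw [div_le_iff₀ he0] at g3
      linarith
    · have g1 : 4 * B / e ^ 2 ≤ (⌈4 * B / e ^ 2⌉₊ : ℝ) := Nat.le_ceil _
      have g2 : ((⌈4 * B / e ^ 2⌉₊ + 1 : ℕ) : ℝ) ≤ n := by exact_mod_cast h8
      push_cast at g2
      linarith
  obtain ⟨a1, b1, c1, d1, k1, kk1, e1, f1⟩ := unpack n1 hn1
  obtain ⟨a2, b2, c2, d2, k2, kk2, e2, f2⟩ := unpack n2 hn2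
  set N := n1 + n2 with hN
  have hNn1 : n1 ≤ N := Nat.le_add_right _ _
  have hn1pos : 0 < n1 := by omega
  have hn2pos : 0 < n2 := by omega
  have hn1R : (0:ℝ) < n1 := by exact_mod_cast hn1pos
  have hn2R : (0:ℝ) < n2 := by exact_mod_cast hn2pos
  have hNR : (N : ℝ) = n1 + n2 := by rw [hN]; push_cast; ring
  have hNpos : (0:ℝ) < (n1:ℝ) + n2 := by positivity
  by_contra hcon
  push Not at hcon
  have hε4 : ε = 4 * e := by rw [he]; ring
  have hr1 : r N + 4 * e < r n1 := by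
    have := min_le_left (r n1) (r n2); linarith
  have hr2 : r N + 4 * e < r n2 := by
    have := min_le_right (r n1) (r n2); linarith
  have hrN0 : 0 ≤ r N + e := hnd N (le_trans d1 hNn1)
  have hrNB : r N + e ≤ B := by
    have := hnc N (le_trans c1 hNn1)
    rw [hB]; linarith
  set x : ℝ := (r N + e) * N with hx
  have hx0 : 0 ≤ x := mul_nonneg hrN0 (Nat.cast_nonneg _)
  set M := ⌊x⌋₊ with hM
  have hMx : (M : ℝ) ≤ x := Nat.floor_le hx0
  have hM0 : (0:ℝ) ≤ M := Nat.cast_nonneg _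
  set m1 := ⌊(r n1 - e) * n1⌋₊ with hm1
  set m2 := ⌊(r n2 - e) * n2⌋₊ with hm2
  have hm1' : (r n1 - e) * n1 < m1 + 1 := Nat.lt_floor_add_one _
  have hm2' : (r n2 - e) * n2 < m2 + 1 := Nat.lt_floor_add_one _
  set w1 : ℝ := (n1 : ℝ) / (n1 + n2) with hw1
  set w2 : ℝ := (n2 : ℝ) / (n1 + n2) with hw2
  have hw10 : 0 ≤ w1 := by positivity
  have hw20 : 0 ≤ w2 := by positivity
  have hw11 : w1 ≤ 1 := by rw [hw1, div_le_one hNpos]; linarith
  have hw21 : w2 ≤ 1 := by rw [hw2, div_le_one hNpos]; linarith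
  have hMw1 : (M : ℝ) * w1 ≤ (r N + e) * n1 := by
    have : x * w1 = (r N + e) * n1 := by
      rw [hx, hw1, hNR]; field_simp
    rw [← this]
    exact mul_le_mul_of_nonneg_right hMx hw10
  have hMw2 : (M : ℝ) * w2 ≤ (r N + e) * n2 := by
    have : x * w2 = (r N + e) * n2 := by
      rw [hx, hw2, hNR]; field_simp
    rw [← this]
    exact mul_le_mul_of_nonneg_right hMx hw20
  -- the smaller block
  set nm : ℝ := min (n1 : ℝ) (n2 : ℝ) with hnm
  have hnm1 : nm ≤ n1 := min_le_left _ _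
  have hnm2 : nm ≤ n2 := min_le_right _ _
  have hnmpos : 0 < nm := lt_min hn1R hn2R
  have hnmf : 4 * B / e ^ 2 ≤ nm := le_min f1 f2
  have hprod : w1 * w2 * ((n1:ℝ) + n2) ≤ nm := by
    have e3 : w1 * w2 * ((n1:ℝ) + n2) = w1 * n2 := by rw [hw2]; field_simp
    have e4 : w1 * w2 * ((n1:ℝ) + n2) = w2 * n1 := by rw [hw1]; field_simp
    rcases le_total (n1:ℝ) (n2:ℝ) with h | h
    · rw [hnm, min_eq_left h, e4]; nlinarith
    · rw [hnm, min_eq_right h, e3]; nlinarith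
  set t : ℝ := e * nm with ht
  have ht0 : 0 < t := by positivity
  have hc1 : (M : ℝ) * w1 + t ≤ m1 := by
    have g1 : (r N + 3 * e) * n1 ≤ (r n1 - e) * n1 :=
      mul_le_mul_of_nonneg_right (by linarith) hn1R.le
    have g2 : t ≤ e * n1 := mul_le_mul_of_nonneg_left hnm1 he0.le
    nlinarith
  have hc2 : (M : ℝ) * w2 + t ≤ m2 := by
    have g1 : (r N + 3 * e) * n2 ≤ (r n2 - e) * n2 :=
      mul_le_mul_of_nonneg_right (by linarith) hn2R.le
    have g2 : t ≤ e * n2 := mul_le_mul_of_nonneg_left hnm2 he0.le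
    nlinarith
  have hNpos' : 0 < N := by omega
  have hgle : gam k N ≤ (k:ℝ) ^ 2 / N := gam_le hk hNpos'
  have hg0 : 0 ≤ gam k N := gam_nonneg hk N
  have hghalf : gam k N ≤ 1 / 2 := by
    refine le_trans hgle ?_
    rw [div_le_iff₀ (by rw [hNR]; exact hNpos)]
    have : ((2 * k ^ 2 : ℕ) : ℝ) ≤ n1 := by exact_mod_cast kk1
    push_cast at this
    rw [hNR]; linarith
  have hsup := satProb_super' (k := k) hk k1 k2 (by linarith) M m1 m2 t ht0 hc1 hc2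
  have hvar : (M : ℝ) * w1 * w2 / t ^ 2 ≤ 1 / 4 := by
    rw [div_le_iff₀ (by positivity)]
    have g1 : (M : ℝ) ≤ B * ((n1:ℝ) + n2) := by
      have : x ≤ B * N := mul_le_mul_of_nonneg_right hrNB (Nat.cast_nonneg _)
      rw [hNR] at this; linarith
    have g2 : (M : ℝ) * w1 * w2 ≤ B * nm := by
      have g3 : (M : ℝ) * (w1 * w2) ≤ B * ((n1:ℝ) + n2) * (w1 * w2) :=
        mul_le_mul_of_nonneg_right g1 (by positivity)
      have g4 : B * ((n1:ℝ) + n2) * (w1 * w2) = B * (w1 * w2 * ((n1:ℝ) + n2)) := by ring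
      have g5 : B * (w1 * w2 * ((n1:ℝ) + n2)) ≤ B * nm := mul_le_mul_of_nonneg_left hprod hB0.le
      nlinarith
    have g6 : 4 * B ≤ e ^ 2 * nm := by
      rw [div_le_iff₀ (by positivity)] at hnmf
      linarith
    have g7 : 4 * B * nm ≤ e ^ 2 * nm * nm := mul_le_mul_of_nonneg_right g6 hnmpos.le
    rw [ht]
    nlinarith
  have hpow : κ ≤ (1 - gam k N) ^ M := by
    refine le_trans ?_ (one_sub_pow_ge hg0 hghalf M)
    rw [hκ]
    apply Real.exp_le_exp.2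
    have g1 : gam k N * M ≤ (k:ℝ) ^ 2 * B := by
      have g2 : gam k N * M ≤ (k:ℝ) ^ 2 / N * M := mul_le_mul_of_nonneg_right hgle hM0
      have g3 : (M : ℝ) ≤ B * N := le_trans hMx (mul_le_mul_of_nonneg_right hrNB (Nat.cast_nonneg _))
      have hNR' : (0:ℝ) < N := by rw [hNR]; exact hNpos
      have g4 : (k:ℝ) ^ 2 / N * M ≤ (k:ℝ) ^ 2 / N * (B * N) :=
        mul_le_mul_of_nonneg_left g3 (by positivity)
      have g5 : (k:ℝ) ^ 2 / N * (B * N) = (k:ℝ) ^ 2 * B := by field_simp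
      linarith
    linarith
  have hP1 := (hna n1 a1).1
  have hP2 := (hna n2 a2).1
  have hPN := (hnb N (le_trans b1 hNn1)).2
  have hQ : (9:ℝ) / 16 ≤ satProb k n1 m1 * satProb k n2 m2 := by
    have : (3:ℝ) / 4 * (3 / 4) ≤ satProb k n1 m1 * satProb k n2 m2 :=
      mul_le_mul (by linarith) (by linarith) (by norm_num) (satProb_nonneg _ _)
    linarith
  have hfac : (27:ℝ) / 64 ≤ (1 - (M : ℝ) * w1 * w2 / t ^ 2) * (satProb k n1 m1 * satProb k n2 m2) := by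
    have : (3:ℝ) / 4 * (9 / 16) ≤ (1 - (M : ℝ) * w1 * w2 / t ^ 2) * (satProb k n1 m1 * satProb k n2 m2) :=
      mul_le_mul (by linarith) hQ (by norm_num) (by linarith)
    linarith
  have hfin : κ * (27 / 64) ≤ (1 - gam k N) ^ M *
      ((1 - (M : ℝ) * w1 * w2 / t ^ 2) * (satProb k n1 m1 * satProb k n2 m2)) :=
    mul_le_mul hpow hfac (by norm_num) (pow_nonneg (by linarith) M)
  linarith

end Vale.Agent.P170
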