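import Mathlib

namespace Vale.Agent.P170

open Finset

lemma boxG_sum_fin3 (S : Finset ℕ) (H : ℕ → ℕ → ℕ → ℝ) :
    ∑ f ∈ Fintype.piFinset (fun _ : Fin 3 => S), H (f 0) (f 1) (f 2)
      = ∑ a ∈ S, ∑ b ∈ S, ∑ c ∈ S, H a b c := by
  have h1 : ∑ f ∈ Fintype.piFinset (fun _ : Fin 3 => S), H (f 0) (f 1) (f 2)
      = ∑ p ∈ S ×ˢ (S ×ˢ S), H p.1 p.2.1 p.2.2 := by
    refine Finset.sum_bij' (fun f _ => (f 0, f 1, f 2)) (fun p _ => ![p.1, p.2.1, p.2.2])
      ?_ ?_ ?_ ?_ ?_
    · intro f hf
      rw [Fintype.mem_piFinset] at hf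
      simp only [Finset.mem_product]
      exact ⟨hf 0, hf 1, hf 2⟩
    · intro p hp
      simp only [Finset.mem_product] at hp
      rw [Fintype.mem_piFinset]
      intro i
      fin_cases i
      · exact hp.1
      · exact hp.2.1
      · exact hp.2.2
    · intro f _
      funext i
      fin_cases i <;> rfl
    · intro p _
      rfl
    · intro f _
      rfl
  rw [h1, Finset.sum_product]
  refine Finset.sum_congr rfl fun a _ => ?_
  rw [Finset.sum_product]

lemma boxG_sum_split (S : Finset ℕ) (F : (Fin 3 → ℕ) → (Fin 3 → ℕ) → ℝ) :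
    ∑ k ∈ Fintype.piFinset (fun _ : Bool × Fin 3 => S),
        F (fun t => k (true, t)) (fun t => k (false, t))
      = ∑ f ∈ Fintype.piFinset (fun _ : Fin 3 => S),
          ∑ g ∈ Fintype.piFinset (fun _ : Fin 3 => S), F f g := by
  rw [← Finset.sum_product']
  refine Finset.sum_bij' (fun k _ => ((fun t => k (true, t)), (fun t => k (false, t))))
    (fun p _ => fun s => if s.1 = true then p.1 s.2 else p.2 s.2) ?_ ?_ ?_ ?_ ?_
  · intro k hk
    rw [Fintype.mem_piFinset] at hk
    rw [Finset.mem_product, Fintype.mem_piFinset, Fintype.mem_piFinset]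
    exact ⟨fun t => hk _, fun t => hk _⟩
  · intro p hp
    rw [Finset.mem_product, Fintype.mem_piFinset, Fintype.mem_piFinset] at hp
    rw [Fintype.mem_piFinset]
    rintro ⟨b, t⟩
    cases b
    · simpa using hp.2 t
    · simpa using hp.1 t
  · intro k _
    funext s
    obtain ⟨b, t⟩ := s
    cases b <;> simp
  · intro p _
    simp
  · intro k _
    rfl

/-- grouping the box sum for three types by the total exponents -/
lemma box_sum_fin3 (D R : ℕ) (ϑ : Fin 3 → ℝ) (hϑ : ∀ t, 0 ≤ ϑ t) (e : Fin 3 → ℕ)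
    (G : ℕ → ℕ → ℝ) (hG : ∀ a b, 0 ≤ G a b) (WT : ℕ → ℝ) (hWT0 : ∀ N, 0 ≤ WT N)
    (hWT : ∀ N < R, WT N ≤ ∑ a ∈ range (D + 1), ∑ b ∈ range (D + 1), ∑ c ∈ range (D + 1),
      if e 0 * a + e 1 * b + e 2 * c = N then
        ϑ 0 ^ a / (a.factorial : ℝ) * (ϑ 1 ^ b / (b.factorial : ℝ)) * (ϑ 2 ^ c / (c.factorial : ℝ))
      else 0) :
    ∑ N ∈ range R, ∑ N' ∈ range R, WT N * WT N' * G N N' ≤
      ∑ k ∈ Fintype.piFinset (fun _ : Bool × Fin 3 => range (D + 1)),
        (∏ s, ϑ s.2 ^ (k s) / ((k s).factorial : ℝ)) *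
          G (∑ t, e t * k (true, t)) (∑ t, e t * k (false, t)) := by
  set P : Finset (Fin 3 → ℕ) := Fintype.piFinset (fun _ : Fin 3 => range (D + 1)) with hP
  set w : (Fin 3 → ℕ) → ℝ := fun f => ∏ t, ϑ t ^ (f t) / ((f t).factorial : ℝ) with hw
  set Nf : (Fin 3 → ℕ) → ℕ := fun f => ∑ t, e t * f t with hNf
  have hw0 : ∀ f, 0 ≤ w f := fun f =>
    Finset.prod_nonneg fun t _ => div_nonneg (pow_nonneg (hϑ t) _) (Nat.cast_nonneg _)
  -- the right-hand side as a double sum
  have hR : ∑ k ∈ Fintype.piFinset (fun _ : Bool × Fin 3 => range (D + 1)),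
        (∏ s, ϑ s.2 ^ (k s) / ((k s).factorial : ℝ)) *
          G (∑ t, e t * k (true, t)) (∑ t, e t * k (false, t))
      = ∑ f ∈ P, ∑ g ∈ P, w f * w g * G (Nf f) (Nf g) := by
    rw [hP, ← boxG_sum_split (range (D + 1)) (fun f g => w f * w g * G (Nf f) (Nf g))]
    refine Finset.sum_congr rfl fun k _ => ?_
    congr 1
    rw [Fintype.prod_prod_type, Fintype.prod_bool]
  -- the weights
  set W : ℕ → ℝ := fun N => ∑ f ∈ P, if Nf f = N then w f else 0 with hW
  have hWle : ∀ N < R, WT N ≤ W N := by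
    intro N hN
    refine (hWT N hN).trans (le_of_eq ?_)
    rw [hW, hP]
    simp only
    rw [← boxG_sum_fin3 (range (D + 1)) (fun a b c =>
      if e 0 * a + e 1 * b + e 2 * c = N then
        ϑ 0 ^ a / (a.factorial : ℝ) * (ϑ 1 ^ b / (b.factorial : ℝ)) * (ϑ 2 ^ c / (c.factorial : ℝ))
      else 0)]
    refine Finset.sum_congr rfl fun f _ => ?_
    simp only [hNf, hw, Fin.sum_univ_three, Fin.prod_univ_three]
  have hW0 : ∀ N, 0 ≤ W N := fun N =>
    Finset.sum_nonneg fun f _ => by
      split_ifs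
      · exact hw0 f
      · exact le_rfl
  have h1 : ∑ N ∈ range R, ∑ N' ∈ range R, WT N * WT N' * G N N'
      ≤ ∑ N ∈ range R, ∑ N' ∈ range R, W N * W N' * G N N' := by
    refine Finset.sum_le_sum fun N hN => Finset.sum_le_sum fun N' hN' => ?_
    refine mul_le_mul_of_nonneg_right ?_ (hG N N')
    exact mul_le_mul (hWle N (Finset.mem_range.1 hN)) (hWle N' (Finset.mem_range.1 hN'))
      (hWT0 N') (hW0 N)
  have h2 : ∑ N ∈ range R, ∑ N' ∈ range R, W N * W N' * G N N'
      = ∑ f ∈ P, ∑ g ∈ P, w f * w g *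
          (if Nf f ∈ range R ∧ Nf g ∈ range R then G (Nf f) (Nf g) else 0) := by
    have e1 : ∀ N N', W N * W N' * G N N'
        = ∑ f ∈ P, ∑ g ∈ P, (if Nf f = N then w f else 0) * (if Nf g = N' then w g else 0)
            * G N N' := by
      intro N N'
      rw [hW]
      simp only
      rw [Finset.sum_mul_sum, Finset.sum_mul]
      refine Finset.sum_congr rfl fun f _ => ?_
      rw [Finset.sum_mul]
    simp only [e1]
    have e2 : ∀ N ∈ range R, ∑ N' ∈ range R, ∑ f ∈ P, ∑ g ∈ P,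
        (if Nf f = N then w f else 0) * (if Nf g = N' then w g else 0) * G N N'
        = ∑ f ∈ P, ∑ g ∈ P, ∑ N' ∈ range R,
        (if Nf f = N then w f else 0) * (if Nf g = N' then w g else 0) * G N N' := by
      intro N _
      rw [Finset.sum_comm]
      refine Finset.sum_congr rfl fun f _ => ?_
      rw [Finset.sum_comm]
    rw [Finset.sum_congr rfl e2, Finset.sum_comm]
    refine Finset.sum_congr rfl fun f _ => ?_
    rw [Finset.sum_comm]
    refine Finset.sum_congr rfl fun g _ => ?_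
    by_cases hf : Nf f ∈ range R
    · by_cases hg : Nf g ∈ range R
      · rw [if_pos ⟨hf, hg⟩, Finset.sum_eq_single (Nf f), Finset.sum_eq_single (Nf g)]
        · simp
        · intro b _ hb
          rw [if_neg (Ne.symm hb)]
          simp
        · intro h
          exact absurd hg h
        · intro b _ hb
          refine Finset.sum_eq_zero fun N' _ => ?_
          rw [if_neg (Ne.symm hb)]
          simp
        · intro h
          exact absurd hf h
      · rw [if_neg (fun h => hg h.2), mul_zero]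
        refine Finset.sum_eq_zero fun N _ => Finset.sum_eq_zero fun N' hN' => ?_
        have : Nf g ≠ N' := fun h => hg (h ▸ hN')
        rw [if_neg this]
        simp
    · rw [if_neg (fun h => hf h.1), mul_zero]
      refine Finset.sum_eq_zero fun N hN => Finset.sum_eq_zero fun N' _ => ?_
      have : Nf f ≠ N := fun h => hf (h ▸ hN)
      rw [if_neg this]
      simp
  rw [hR]
  refine h1.trans (h2.le.trans ?_)
  refine Finset.sum_le_sum fun f _ => Finset.sum_le_sum fun g _ => ?_
  refine mul_le_mul_of_nonneg_left ?_ (mul_nonneg (hw0 f) (hw0 g))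
  split_ifs
  · exact le_rfl
  · exact hG _ _

end Vale.Agent.P170
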