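import Mathlib
import Vale.Agent.P170.Interp

namespace Vale.Agent.P170

open Finset

lemma young_pow (j : ℕ) (x y : ℝ) (hx : 0 ≤ x) (hy : 0 ≤ y) :
    ((j : ℝ) + 1) * y ^ j * x ≤ x ^ (j + 1) + j * y ^ (j + 1) := by
  induction j with
  | zero => simp
  | succ j ih =>
    have h1 : 0 ≤ ((j : ℝ) + 1) * y ^ j * (x - y) ^ 2 := by positivity
    have h2 := mul_le_mul_of_nonneg_left ih hx
    push_cast
    have e : x ^ (j + 1 + 1) + ((j : ℝ) + 1) * y ^ (j + 1 + 1) - ((j : ℝ) + 1 + 1) * y ^ (j + 1) * x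
        = (x * (x ^ (j + 1) + j * y ^ (j + 1)) - x * (((j : ℝ) + 1) * y ^ j * x))
          + ((j : ℝ) + 1) * y ^ j * (x - y) ^ 2 := by ring
    linarith

/-- the numerical inequality behind the local inequality -/
lemma amgm_num (j n a : ℕ) (hKn : j + 1 ≤ n) (ha : a ≤ n) (y : ℝ) (hy : 0 ≤ y) :
    ((j : ℝ) + 1) * y ^ j * ((a : ℝ) / (2 * n)) ≤
      (a.choose (j + 1) : ℝ) / ((2:ℝ) ^ (j + 1) * (n.choose (j + 1) : ℝ)) + j * y ^ (j + 1)
        + ((j : ℝ) + 1) * j / ((2:ℝ) ^ (j + 2) * n) := by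
  have hn : (0:ℝ) < n := by
    have : 0 < n := by omega
    exact_mod_cast this
  have h1 := young_pow j ((a : ℝ) / (2 * n)) y (by positivity) hy
  have h2 := pow_le_desc_ratio_add a n (j + 1) ha hKn (by omega)
  rw [← choose_ratio_eq] at h2
  have h3 : ((a : ℝ) / (2 * n)) ^ (j + 1) = ((a : ℝ) / n) ^ (j + 1) / (2:ℝ) ^ (j + 1) := by
    rw [← div_pow]; congr 1; field_simp
  have h4 : ((a : ℝ) / n) ^ (j + 1) / (2:ℝ) ^ (j + 1) ≤
      ((a.choose (j + 1) : ℝ) / (n.choose (j + 1) : ℝ) + ((j + 1 : ℕ) : ℝ) * (((j + 1 : ℕ) : ℝ) - 1) / (2 * n))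
        / (2:ℝ) ^ (j + 1) :=
    div_le_div_of_nonneg_right h2 (by positivity)
  have h5 : ((a.choose (j + 1) : ℝ) / (n.choose (j + 1) : ℝ) + ((j + 1 : ℕ) : ℝ) * (((j + 1 : ℕ) : ℝ) - 1) / (2 * n))
        / (2:ℝ) ^ (j + 1) =
      (a.choose (j + 1) : ℝ) / ((2:ℝ) ^ (j + 1) * (n.choose (j + 1) : ℝ))
        + ((j : ℝ) + 1) * j / ((2:ℝ) ^ (j + 2) * n) := by
    rw [add_div, div_div, mul_comm (n.choose (j + 1) : ℝ)]
    congr 1
    push_cast
    field_simp
    ring
  rw [h3] at h1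
  linarith

/-- literals violated by all assignments of a nonempty family are counted by the frozen variables -/
lemma card_bad_lit {V : Type} [DecidableEq V] [Fintype V] (U : Set (V → Bool)) (hU : U.Nonempty)
    [DecidablePred (fun l : V × Bool => ∀ σ ∈ U, σ l.1 ≠ l.2)] :
    (univ.filter (fun l : V × Bool => ∀ σ ∈ U, σ l.1 ≠ l.2)).card = frozen U (fun s => s) := by
  classical
  obtain ⟨σ0, h0⟩ := hU
  unfold frozen
  rw [Finset.card_filter, Finset.card_filter, Fintype.sum_prod_type]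
  apply Finset.sum_congr rfl
  intro i _
  rw [Fintype.sum_bool]
  by_cases hfr : ∀ s ∈ U, ∀ t ∈ U, s i = t i
  · rw [if_pos hfr]
    cases hv : σ0 i
    · have h1 : ¬ (∀ σ ∈ U, σ i ≠ false) := fun h => h σ0 h0 hv
      have h2 : ∀ σ ∈ U, σ i ≠ true := by
        intro σ hσ
        rw [hfr σ hσ σ0 h0, hv]; simp
      simp only [h1, if_false]
      rw [if_pos h2]
    · have h1 : ¬ (∀ σ ∈ U, σ i ≠ true) := fun h => h σ0 h0 hv
      have h2 : ∀ σ ∈ U, σ i ≠ false := by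
        intro σ hσ
        rw [hfr σ hσ σ0 h0, hv]; simp
      simp only [h1, if_false]
      rw [if_pos h2]
  · rw [if_neg hfr]
    push Not at hfr
    obtain ⟨s, hs, t, ht, hst⟩ := hfr
    have h1 : ¬ (∀ σ ∈ U, σ i ≠ true) := by
      intro h
      have a1 := h s hs
      have a2 := h t ht
      apply hst
      cases hs' : s i <;> cases ht' : t i <;> simp_all
    have h2 : ¬ (∀ σ ∈ U, σ i ≠ false) := by
      intro h
      have a1 := h s hs
      have a2 := h t ht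
      apply hst
      cases hs' : s i <;> cases ht' : t i <;> simp_all
    simp only [h1, h2, if_false]

end Vale.Agent.P170
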