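import Mathlib

namespace Vale.Agent.P170

open Finset

/-- `dco lam r` is the coefficient of `z^(r+1)` in the power series of `1 - (1-z)^lam`. -/
noncomputable def dco (lam : ℝ) : ℕ → ℝ
  | 0 => lam
  | (r + 1) => dco lam r * ((r : ℝ) + 1 - lam) / ((r : ℝ) + 2)

lemma dco_nonneg {lam : ℝ} (h0 : 0 ≤ lam) (h1 : lam ≤ 1) (r : ℕ) : 0 ≤ dco lam r := by
  induction r with
  | zero => simpa [dco] using h0
  | succ r ih =>
    simp only [dco]
    have : (0 : ℝ) ≤ (r : ℝ) := Nat.cast_nonneg r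
    exact div_nonneg (mul_nonneg ih (by linarith)) (by linarith)

lemma choose_succ_rec (a : ℝ) (n : ℕ) :
    Ring.choose a (n + 1) = Ring.choose a n * (a - n) / (n + 1) := by
  rw [Ring.choose_eq_smul, Ring.choose_eq_smul, descPochhammer_succ_right, Polynomial.smeval_mul]
  simp [Nat.factorial_succ, Polynomial.smeval_natCast, Polynomial.smeval_sub]
  field_simp

lemma dco_eq_choose (lam : ℝ) (r : ℕ) :
    dco lam r = -(Ring.choose lam (r + 1) * (-1) ^ (r + 1)) := by
  induction r with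
  | zero => simp [dco]
  | succ r ih =>
    simp only [dco]
    rw [ih, choose_succ_rec lam (r + 1), pow_succ (-1 : ℝ) (r + 1)]
    push_cast
    have : (r : ℝ) + 2 ≠ 0 := by positivity
    have h2 : (r : ℝ) + 1 + 1 ≠ 0 := by positivity
    field_simp
    ring

lemma hasSum_dco {lam z : ℝ} (hz0 : 0 ≤ z) (hz1 : z < 1) :
    HasSum (fun r : ℕ => dco lam r * z ^ (r + 1)) (1 - (1 - z) ^ lam) := by
  have hmem : (-z) ∈ Metric.eball (0 : ℝ) 1 := by
    simp only [Metric.mem_eball, edist_zero_right]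
    rw [enorm_neg, Real.enorm_eq_ofReal hz0]
    exact_mod_cast (ENNReal.ofReal_lt_one.2 hz1)
  have h := (Real.one_add_rpow_hasFPowerSeriesOnBall_zero (a := lam)).hasSum hmem
  simp only [binomialSeries_apply, List.ofFn_const, List.prod_replicate, smul_eq_mul,
    zero_add] at h
  have h2 := (hasSum_nat_add_iff' 1).2 h
  simp only [Finset.sum_range_one, pow_zero, mul_one, Ring.choose_zero_right] at h2
  have h3 := h2.neg
  have e1 : (fun r : ℕ => dco lam r * z ^ (r + 1))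
      = fun b : ℕ => -(Ring.choose lam (b + 1) * (-z) ^ (b + 1)) := by
    ext r
    rw [dco_eq_choose, neg_pow z (r + 1)]
    ring
  have e2 : 1 - (1 - z) ^ lam = -((1 + -z) ^ lam - 1) := by
    rw [← sub_eq_add_neg]; ring
  rw [e1, e2]
  exact h3

lemma dco_succ_le {lam : ℝ} (h0 : 0 ≤ lam) (h1 : lam ≤ 1) (r : ℕ) :
    dco lam (r + 1) ≤ dco lam r := by
  simp only [dco]
  have hr : (0 : ℝ) ≤ (r : ℝ) := Nat.cast_nonneg r
  rw [div_le_iff₀ (by linarith)]
  exact mul_le_mul_of_nonneg_left (by linarith) (dco_nonneg h0 h1 r)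

lemma dco_add_le {lam : ℝ} (h0 : 0 ≤ lam) (h1 : lam ≤ 1) (R k : ℕ) :
    dco lam (k + R) ≤ dco lam R := by
  induction k with
  | zero => simp
  | succ k ih =>
    have : k + 1 + R = (k + R) + 1 := by ring
    rw [this]
    exact (dco_succ_le h0 h1 _).trans ih

lemma dco_sum_identity (lam : ℝ) (R : ℕ) :
    ((R : ℝ) + 1) * dco lam R = lam * (1 - ∑ r ∈ range R, dco lam r) := by
  induction R with
  | zero => simp [dco]
  | succ R ih =>
    rw [Finset.sum_range_succ]
    simp only [dco]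
    push_cast
    have h2 : (R : ℝ) + 2 ≠ 0 := by positivity
    have e : ((R : ℝ) + 1 + 1) * (dco lam R * ((R : ℝ) + 1 - lam) / ((R : ℝ) + 2))
        = dco lam R * ((R : ℝ) + 1 - lam) := by
      field_simp
      ring
    rw [e]
    linear_combination ih

lemma partial_le {lam z : ℝ} (h0 : 0 < lam) (h1 : lam ≤ 1) (hz0 : 0 ≤ z) (hz1 : z ≤ 1) (R : ℕ) :
    ∑ r ∈ range R, dco lam r * z ^ (r + 1) ≤ 1 - (1 - z) ^ lam := by
  rcases lt_or_eq_of_le hz1 with hz | rfl
  · exact sum_le_hasSum _ (fun i _ => mul_nonneg (dco_nonneg h0.le h1 i) (by positivity))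
      (hasSum_dco hz0 hz)
  · simp only [one_pow, mul_one, sub_self, Real.zero_rpow h0.ne', sub_zero]
    have h := dco_sum_identity lam R
    have h3 : 0 ≤ ((R : ℝ) + 1) * dco lam R :=
      mul_nonneg (by positivity) (dco_nonneg h0.le h1 R)
    rw [h] at h3
    have := nonneg_of_mul_nonneg_right h3 h0
    linarith

lemma le_partial_add {lam z : ℝ} (h0 : 0 < lam) (h1 : lam ≤ 1) (hz0 : 0 ≤ z) (hz1 : z < 1) (R : ℕ) :
    1 - (1 - z) ^ lam ≤ ∑ r ∈ range R, dco lam r * z ^ (r + 1) + dco lam R * z ^ (R + 1) / (1 - z) := by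
  have h := (hasSum_nat_add_iff' R).2 (hasSum_dco (lam := lam) hz0 hz1)
  have hg := (hasSum_geometric_of_lt_one hz0 hz1).mul_left (dco lam R * z ^ (R + 1))
  have hle := hasSum_le (fun k => ?_) h hg
  · rw [div_eq_mul_inv]
    linarith
  · have e : z ^ (k + R + 1) = z ^ (R + 1) * z ^ k := by ring
    rw [e, ← mul_assoc]
    exact mul_le_mul_of_nonneg_right
      (mul_le_mul_of_nonneg_right (dco_add_le h0.le h1 R k) (by positivity)) (by positivity)

/-- moment comparison is preserved by the absolutely monotone function `z ↦ 1 - (1-z)^lam` -/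
lemma compare {α β : Type} {lam : ℝ} (h0 : 0 < lam) (h1 : lam ≤ 1)
    (s : Finset α) (t : Finset β) (w u : α → ℝ) (w' v : β → ℝ)
    (hw : ∀ i ∈ s, 0 ≤ w i) (hu0 : ∀ i ∈ s, 0 ≤ u i) (hu1 : ∀ i ∈ s, u i ≤ 1)
    (hw' : ∀ j ∈ t, 0 ≤ w' j) (hv0 : ∀ j ∈ t, 0 ≤ v j) (hv1 : ∀ j ∈ t, v j ≤ 1)
    (h : ∀ r : ℕ, ∑ j ∈ t, w' j * v j ^ (r + 1) ≤ ∑ i ∈ s, w i * u i ^ (r + 1)) :
    ∑ j ∈ t, w' j * (1 - (1 - v j) ^ lam) ≤ ∑ i ∈ s, w i * (1 - (1 - u i) ^ lam) := by
  have hcr : Continuous fun x : ℝ => x ^ lam := Real.continuous_rpow_const h0.le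
  have hF : Continuous fun b : ℝ => ∑ j ∈ t, w' j * (1 - (1 - b * v j) ^ lam) := by
    refine continuous_finset_sum _ fun j _ => ?_
    exact continuous_const.mul (continuous_const.sub (hcr.comp (by fun_prop)))
  have hG : Continuous fun b : ℝ => ∑ i ∈ s, w i * (1 - (1 - b * u i) ^ lam) := by
    refine continuous_finset_sum _ fun j _ => ?_
    exact continuous_const.mul (continuous_const.sub (hcr.comp (by fun_prop)))
  have hF1 := (hF.tendsto 1).mono_left (nhdsWithin_le_nhds (s := Set.Iio 1))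
  have hG1 := (hG.tendsto 1).mono_left (nhdsWithin_le_nhds (s := Set.Iio 1))
  simp only [one_mul] at hF1 hG1
  refine le_of_tendsto_of_tendsto hF1 hG1 ?_
  filter_upwards [Ioo_mem_nhdsLT (zero_lt_one' ℝ)] with b hb
  have hsF : HasSum (fun r : ℕ => ∑ j ∈ t, w' j * (dco lam r * (b * v j) ^ (r + 1)))
      (∑ j ∈ t, w' j * (1 - (1 - b * v j) ^ lam)) := by
    refine hasSum_sum fun j hj => ?_
    refine (hasSum_dco (mul_nonneg hb.1.le (hv0 j hj)) ?_).mul_left (w' j)
    calc b * v j ≤ b * 1 := mul_le_mul_of_nonneg_left (hv1 j hj) hb.1.le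
      _ < 1 := by simpa using hb.2
  have hsG : HasSum (fun r : ℕ => ∑ i ∈ s, w i * (dco lam r * (b * u i) ^ (r + 1)))
      (∑ i ∈ s, w i * (1 - (1 - b * u i) ^ lam)) := by
    refine hasSum_sum fun j hj => ?_
    refine (hasSum_dco (mul_nonneg hb.1.le (hu0 j hj)) ?_).mul_left (w j)
    calc b * u j ≤ b * 1 := mul_le_mul_of_nonneg_left (hu1 j hj) hb.1.le
      _ < 1 := by simpa using hb.2
  refine hasSum_le (fun r => ?_) hsF hsG
  have e1 : ∑ j ∈ t, w' j * (dco lam r * (b * v j) ^ (r + 1))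
      = dco lam r * b ^ (r + 1) * ∑ j ∈ t, w' j * v j ^ (r + 1) := by
    rw [Finset.mul_sum]
    refine Finset.sum_congr rfl fun j _ => ?_
    rw [mul_pow]; ring
  have e2 : ∑ i ∈ s, w i * (dco lam r * (b * u i) ^ (r + 1))
      = dco lam r * b ^ (r + 1) * ∑ i ∈ s, w i * u i ^ (r + 1) := by
    rw [Finset.mul_sum]
    refine Finset.sum_congr rfl fun j _ => ?_
    rw [mul_pow]; ring
  rw [e1, e2]
  exact mul_le_mul_of_nonneg_left (h r)
    (mul_nonneg (dco_nonneg h0.le h1 r) (pow_nonneg hb.1.le _))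

end Vale.Agent.P170
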