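import Mathlib
import Vale.Agent.P170.Oper

namespace Vale.Agent.P170

open Finset

/-- averaging operator for a family of actions on a state space -/
noncomputable def opA {X Ω : Type} [Fintype Ω] (act : Ω → X → X) :
    Module.End ℝ (X → ℝ) where
  toFun f := fun s => (∑ c, f (act c s)) / (Fintype.card Ω : ℝ)
  map_add' f g := by
    funext S
    simp [Finset.sum_add_distrib, add_div]
  map_smul' r f := by
    funext S
    simp only [Pi.smul_apply, smul_eq_mul, RingHom.id_apply]
    rw [← Finset.mul_sum, mul_div_assoc]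

lemma opA_apply {X Ω : Type} [Fintype Ω] (act : Ω → X → X) (f : X → ℝ) (s : X) :
    opA act f s = (∑ c, f (act c s)) / (Fintype.card Ω : ℝ) := rfl

lemma opA_commute {X Ω Ω' : Type} [Fintype Ω] [Fintype Ω'] (act : Ω → X → X) (act' : Ω' → X → X)
    (h : ∀ c d s, act c (act' d s) = act' d (act c s)) :
    Commute (opA act) (opA act') := by
  apply LinearMap.ext
  intro f
  funext S
  simp only [Module.End.mul_apply, opA_apply]
  rw [← Finset.sum_div, ← Finset.sum_div, Finset.sum_comm, div_div, div_div, mul_comm]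
  congr 1
  apply Finset.sum_congr rfl
  intro c _
  apply Finset.sum_congr rfl
  intro d _
  rw [h]

/-- pointwise order on the states satisfying `G` -/
def LeOn {X : Type} (G : X → Prop) (f g : X → ℝ) : Prop := ∀ s, G s → f s ≤ g s

lemma LeOn.trans {X : Type} {G : X → Prop} {f g h : X → ℝ} (h1 : LeOn G f g) (h2 : LeOn G g h) :
    LeOn G f h := fun s hs => le_trans (h1 s hs) (h2 s hs)

/-- operators preserving the order on the states satisfying `G` -/
def MonoOn {X : Type} (G : X → Prop) (T : Module.End ℝ (X → ℝ)) : Prop :=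
  ∀ f g : X → ℝ, LeOn G f g → LeOn G (T f) (T g)

lemma opA_monoOn {X Ω : Type} [Fintype Ω] (G : X → Prop) (act : Ω → X → X)
    (h : ∀ c s, G s → G (act c s)) : MonoOn G (opA act) := by
  intro f g hfg s hs
  simp only [opA_apply]
  apply div_le_div_of_nonneg_right _ (Nat.cast_nonneg _)
  exact Finset.sum_le_sum (fun c _ => hfg _ (h c s hs))

lemma MonoOn.pow {X : Type} {G : X → Prop} {T : Module.End ℝ (X → ℝ)} (h : MonoOn G T) (m : ℕ) :
    MonoOn G (T ^ m) := by
  induction m with
  | zero => intro f g hfg; simpa using hfg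
  | succ m ih =>
    intro f g hfg
    rw [pow_succ]
    simp only [Module.End.mul_apply]
    exact ih _ _ (h _ _ hfg)

lemma MonoOn.add {X : Type} {G : X → Prop} {T U : Module.End ℝ (X → ℝ)} (h : MonoOn G T)
    (h' : MonoOn G U) : MonoOn G (T + U) := by
  intro f g hfg s hs
  simp only [LinearMap.add_apply, Pi.add_apply]
  exact add_le_add (h _ _ hfg s hs) (h' _ _ hfg s hs)

lemma MonoOn.smul {X : Type} {G : X → Prop} {T : Module.End ℝ (X → ℝ)} (h : MonoOn G T) {r : ℝ}
    (hr : 0 ≤ r) : MonoOn G (r • T) := by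
  intro f g hfg s hs
  simp only [LinearMap.smul_apply, Pi.smul_apply, smul_eq_mul]
  exact mul_le_mul_of_nonneg_left (h _ _ hfg s hs) hr

lemma MonoOn.one {X : Type} {G : X → Prop} : MonoOn G (1 : Module.End ℝ (X → ℝ)) := by
  intro f g hfg
  simpa using hfg

/-- the abstract comparison principle for commuting order preserving operators -/
lemma pow_leOn_pow {X : Type} {G : X → Prop} {A B : Module.End ℝ (X → ℝ)} (hA : MonoOn G A)
    (hB : MonoOn G B) (hc : Commute A B) (Θ : X → ℝ) (h : LeOn G (A Θ) (B Θ)) (M : ℕ) :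
    LeOn G ((A ^ M) Θ) ((B ^ M) Θ) := by
  induction M with
  | zero => intro s _; simp
  | succ M ih =>
    have e1 : (A ^ (M + 1)) Θ = (A ^ M) (A Θ) := by
      rw [pow_succ, Module.End.mul_apply]
    have s1 : LeOn G ((A ^ M) (A Θ)) ((A ^ M) (B Θ)) := (hA.pow M) _ _ h
    have e2 : (A ^ M) (B Θ) = B ((A ^ M) Θ) := by
      have := (hc.pow_left M).eq
      calc (A ^ M) (B Θ) = (A ^ M * B) Θ := rfl
        _ = (B * A ^ M) Θ := by rw [this]
        _ = B ((A ^ M) Θ) := rfl
    have s2 : LeOn G (B ((A ^ M) Θ)) (B ((B ^ M) Θ)) := hB _ _ ih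
    have e3 : (B ^ (M + 1)) Θ = B ((B ^ M) Θ) := by
      rw [pow_succ', Module.End.mul_apply]
    rw [e1, e3]
    rw [e2] at s1
    exact s1.trans s2

end Vale.Agent.P170
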