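import Mathlib
import Vale.Agent.P170.Lvl2
import Vale.Agent.P170.Interp

namespace Vale.Agent.P170

open Finset

/-- level-one states: real functions on families of assignments -/
abbrev St (V : Type) := Set (V → Bool) → ℝ

variable {V : Type}

/-- restriction of a state to a family `B` -/
def resB (B : Set (V → Bool)) (ξ : St V) : St V := fun T => ξ (T ∩ B)

/-- a warning: with weight `η` the state is restricted to `B` -/
def warn (η : ℝ) (B : Set (V → Bool)) (ξ : St V) : St V :=
  fun T => (1 - η) * ξ T + η * ξ (T ∩ B)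

/-- assignments satisfying a literal -/
def litSet (l : V × Bool) : Set (V → Bool) := {σ | σ l.1 = l.2}

/-- assignments satisfying a clause -/
def clSet [DecidableEq V] {k : ℕ} (c : Clause k V) : Set (V → Bool) := {σ | c.Sat σ}

/-- nonnegative finite mixtures of nonemptiness indicators -/
def Good (ξ : St V) : Prop :=
  ∃ (ι : Type) (_ : Fintype ι) (p : ι → ℝ) (S : ι → Set (V → Bool)),
    (∀ i, 0 ≤ p i) ∧ ∀ T, ξ T = ∑ i, p i * ind (T ∩ S i)

/-- the observable -/
noncomputable def Th (lam : ℝ) (ξ : St V) : ℝ := (ξ Set.univ) ^ lam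

lemma good_ind : Good (ind : St V) := by
  refine ⟨Unit, inferInstance, fun _ => 1, fun _ => Set.univ, fun _ => zero_le_one, ?_⟩
  intro T
  simp

lemma Good.resB {ξ : St V} (h : Good ξ) (B : Set (V → Bool)) : Good (resB B ξ) := by
  obtain ⟨ι, _, p, S, hp, hξ⟩ := h
  refine ⟨ι, inferInstance, p, fun i => B ∩ S i, hp, ?_⟩
  intro T
  simp only [Vale.Agent.P170.resB, hξ, Set.inter_assoc]

lemma Good.warn {ξ : St V} (h : Good ξ) {η : ℝ} (h0 : 0 ≤ η) (h1 : η ≤ 1) (B : Set (V → Bool)) :
    Good (warn η B ξ) := by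
  obtain ⟨ι, _, p, S, hp, hξ⟩ := h
  refine ⟨ι ⊕ ι, inferInstance, Sum.elim (fun i => (1 - η) * p i) (fun i => η * p i),
    Sum.elim S (fun i => B ∩ S i), ?_, ?_⟩
  · rintro (i | i)
    · exact mul_nonneg (by linarith) (hp i)
    · exact mul_nonneg h0 (hp i)
  · intro T
    simp only [Vale.Agent.P170.warn, hξ, Fintype.sum_sum_type, Sum.elim_inl, Sum.elim_inr,
      Finset.mul_sum, Set.inter_assoc, mul_assoc]

lemma resB_warn_comm (η : ℝ) (B B' : Set (V → Bool)) (ξ : St V) :
    resB B (warn η B' ξ) = warn η B' (resB B ξ) := by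
  funext T
  simp only [resB, warn, Set.inter_right_comm]

lemma Good.nonneg {ξ : St V} (h : Good ξ) (T : Set (V → Bool)) : 0 ≤ ξ T := by
  obtain ⟨ι, _, p, S, hp, hξ⟩ := h
  rw [hξ]
  exact Finset.sum_nonneg (fun i _ => mul_nonneg (hp i) (ind_nonneg _))

lemma Th_nonneg {ξ : St V} (h : Good ξ) (lam : ℝ) : 0 ≤ Th lam ξ :=
  Real.rpow_nonneg (h.nonneg _) _

end Vale.Agent.P170
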