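import Mathlib
import Vale.Agent.P170.States
import Vale.Agent.P170.Ser
import Vale.Agent.P170.LocalNum

namespace Vale.Agent.P170

open Finset

lemma prod_chi {A : Type} {m : ℕ} (B : Set A) (S : Fin m → Set A)
    [Decidable (∀ σ ∈ ⋃ t, S t, σ ∉ B)] :
    ∏ t, (1 - ind (B ∩ S t)) = if (∀ σ ∈ ⋃ t, S t, σ ∉ B) then (1:ℝ) else 0 := by
  split_ifs with h
  · apply Finset.prod_eq_one
    intro t _
    rw [ind_of_empty]
    · ring
    · rintro ⟨σ, h1, h2⟩
      exact h σ (Set.mem_iUnion.2 ⟨t, h2⟩) h1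
  · push Not at h
    obtain ⟨σ, h1, h2⟩ := h
    obtain ⟨t, ht⟩ := Set.mem_iUnion.1 h1
    apply Finset.prod_eq_zero (mem_univ t)
    rw [ind_of_nonempty (⟨σ, h2, ht⟩ : (B ∩ S t).Nonempty)]; ring

lemma moment_abstract {ι Ωc Ωl : Type} [Fintype ι] [Fintype Ωc] [Fintype Ωl] (wt : ι → ℝ)
    (hw : ∀ i, 0 ≤ wt i) (hsum : ∑ i, wt i = 1) (chiC : Ωc → ι → ℝ) (chiL : Ωl → ι → ℝ) (r : ℕ)
    (A C E : ℝ)
    (h : ∀ s : Fin (r + 1) → ι, (∀ t, wt (s t) ≠ 0) →
      A * ∑ l, ∏ t, chiL l (s t) ≤ C * ∑ c, ∏ t, chiC c (s t) + E) :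
    A * ∑ l, (∑ i, wt i * chiL l i) ^ (r + 1) ≤
      C * ∑ c, (∑ i, wt i * chiC c i) ^ (r + 1) + E := by
  have e1 : ∀ (Ω : Type) [Fintype Ω] (chi : Ω → ι → ℝ),
      ∑ l, (∑ i, wt i * chi l i) ^ (r + 1) =
        ∑ s : Fin (r + 1) → ι, (∏ t, wt (s t)) * ∑ l, ∏ t, chi l (s t) := by
    intro Ω _ chi
    simp_rw [Fintype.sum_pow, Finset.prod_mul_distrib, Finset.mul_sum]
    rw [Finset.sum_comm]
  have e2 : ∑ s : Fin (r + 1) → ι, ∏ t, wt (s t) = 1 := by
    rw [← Fintype.sum_pow, hsum, one_pow]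
  rw [e1, e1, Finset.mul_sum, Finset.mul_sum]
  have hE : E = ∑ s : Fin (r + 1) → ι, (∏ t, wt (s t)) * E := by
    rw [← Finset.sum_mul, e2, one_mul]
  rw [hE, ← Finset.sum_add_distrib]
  apply Finset.sum_le_sum
  intro s _
  by_cases hs : ∀ t, wt (s t) ≠ 0
  · have h1 := h s hs
    have hW : 0 ≤ ∏ t, wt (s t) := Finset.prod_nonneg (fun t _ => hw _)
    have h2 := mul_le_mul_of_nonneg_left h1 hW
    linarith
  · push Not at hs
    obtain ⟨t, ht⟩ := hs
    have : ∏ t, wt (s t) = 0 := Finset.prod_eq_zero (mem_univ t) ht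
    simp [this]

variable {V : Type} [Fintype V] [DecidableEq V]

lemma moment_ineq (j : ℕ) (hn : j + 1 ≤ Fintype.card V) (p π : ℝ) (hp0 : 0 ≤ p) (hπ0 : 0 ≤ π)
    {ι : Type} [Fintype ι] (wt : ι → ℝ) (hw : ∀ i, 0 ≤ wt i) (hsum : ∑ i, wt i = 1)
    (S : ι → Set (V → Bool)) (hS : ∀ i, wt i ≠ 0 → (S i).Nonempty) (r : ℕ) :
    (((j : ℝ) + 1) * p ^ j * (π ^ j) ^ (r + 1) / (2 * (Fintype.card V : ℝ))) *
        ∑ l : V × Bool, (∑ i, wt i * (1 - ind (litSet l ∩ S i))) ^ (r + 1)
      ≤ (1 / (Fintype.card (Clause (j + 1) V) : ℝ)) *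
        ∑ c : Clause (j + 1) V, (∑ i, wt i * (1 - ind (clSet c ∩ S i))) ^ (r + 1)
        + ((j : ℝ) * p ^ (j + 1) * (π ^ (j + 1)) ^ (r + 1)
          + ((j : ℝ) + 1) * j / ((2:ℝ) ^ (j + 2) * (Fintype.card V : ℝ))) := by
  classical
  apply moment_abstract wt hw hsum (fun c i => 1 - ind (clSet c ∩ S i))
    (fun l i => 1 - ind (litSet l ∩ S i))
  intro s hs
  have hU : (⋃ t, S (s t)).Nonempty := by
    obtain ⟨σ, hσ⟩ := hS (s 0) (hs 0)
    exact ⟨σ, Set.mem_iUnion.2 ⟨0, hσ⟩⟩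
  have e1 : ∑ l : V × Bool, ∏ t, (1 - ind (litSet l ∩ S (s t))) =
      (frozen (⋃ t, S (s t)) (fun s => s) : ℝ) := by
    simp_rw [prod_chi _ (fun t => S (s t))]
    rw [Finset.sum_boole, ← card_bad_lit _ hU]
    congr 1
    exact congrArg Finset.card (Finset.filter_congr (fun l _ => by simp [litSet]))
  have e2 : ∑ c : Clause (j + 1) V, ∏ t, (1 - ind (clSet c ∩ S (s t))) =
      ((frozen (⋃ t, S (s t)) (fun s => s)).choose (j + 1) : ℝ) := by
    simp_rw [prod_chi _ (fun t => S (s t))]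
    rw [Finset.sum_boole]
    unfold frozen
    have h3 := card_bad (k := j + 1) (V := V) _ hU (fun s => s)
    simp only []
    rw [← h3]
    congr 1
  rw [e1, e2, card_clause]
  have h := amgm_num j (Fintype.card V) (frozen (⋃ t, S (s t)) (fun s => s)) hn (frozen_le _ _)
    (p * π ^ (r + 1)) (by positivity)
  have a1 : (p * π ^ (r + 1)) ^ j = p ^ j * (π ^ j) ^ (r + 1) := by
    rw [mul_pow, ← pow_mul, ← pow_mul, mul_comm (r + 1) j]
  have a2 : (p * π ^ (r + 1)) ^ (j + 1) = p ^ (j + 1) * (π ^ (j + 1)) ^ (r + 1) := by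
    rw [mul_pow, ← pow_mul, ← pow_mul, mul_comm (r + 1) (j + 1)]
  rw [a1, a2] at h
  push_cast
  calc _ = ((j : ℝ) + 1) * (p ^ j * (π ^ j) ^ (r + 1)) *
        ((frozen (⋃ t, S (s t)) (fun s => s) : ℝ) / (2 * (Fintype.card V : ℝ))) := by ring
    _ ≤ _ := h
    _ = _ := by ring

/-- the local inequality of the interpolation -/
theorem local_ineq (j : ℕ) (hn : j + 1 ≤ Fintype.card V)
    (p π lam : ℝ) (hp0 : 0 ≤ p) (hπ0 : 0 ≤ π) (hπ1 : π ≤ 1) (hl0 : 0 < lam) (hl1 : lam ≤ 1)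
    (ξ : St V) (hξ : Good ξ) :
    (∑ c : Clause (j + 1) V, Th lam (resB (clSet c) ξ)) / (Fintype.card (Clause (j + 1) V) : ℝ)
      + (((j : ℝ) + 1) * p ^ j - 1 - j * p ^ (j + 1) * (1 - (1 - π ^ (j + 1)) ^ lam)
          - ((j : ℝ) + 1) * j / ((2:ℝ) ^ (j + 2) * (Fintype.card V : ℝ))) * Th lam ξ
      ≤ ((j : ℝ) + 1) * p ^ j *
        ((∑ l : V × Bool, Th lam (warn (π ^ j) (litSet l) ξ)) / (Fintype.card (V × Bool) : ℝ)) := by
  obtain ⟨ι, _, pw, S, hpw, hξ⟩ := hξ
  set w : ι → ℝ := fun i => pw i * ind (S i) with hw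
  have hw0 : ∀ i, 0 ≤ w i := fun i => mul_nonneg (hpw i) (ind_nonneg _)
  set X := ∑ i, w i with hX
  have hXn : 0 ≤ X := Finset.sum_nonneg (fun i _ => hw0 i)
  have eX : ξ Set.univ = X := by
    rw [hξ]; simp [hX, hw]
  set dd : Set (V → Bool) → ℝ := fun B => ∑ i, w i * (1 - ind (B ∩ S i)) with hdd
  have eB : ∀ B : Set (V → Bool), ξ (Set.univ ∩ B) = X - dd B := by
    intro B
    rw [hξ, hX, hdd, ← Finset.sum_sub_distrib]
    apply Finset.sum_congr rfl
    intro i _
    rw [Set.univ_inter]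
    have : ind (S i) * ind (B ∩ S i) = ind (B ∩ S i) := by
      by_cases h : (B ∩ S i).Nonempty
      · rw [ind_of_nonempty h, ind_of_nonempty (h.mono Set.inter_subset_right)]; ring
      · rw [ind_of_empty h]; ring
    simp only [hw]
    linear_combination (-(pw i)) * this
  have hdd0 : ∀ B, 0 ≤ dd B := fun B =>
    Finset.sum_nonneg (fun i _ => mul_nonneg (hw0 i) (by linarith [ind_le_one (B ∩ S i)]))
  have hdd1 : ∀ B, dd B ≤ X := fun B =>
    Finset.sum_le_sum (fun i _ => by nlinarith [hw0 i, ind_nonneg (B ∩ S i)])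
  have tR : ∀ B, Th lam (resB B ξ) = (X - dd B) ^ lam := by
    intro B
    simp only [Th, resB, eB]
  have tW : ∀ (η : ℝ) B, Th lam (warn η B ξ) = (X - η * dd B) ^ lam := by
    intro η B
    simp only [Th, warn, eB, eX]
    congr 1; ring
  have tX : Th lam ξ = X ^ lam := by simp only [Th, eX]
  simp_rw [tR, tW, tX]
  have hnpos : (0:ℝ) < (Fintype.card V : ℝ) := by
    have : 0 < Fintype.card V := by omega
    exact_mod_cast this
  have hN2 : (Fintype.card (V × Bool) : ℝ) = 2 * (Fintype.card V : ℝ) := by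
    rw [Fintype.card_prod, Fintype.card_bool]; push_cast; ring
  have hΩ := card_clause_pos (k := j + 1) (V := V) hn
  rcases hXn.eq_or_lt with hX0 | hXpos
  · have hd : ∀ B, dd B = 0 := fun B => le_antisymm (by rw [hX0]; exact hdd1 B) (hdd0 B)
    simp only [hd, ← hX0, mul_zero, sub_zero, Real.zero_rpow hl0.ne', Finset.sum_const_zero,
      zero_div, add_zero, le_refl]
  · set xx : Set (V → Bool) → ℝ := fun B => ∑ i, (w i / X) * (1 - ind (B ∩ S i)) with hxx
    have exx : ∀ B, dd B = X * xx B := by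
      intro B
      rw [hxx, hdd, Finset.mul_sum]
      apply Finset.sum_congr rfl
      intro i _
      field_simp
    have hxx0 : ∀ B, 0 ≤ xx B := fun B =>
      Finset.sum_nonneg (fun i _ => mul_nonneg (div_nonneg (hw0 i) hXn)
        (by linarith [ind_le_one (B ∩ S i)]))
    have hxx1 : ∀ B, xx B ≤ 1 := by
      intro B
      have h1 := hdd1 B
      rw [exx] at h1
      by_contra hcon
      push Not at hcon
      nlinarith
    have hη0 : 0 ≤ π ^ j := by positivity
    have hη1 : π ^ j ≤ 1 := pow_le_one₀ hπ0 hπ1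
    have hζ0 : 0 ≤ π ^ (j + 1) := by positivity
    have hζ1 : π ^ (j + 1) ≤ 1 := pow_le_one₀ hπ0 hπ1
    have r1 : ∀ B, (X - dd B) ^ lam = X ^ lam * (1 - xx B) ^ lam := by
      intro B
      rw [← Real.mul_rpow hXn (by linarith [hxx1 B]), exx]
      congr 1; ring
    have r2 : ∀ B, (X - π ^ j * dd B) ^ lam = X ^ lam * (1 - π ^ j * xx B) ^ lam := by
      intro B
      rw [← Real.mul_rpow hXn (by nlinarith [hxx1 B, hxx0 B]), exx]
      congr 1; ring
    simp_rw [r1, r2, ← Finset.mul_sum]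
    have hwt0 : ∀ i, 0 ≤ w i / X := fun i => div_nonneg (hw0 i) hXn
    have hwt1 : ∑ i, w i / X = 1 := by
      rw [← Finset.sum_div, div_self hXpos.ne']
    have hSne : ∀ i, w i / X ≠ 0 → (S i).Nonempty := by
      intro i hi
      by_contra hcon
      apply hi
      simp only [hw]
      rw [ind_of_empty hcon]; simp
    set κ := ((j : ℝ) + 1) * p ^ j with hκ
    set τ := (j : ℝ) * p ^ (j + 1) with hτ
    set err := ((j : ℝ) + 1) * j / ((2:ℝ) ^ (j + 2) * (Fintype.card V : ℝ)) with herr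
    have hκ0 : 0 ≤ κ := by positivity
    have hτ0 : 0 ≤ τ := by positivity
    have herr0 : 0 ≤ err := by positivity
    have hcmp := compare hl0 hl1 (univ : Finset (Clause (j + 1) V ⊕ Bool))
      (univ : Finset (V × Bool))
      (Sum.elim (fun _ => 1 / (Fintype.card (Clause (j + 1) V) : ℝ))
        (fun b => if b then τ else err))
      (Sum.elim (fun c => xx (clSet c)) (fun b => if b then π ^ (j + 1) else 1))
      (fun _ => κ / (2 * (Fintype.card V : ℝ)))
      (fun l => π ^ j * xx (litSet l))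
      (by
        rintro (c | b) _
        · simp only [Sum.elim_inl]; positivity
        · cases b <;> simp [hτ0, herr0])
      (by
        rintro (c | b) _
        · exact hxx0 _
        · cases b <;> simp [hζ0])
      (by
        rintro (c | b) _
        · exact hxx1 _
        · cases b <;> simp [hζ1])
      (fun _ _ => by positivity)
      (fun l _ => mul_nonneg hη0 (hxx0 _))
      (fun l _ => by nlinarith [hxx0 (litSet l), hxx1 (litSet l)])
      (by
        intro r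
        have hm := moment_ineq j hn p π hp0 hπ0 (fun i => w i / X) hwt0 hwt1 S hSne r
        simp only [Fintype.sum_sum_type, Sum.elim_inl, Sum.elim_inr, Fintype.sum_bool, if_true,
          Bool.false_eq_true, if_false, one_pow, mul_one, mul_pow, ← Finset.mul_sum]
        calc _ = κ * (π ^ j) ^ (r + 1) / (2 * (Fintype.card V : ℝ)) *
              ∑ l : V × Bool, (xx (litSet l)) ^ (r + 1) := by
                ring
          _ ≤ _ := hm
          _ = _ := by ring)
    simp only [Fintype.sum_sum_type, Sum.elim_inl, Sum.elim_inr, Fintype.sum_bool, if_true,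
      Bool.false_eq_true, if_false, sub_self, Real.zero_rpow hl0.ne', mul_one,
      mul_sub, Finset.sum_sub_distrib, Finset.sum_const, Finset.card_univ, nsmul_eq_mul,
      ← Finset.mul_sum] at hcmp
    rw [hN2] at hcmp ⊢
    set LL := ∑ l : V × Bool, (1 - π ^ j * xx (litSet l)) ^ lam
    set CC := ∑ c : Clause (j + 1) V, (1 - xx (clSet c)) ^ lam
    set G := X ^ lam
    have hG : 0 ≤ G := Real.rpow_nonneg hXn _
    have a1 : 2 * (Fintype.card V : ℝ) * (κ / (2 * (Fintype.card V : ℝ))) = κ := by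
      field_simp
    have a2 : (Fintype.card (Clause (j + 1) V) : ℝ) * (1 / (Fintype.card (Clause (j + 1) V) : ℝ)) = 1 := by
      field_simp
    rw [a1, a2] at hcmp
    have h3 := mul_le_mul_of_nonneg_left hcmp hG
    have b1 : G * CC / (Fintype.card (Clause (j + 1) V) : ℝ) =
        G * (1 / (Fintype.card (Clause (j + 1) V) : ℝ) * CC) := by ring
    have b2 : κ * (G * LL / (2 * (Fintype.card V : ℝ))) =
        G * (κ / (2 * (Fintype.card V : ℝ)) * LL) := by ring
    rw [b1, b2]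
    set Y1 := 1 / (Fintype.card (Clause (j + 1) V) : ℝ) * CC
    set Y2 := κ / (2 * (Fintype.card V : ℝ)) * LL
    nlinarith [h3]

end Vale.Agent.P170
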