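import Mathlib
import Vale.Agent.P170.States
import Vale.Agent.P170.Super

namespace Vale.Agent.P170

open Finset

/-- iterated action along a word (first letter acts first) -/
def wst {X Ω : Type} (act : Ω → X → X) : (m : ℕ) → (Fin m → Ω) → X → X
  | 0, _, s => s
  | (m + 1), F, s => wst act m (Fin.tail F) (act (F 0) s)

/-- formula for the iterated averaging operator -/
lemma opA_pow_apply {X Ω : Type} [Fintype Ω] (act : Ω → X → X) (m : ℕ) (f : X → ℝ) (s : X) :
    ((opA act) ^ m) f s = (∑ F : Fin m → Ω, f (wst act m F s)) / (Fintype.card Ω : ℝ) ^ m := by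
  induction m generalizing s with
  | zero => simp [wst]
  | succ m ih =>
    rw [pow_succ']
    simp only [Module.End.mul_apply, opA_apply]
    simp_rw [ih]
    rw [← Finset.sum_div, div_div, ← pow_succ]
    congr 1
    rw [← (Fin.consEquiv (fun _ => Ω)).sum_comp, Fintype.sum_prod_type]
    apply Finset.sum_congr rfl
    intro c _
    apply Finset.sum_congr rfl
    intro F _
    rfl

variable {V : Type} [DecidableEq V] [Fintype V]

omit [Fintype V] in
lemma wst_resB {k : ℕ} (m : ℕ) (F : Fin m → Clause k V) (ξ : St V) :
    wst (fun (c : Clause k V) (ξ : St V) => resB (clSet c) ξ) m F ξ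
      = resB (⋂ i, clSet (F i)) ξ := by
  induction m generalizing ξ with
  | zero =>
    funext T
    simp [wst, resB]
  | succ m ih =>
    show wst _ m (Fin.tail F) (resB (clSet (F 0)) ξ) = _
    rw [ih]
    funext T
    simp only [resB]
    congr 1
    ext x
    simp only [Set.mem_inter_iff, Set.mem_iInter]
    constructor
    · rintro ⟨⟨h1, h2⟩, h3⟩
      refine ⟨h1, ?_⟩
      intro i
      refine Fin.cases h3 ?_ i
      intro j
      exact h2 j
    · rintro ⟨h1, h2⟩
      exact ⟨⟨h1, fun j => h2 j.succ⟩, h2 0⟩

omit [DecidableEq V] [Fintype V] in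
lemma Th_resB_ind (lam : ℝ) (hl : 0 < lam) (B : Set (V → Bool)) :
    Th lam (resB B ind) = ind B := by
  simp only [Th, resB, Set.univ_inter]
  by_cases h : B.Nonempty
  · rw [ind_of_nonempty h, Real.one_rpow]
  · rw [ind_of_empty h, Real.zero_rpow hl.ne']

/-- iterating clause restrictions on the observable gives the satisfiability probability -/
lemma opA_clause_pow {k : ℕ} (lam : ℝ) (hl : 0 < lam) (m : ℕ) :
    ((opA (fun (c : Clause k V) (ξ : St V) => resB (clSet c) ξ)) ^ m) (Th lam) ind = satP k V m := by
  rw [opA_pow_apply, satP_eq_sum]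
  congr 1
  apply Finset.sum_congr rfl
  intro F _
  rw [wst_resB, Th_resB_ind lam hl]
  congr 1
  ext σ
  simp [clSet]

/-- boxes of assignments: `al i c` says whether the value `c` is allowed at the variable `i` -/
def bbox (al : V → Bool → Bool) : Set (V → Bool) := {σ | ∀ i, al i (σ i) = true}

/-- one-variable factor -/
noncomputable def pphi (q : ℝ) (g : Bool → Bool) (a b : ℕ) : ℝ :=
  (if g true then 1 else 0) * q ^ b + (if g false then 1 else 0) * q ^ a
    - (if g true then 1 else 0) * (if g false then 1 else 0) * q ^ (a + b)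

omit [Fintype V] in
lemma bbox_inter_litSet (al : V → Bool → Bool) (v : V) (b : Bool) :
    bbox al ∩ litSet (v, b) = bbox (Function.update al v (fun c => al v c && (c == b))) := by
  ext σ
  simp only [bbox, litSet, Set.mem_inter_iff, Set.mem_ofPred_eq]
  constructor
  · rintro ⟨h1, h2⟩ i
    by_cases hi : i = v
    · subst hi
      have := h1 i
      rw [h2] at this
      simp [h2, this]
    · simp [Function.update_of_ne hi, h1 i]
  · intro h
    refine ⟨fun i => ?_, ?_⟩
    · by_cases hi : i = v
      · subst hi
        have := h i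
        simp only [Function.update_self, Bool.and_eq_true] at this
        exact this.1
      · have := h i
        simpa [Function.update_of_ne hi] using this
    · have := h v
      simp only [Function.update_self, Bool.and_eq_true, beq_iff_eq] at this
      exact this.2

lemma pphi_step_true (η : ℝ) (g : Bool → Bool) (a b : ℕ) :
    pphi (1 - η) g (a + 1) b
      = (1 - η) * pphi (1 - η) g a b + η * pphi (1 - η) (fun c => g c && (c == true)) a b := by
  simp only [pphi]
  rcases Bool.eq_false_or_eq_true (g true) with h1 | h1 <;>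
    rcases Bool.eq_false_or_eq_true (g false) with h2 | h2 <;> simp [h1, h2] <;> ring

lemma pphi_step_false (η : ℝ) (g : Bool → Bool) (a b : ℕ) :
    pphi (1 - η) g a (b + 1)
      = (1 - η) * pphi (1 - η) g a b + η * pphi (1 - η) (fun c => g c && (c == false)) a b := by
  simp only [pphi]
  rcases Bool.eq_false_or_eq_true (g true) with h1 | h1 <;>
    rcases Bool.eq_false_or_eq_true (g false) with h2 | h2 <;> simp [h1, h2] <;> ring

lemma warn_bbox (η : ℝ) (l : V × Bool) (ξ : St V) (a0 b0 : V → ℕ)
    (h : ∀ al, ξ (bbox al) = ∏ i, pphi (1 - η) (al i) (a0 i) (b0 i)) (al : V → Bool → Bool) :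
    warn η (litSet l) ξ (bbox al)
      = ∏ i, pphi (1 - η) (al i) (a0 i + if l = (i, true) then 1 else 0)
          (b0 i + if l = (i, false) then 1 else 0) := by
  obtain ⟨v, b⟩ := l
  simp only [warn]
  rw [bbox_inter_litSet, h, h]
  rw [← Finset.mul_prod_erase univ _ (Finset.mem_univ v),
    ← Finset.mul_prod_erase univ (fun i => pphi (1 - η)
      (Function.update al v (fun c => al v c && (c == b)) i) (a0 i) (b0 i)) (Finset.mem_univ v),
    ← Finset.mul_prod_erase univ (fun i => pphi (1 - η) (al i)
      (a0 i + if (v, b) = (i, true) then 1 else 0)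
      (b0 i + if (v, b) = (i, false) then 1 else 0)) (Finset.mem_univ v)]
  have e1 : ∏ i ∈ univ.erase v, pphi (1 - η)
      (Function.update al v (fun c => al v c && (c == b)) i) (a0 i) (b0 i)
      = ∏ i ∈ univ.erase v, pphi (1 - η) (al i) (a0 i) (b0 i) := by
    apply Finset.prod_congr rfl
    intro i hi
    rw [Function.update_of_ne (Finset.ne_of_mem_erase hi)]
  have e2 : ∏ i ∈ univ.erase v, pphi (1 - η) (al i)
      (a0 i + if (v, b) = (i, true) then 1 else 0)
      (b0 i + if (v, b) = (i, false) then 1 else 0)
      = ∏ i ∈ univ.erase v, pphi (1 - η) (al i) (a0 i) (b0 i) := by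
    apply Finset.prod_congr rfl
    intro i hi
    have hne : v ≠ i := (Finset.ne_of_mem_erase hi).symm
    simp [hne]
  rw [e1, e2, Function.update_self]
  cases b
  · simp only [Prod.mk.injEq, Bool.false_eq_true, and_false, if_false, if_true,
      add_zero]
    rw [pphi_step_false]
    ring
  · simp only [Prod.mk.injEq, Bool.true_eq_false, and_false, if_false, if_true,
      add_zero]
    rw [pphi_step_true]
    ring

omit [DecidableEq V] [Fintype V] in
lemma card_filter_word [DecidableEq V] (m : ℕ) (w : Fin (m + 1) → V × Bool) (l : V × Bool) :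
    (univ.filter (fun j => w j = l)).card
      = (if w 0 = l then 1 else 0) + (univ.filter (fun j => Fin.tail w j = l)).card := by
  rw [Fin.card_filter_univ_succ']
  rfl

lemma wst_warn_bbox (η : ℝ) (m : ℕ) (w : Fin m → V × Bool) (ξ : St V) (a0 b0 : V → ℕ)
    (h : ∀ al, ξ (bbox al) = ∏ i, pphi (1 - η) (al i) (a0 i) (b0 i)) (al : V → Bool → Bool) :
    wst (fun (l : V × Bool) (ξ : St V) => warn η (litSet l) ξ) m w ξ (bbox al)
      = ∏ i, pphi (1 - η) (al i) (a0 i + (univ.filter (fun j => w j = (i, true))).card)
          (b0 i + (univ.filter (fun j => w j = (i, false))).card) := by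
  induction m generalizing ξ a0 b0 al with
  | zero => simp [wst, h]
  | succ m ih =>
    show wst _ m (Fin.tail w) (warn η (litSet (w 0)) ξ) (bbox al) = _
    rw [ih (Fin.tail w) _ _ _ (warn_bbox η (w 0) ξ a0 b0 h)]
    apply Finset.prod_congr rfl
    intro i _
    rw [card_filter_word, card_filter_word, add_assoc, add_assoc]

omit [DecidableEq V] in
lemma ind_bbox (q : ℝ) (al : V → Bool → Bool) :
    ind (bbox al) = ∏ i, pphi q (al i) 0 0 := by
  by_cases h : ∀ i, ∃ c, al i c = true
  · choose σ hσ using h
    have hne : (bbox al).Nonempty := ⟨σ, hσ⟩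
    rw [ind_of_nonempty hne]
    symm
    apply Finset.prod_eq_one
    intro i _
    have := hσ i
    simp only [pphi]
    cases hc : σ i <;> rw [hc] at this <;> cases h1 : al i true <;> cases h2 : al i false <;>
      simp_all
  · push Not at h
    obtain ⟨i, hi⟩ := h
    rw [ind_of_empty]
    · symm
      apply Finset.prod_eq_zero (Finset.mem_univ i)
      simp [pphi, hi]
    · rintro ⟨σ, hσ⟩
      exact hi _ (hσ i)

/-- value of the state obtained from `ind` by a word of warnings: product over the variables -/
lemma wst_warn_univ (η : ℝ) (m : ℕ) (w : Fin m → V × Bool) :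
    wst (fun (l : V × Bool) (ξ : St V) => warn η (litSet l) ξ) m w ind Set.univ =
      ∏ i : V, (1 - (1 - (1 - η) ^ ((univ.filter (fun j => w j = (i, true))).card)) *
                   (1 - (1 - η) ^ ((univ.filter (fun j => w j = (i, false))).card))) := by
  have hu : (Set.univ : Set (V → Bool)) = bbox (fun _ _ => true) := by
    ext σ
    simp [bbox]
  rw [hu, wst_warn_bbox η m w ind (fun _ => 0) (fun _ => 0) (ind_bbox (1 - η))]
  apply Finset.prod_congr rfl
  intro i _
  simp only [pphi, if_true, zero_add, pow_add]
  ring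

end Vale.Agent.P170
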