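import Mathlib
import Vale.Agent.P170.Ser

namespace Vale.Agent.P170

open Finset

lemma double_sum_identity (s : Finset ℕ) (w u : ℕ → ℝ) (d : ℕ → ℝ) (R : ℕ) :
    ∑ a ∈ s, ∑ b ∈ s, w a * w b * (1 - ∑ r ∈ range R, d r * (u a * u b) ^ (r + 1))
      = (∑ a ∈ s, w a) ^ 2 - ∑ r ∈ range R, d r * (∑ a ∈ s, w a * u a ^ (r + 1)) ^ 2 := by
  have h1 : ∀ r, (∑ a ∈ s, w a * u a ^ (r + 1)) ^ 2
      = ∑ a ∈ s, ∑ b ∈ s, w a * w b * (u a * u b) ^ (r + 1) := by
    intro r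
    rw [sq, Finset.sum_mul_sum]
    refine Finset.sum_congr rfl fun a _ => Finset.sum_congr rfl fun b _ => ?_
    rw [mul_pow]; ring
  have h2 : (∑ a ∈ s, w a) ^ 2 = ∑ a ∈ s, ∑ b ∈ s, w a * w b := by
    rw [sq, Finset.sum_mul_sum]
  have h3 : ∑ r ∈ range R, d r * (∑ a ∈ s, w a * u a ^ (r + 1)) ^ 2
      = ∑ a ∈ s, ∑ b ∈ s, w a * w b * ∑ r ∈ range R, d r * (u a * u b) ^ (r + 1) := by
    simp_rw [h1, Finset.mul_sum]
    rw [Finset.sum_comm]
    refine Finset.sum_congr rfl fun a _ => ?_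
    rw [Finset.sum_comm]
    refine Finset.sum_congr rfl fun b _ => Finset.sum_congr rfl fun r _ => ?_
    ring
  rw [h2, h3, ← Finset.sum_sub_distrib]
  refine Finset.sum_congr rfl fun a _ => ?_
  rw [← Finset.sum_sub_distrib]
  refine Finset.sum_congr rfl fun b _ => ?_
  ring

/-- bound for the single-site generating function -/
lemma site_sum_le (lam θ q : ℝ) (hl0 : 0 < lam) (hl1 : lam ≤ 1) (hθ : 0 ≤ θ) (hq0 : 0 ≤ q)
    (hq1 : q ≤ 1) (R D M : ℕ) (hDM : D ≤ M) :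
    ∑ a ∈ range (M + 1), ∑ b ∈ range (M + 1),
        θ ^ a / (a.factorial : ℝ) * (θ ^ b / (b.factorial : ℝ)) *
          (1 - (1 - q ^ a) * (1 - q ^ b)) ^ lam
      ≤ Real.exp (2 * θ) - ∑ r ∈ range R, dco lam r *
          (∑ a ∈ range (D + 1), θ ^ a / (a.factorial : ℝ) * (1 - q ^ a) ^ (r + 1)) ^ 2 := by
  set w : ℕ → ℝ := fun a => θ ^ a / (a.factorial : ℝ) with hw
  set u : ℕ → ℝ := fun a => 1 - q ^ a with hu
  have hw0 : ∀ a, 0 ≤ w a := fun a => by simp only [hw]; positivity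
  have hu0 : ∀ a, 0 ≤ u a := fun a => by
    simp only [hu]; linarith [pow_le_one₀ (n := a) hq0 hq1]
  have hu1 : ∀ a, u a ≤ 1 := fun a => by
    simp only [hu]; linarith [pow_nonneg hq0 a]
  have step1 : ∑ a ∈ range (M + 1), ∑ b ∈ range (M + 1), w a * w b * (1 - u a * u b) ^ lam
      ≤ ∑ a ∈ range (M + 1), ∑ b ∈ range (M + 1),
        w a * w b * (1 - ∑ r ∈ range R, dco lam r * (u a * u b) ^ (r + 1)) := by
    refine Finset.sum_le_sum fun a _ => Finset.sum_le_sum fun b _ => ?_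
    refine mul_le_mul_of_nonneg_left ?_ (mul_nonneg (hw0 a) (hw0 b))
    have := partial_le hl0 hl1 (mul_nonneg (hu0 a) (hu0 b))
      (mul_le_one₀ (hu1 a) (hu0 b) (hu1 b)) R
    linarith
  refine step1.trans ?_
  rw [double_sum_identity]
  have hW : (∑ a ∈ range (M + 1), w a) ^ 2 ≤ Real.exp (2 * θ) := by
    have h1 : ∑ a ∈ range (M + 1), w a ≤ Real.exp θ := Real.sum_le_exp_of_nonneg hθ (M + 1)
    have h0 : 0 ≤ ∑ a ∈ range (M + 1), w a := Finset.sum_nonneg fun a _ => hw0 a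
    have e : Real.exp (2 * θ) = Real.exp θ ^ 2 := by
      rw [sq, ← Real.exp_add]; ring_nf
    rw [e]
    exact pow_le_pow_left₀ h0 h1 2
  have hS : ∑ r ∈ range R, dco lam r * (∑ a ∈ range (D + 1), w a * u a ^ (r + 1)) ^ 2
      ≤ ∑ r ∈ range R, dco lam r * (∑ a ∈ range (M + 1), w a * u a ^ (r + 1)) ^ 2 := by
    refine Finset.sum_le_sum fun r _ => ?_
    refine mul_le_mul_of_nonneg_left ?_ (dco_nonneg hl0.le hl1 r)
    refine pow_le_pow_left₀ (Finset.sum_nonneg fun a _ =>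
      mul_nonneg (hw0 a) (pow_nonneg (hu0 a) _)) ?_ 2
    refine Finset.sum_le_sum_of_subset_of_nonneg ?_ fun a _ _ =>
      mul_nonneg (hw0 a) (pow_nonneg (hu0 a) _)
    exact Finset.range_subset_range.2 (by omega)
  linarith

lemma binom_total (M : ℕ) (c1 : ℝ) :
    ∑ j ∈ range (M + 1), (M.choose j : ℝ) * c1 ^ (M - j) = (1 + c1) ^ M := by
  rw [add_pow]
  refine Finset.sum_congr rfl fun j _ => ?_
  rw [one_pow]; ring

lemma binom_first (M : ℕ) (c1 : ℝ) :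
    ∑ j ∈ range (M + 1), (M.choose j : ℝ) * c1 ^ (M - j) * (j : ℝ) * (1 + c1)
      = M * (1 + c1) ^ M := by
  cases M with
  | zero => simp
  | succ M =>
    rw [Finset.sum_range_succ']
    simp only [Nat.cast_zero, mul_zero, zero_mul, add_zero]
    have h : ∀ j ∈ range (M + 1),
        ((M + 1).choose (j + 1) : ℝ) * c1 ^ (M + 1 - (j + 1)) * ((j + 1 : ℕ) : ℝ) * (1 + c1)
        = ((M + 1 : ℕ) : ℝ) * (1 + c1) * ((M.choose j : ℝ) * c1 ^ (M - j)) := by
      intro j _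
      have e := Nat.add_one_mul_choose_eq M j
      have e' : ((M + 1 : ℕ) : ℝ) * (M.choose j : ℝ)
          = ((M + 1).choose (j + 1) : ℝ) * ((j + 1 : ℕ) : ℝ) := by exact_mod_cast e
      have e2 : M + 1 - (j + 1) = M - j := by omega
      rw [e2]
      linear_combination (-(c1 ^ (M - j) * (1 + c1))) * e'
    rw [Finset.sum_congr rfl h, ← Finset.mul_sum, binom_total, pow_succ]
    ring

/-- Markov-type lower bound for a binomially weighted sum of an antitone nonnegative sequence -/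
lemma binom_markov (M m : ℕ) (c1 : ℝ) (hc : 0 ≤ c1) (f : ℕ → ℝ) (hf : Antitone f)
    (hf0 : ∀ j, 0 ≤ f j) :
    f m * ((1 + c1) ^ M * (1 - (M : ℝ) / ((1 + c1) * ((m : ℝ) + 1)))) ≤
      ∑ j ∈ range (M + 1), (M.choose j : ℝ) * c1 ^ (M - j) * f j := by
  have hm : (0 : ℝ) < (m : ℝ) + 1 := by positivity
  have h1c : (0 : ℝ) < 1 + c1 := by linarith
  have hterm : ∀ j ∈ range (M + 1),
      (M.choose j : ℝ) * c1 ^ (M - j) * (f m * (1 - (j : ℝ) / ((m : ℝ) + 1)))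
        ≤ (M.choose j : ℝ) * c1 ^ (M - j) * f j := by
    intro j _
    refine mul_le_mul_of_nonneg_left ?_ (by positivity)
    rcases le_or_gt j m with hj | hj
    · have h1 : f m ≤ f j := hf hj
      have h2 : f m * (1 - (j : ℝ) / ((m : ℝ) + 1)) ≤ f m * 1 := by
        refine mul_le_mul_of_nonneg_left ?_ (hf0 m)
        have : (0 : ℝ) ≤ (j : ℝ) / ((m : ℝ) + 1) := by positivity
        linarith
      linarith
    · have h1 : (1 : ℝ) ≤ (j : ℝ) / ((m : ℝ) + 1) := by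
        rw [le_div_iff₀ hm]
        have : (m : ℝ) + 1 ≤ j := by exact_mod_cast hj
        linarith
      have h2 : f m * (1 - (j : ℝ) / ((m : ℝ) + 1)) ≤ 0 :=
        mul_nonpos_of_nonneg_of_nonpos (hf0 m) (by linarith)
      linarith [hf0 j]
  refine le_trans (le_of_eq ?_) (Finset.sum_le_sum hterm)
  have e1 : ∑ j ∈ range (M + 1),
      (M.choose j : ℝ) * c1 ^ (M - j) * (f m * (1 - (j : ℝ) / ((m : ℝ) + 1)))
      = f m * (∑ j ∈ range (M + 1), (M.choose j : ℝ) * c1 ^ (M - j))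
        - f m / (((m : ℝ) + 1) * (1 + c1)) *
          ∑ j ∈ range (M + 1), (M.choose j : ℝ) * c1 ^ (M - j) * (j : ℝ) * (1 + c1) := by
    rw [Finset.mul_sum, Finset.mul_sum, ← Finset.sum_sub_distrib]
    refine Finset.sum_congr rfl fun j _ => ?_
    field_simp
  rw [e1, binom_total, binom_first]
  field_simp

end Vale.Agent.P170
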