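import Mathlib

namespace Vale.Agent.P170

open Finset

/-- Grouping words by their count vector. -/
lemma word_sum_eq {α : Type} [Fintype α] [DecidableEq α] (M : ℕ) (F : (α → ℕ) → ℝ) :
    ∑ w : Fin M → α, F (fun a => (univ.filter (fun j => w j = a)).card)
      = ∑ k ∈ piAntidiag univ M, (Nat.multinomial univ k : ℝ) * F k := by
  classical
  let x : α → AddMonoidAlgebra ℝ (α → ℕ) := fun a => AddMonoidAlgebra.single (Pi.single a 1) 1
  let L : AddMonoidAlgebra ℝ (α → ℕ) →+ ℝ :=
    (Finsupp.linearCombination ℝ F).toAddMonoidHom.comp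
      AddMonoidAlgebra.coeffAddEquiv.toAddMonoidHom
  have hL : ∀ (k : α → ℕ), L (AddMonoidAlgebra.single k 1) = F k := by
    intro k
    simp [L]
  have h1 : (∑ a, x a) ^ M = ∑ w : Fin M → α, ∏ j, x (w j) := Fintype.sum_pow _ _
  have h2 := Finset.sum_pow_eq_sum_piAntidiag univ x M
  have hprod : ∀ {ι : Type} (s : Finset ι) (g : ι → (α → ℕ)),
      ∏ j ∈ s, (AddMonoidAlgebra.single (g j) 1 : AddMonoidAlgebra ℝ (α → ℕ))
        = AddMonoidAlgebra.single (∑ j ∈ s, g j) 1 := by
    intro ι s g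
    induction s using Finset.cons_induction with
    | empty => simp [AddMonoidAlgebra.one_def]
    | cons a s ha ih => rw [Finset.prod_cons, Finset.sum_cons, ih,
        AddMonoidAlgebra.single_mul_single, one_mul]
  have h3 : ∀ w : Fin M → α, ∏ j, x (w j)
      = AddMonoidAlgebra.single (fun a => (univ.filter (fun j => w j = a)).card) 1 := by
    intro w
    rw [hprod]
    congr 1
    funext a
    simp [Finset.sum_apply, Pi.single_apply, eq_comm]
  have h4 : ∀ k : α → ℕ, ∏ a, x a ^ k a = AddMonoidAlgebra.single k 1 := by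
    intro k
    have : ∀ a, x a ^ k a = AddMonoidAlgebra.single (k a • Pi.single a 1) 1 := by
      intro a
      simp [x, AddMonoidAlgebra.single_pow]
    simp_rw [this]
    rw [hprod]
    congr 1
    funext a
    simp [Finset.sum_apply, Pi.single_apply]
  have h5 := congrArg L (h1.symm.trans h2)
  rw [map_sum, map_sum] at h5
  simp_rw [h3, h4, hL, ← nsmul_eq_mul, map_nsmul, hL] at h5
  simpa using h5

/-- Word-sum (Poissonization) lemma: a sum over words `w : Fin M → V × Bool` of a product over `V` of a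
nonnegative function of the two letter counts is bounded by `M!/θ^M` times the `card V`-th power of a
truncated exponential generating function. -/
lemma word_sum_le {V : Type} [Fintype V] [DecidableEq V] (M : ℕ) (θ : ℝ) (hθ : 0 < θ)
    (ψ : ℕ → ℕ → ℝ) (hψ : ∀ a b, 0 ≤ ψ a b) :
    ∑ w : Fin M → V × Bool,
        ∏ i : V, ψ ((univ.filter (fun j => w j = (i, true))).card)
                   ((univ.filter (fun j => w j = (i, false))).card)
      ≤ (M.factorial : ℝ) / θ ^ M *
        (∑ a ∈ range (M + 1), ∑ b ∈ range (M + 1),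
          θ ^ a / (a.factorial : ℝ) * (θ ^ b / (b.factorial : ℝ)) * ψ a b) ^ (Fintype.card V) := by
  classical
  have h0 := word_sum_eq (α := V × Bool) M
    (fun k => ∏ i : V, ψ (k (i, true)) (k (i, false)))
  simp only at h0
  rw [h0]
  set T : ℕ × ℕ → ℝ := fun p =>
    θ ^ p.1 / (p.1.factorial : ℝ) * (θ ^ p.2 / (p.2.factorial : ℝ)) * ψ p.1 p.2 with hT
  have hTnn : ∀ p, 0 ≤ T p := fun p => by
    simp only [hT]
    have := hψ p.1 p.2
    positivity
  -- each term
  have hterm : ∀ k ∈ piAntidiag (univ : Finset (V × Bool)) M,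
      (Nat.multinomial univ k : ℝ) * ∏ i : V, ψ (k (i, true)) (k (i, false))
        = (M.factorial : ℝ) / θ ^ M * ∏ i : V, T (k (i, true), k (i, false)) := by
    intro k hk
    have hsum : ∑ a, k a = M := (mem_piAntidiag.1 hk).1
    have hspec : ((∏ a, ((k a).factorial : ℝ)) * (Nat.multinomial univ k : ℝ))
        = (M.factorial : ℝ) := by
      have := Nat.multinomial_spec (univ : Finset (V × Bool)) k
      rw [hsum] at this
      exact_mod_cast this
    have hpow : ∏ a, θ ^ k a = θ ^ M := by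
      rw [Finset.prod_pow_eq_pow_sum, hsum]
    have hfac : (∏ a, ((k a).factorial : ℝ)) ≠ 0 :=
      Finset.prod_ne_zero_iff.2 (fun a _ => by positivity)
    have hsplit : ∏ i : V, T (k (i, true), k (i, false))
        = (∏ a, θ ^ k a) / (∏ a, ((k a).factorial : ℝ))
          * ∏ i : V, ψ (k (i, true)) (k (i, false)) := by
      rw [← Finset.prod_div_distrib, Fintype.prod_prod_type, ← Finset.prod_mul_distrib]
      refine Finset.prod_congr rfl (fun i _ => ?_)
      simp only [hT, Fintype.prod_bool]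
    rw [hsplit, hpow, ← hspec]
    have hθM : θ ^ M ≠ 0 := by positivity
    field_simp
  rw [Finset.sum_congr rfl hterm, ← Finset.mul_sum]
  refine mul_le_mul_of_nonneg_left ?_ (by positivity)
  -- reindex
  let κ : (V × Bool → ℕ) → (V → ℕ × ℕ) := fun k i => (k (i, true), k (i, false))
  have hinj : Function.Injective κ := by
    intro k k' h
    funext ⟨i, b⟩
    have := congrFun h i
    simp only [κ, Prod.mk.injEq] at this
    cases b
    · exact this.2
    · exact this.1
  have h1 : ∑ k ∈ piAntidiag (univ : Finset (V × Bool)) M, ∏ i : V, T (k (i, true), k (i, false))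
      = ∑ q ∈ (piAntidiag (univ : Finset (V × Bool)) M).image κ, ∏ i : V, T (q i) := by
    rw [Finset.sum_image (fun a _ b _ h => hinj h)]
  rw [h1]
  have hsub : (piAntidiag (univ : Finset (V × Bool)) M).image κ
      ⊆ Fintype.piFinset (fun _ : V => range (M + 1) ×ˢ range (M + 1)) := by
    intro q hq
    obtain ⟨k, hk, rfl⟩ := Finset.mem_image.1 hq
    have hsum : ∑ a, k a = M := (mem_piAntidiag.1 hk).1
    have hle : ∀ a, k a ≤ M := fun a => by
      rw [← hsum]
      exact Finset.single_le_sum (f := k) (fun _ _ => Nat.zero_le _) (Finset.mem_univ a)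
    rw [Fintype.mem_piFinset]
    intro i
    simp only [κ, Finset.mem_product, Finset.mem_range]
    exact ⟨Nat.lt_succ_of_le (hle _), Nat.lt_succ_of_le (hle _)⟩
  refine (Finset.sum_le_sum_of_subset_of_nonneg hsub
    (fun q _ _ => Finset.prod_nonneg (fun i _ => hTnn _))).trans ?_
  rw [← Finset.prod_univ_sum, Finset.prod_const, Finset.card_univ, Finset.sum_product]

lemma exp_one_le_pow (M : ℕ) (hM : 1 ≤ M) :
    Real.exp 1 ≤ (((M : ℝ) + 1) / M) ^ (M + 1) := by
  have hM0 : (0 : ℝ) < M := by exact_mod_cast hM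
  have hx : (0 : ℝ) < ((M : ℝ) + 1) / M := by positivity
  have h1 := Real.one_sub_inv_le_log_of_pos hx
  have h2 : 1 - (((M : ℝ) + 1) / M)⁻¹ = 1 / ((M : ℝ) + 1) := by
    field_simp
    ring
  rw [h2] at h1
  have h3 : (1 : ℝ) ≤ ((M : ℝ) + 1) * Real.log (((M : ℝ) + 1) / M) := by
    have : (0 : ℝ) < (M : ℝ) + 1 := by positivity
    calc (1 : ℝ) = ((M : ℝ) + 1) * (1 / ((M : ℝ) + 1)) := by field_simp
      _ ≤ _ := mul_le_mul_of_nonneg_left h1 this.le
  calc Real.exp 1 ≤ Real.exp (((M : ℝ) + 1) * Real.log (((M : ℝ) + 1) / M)) :=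
        Real.exp_le_exp.2 h3
    _ = (((M : ℝ) + 1) / M) ^ (M + 1) := by
        rw [mul_comm, Real.exp_mul, Real.exp_log hx]
        have : ((M : ℝ) + 1) = ((M + 1 : ℕ) : ℝ) := by push_cast; ring
        rw [this, Real.rpow_natCast]

/-- factorial upper bound -/
lemma factorial_le_exp (M : ℕ) (hM : 1 ≤ M) :
    (M.factorial : ℝ) ≤ Real.exp 1 * M * ((M : ℝ) / Real.exp 1) ^ M := by
  induction M, hM using Nat.le_induction with
  | base =>
    have : Real.exp 1 ≠ 0 := (Real.exp_pos 1).ne'
    simp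
  | succ M hM ih =>
    have hM0 : (0 : ℝ) < M := by exact_mod_cast hM
    have he : (0 : ℝ) < Real.exp 1 := Real.exp_pos 1
    have hkey := exp_one_le_pow M hM
    rw [Nat.factorial_succ]
    push_cast
    have h1 : ((M : ℝ) + 1) * (M.factorial : ℝ)
        ≤ ((M : ℝ) + 1) * (Real.exp 1 * M * ((M : ℝ) / Real.exp 1) ^ M) :=
      mul_le_mul_of_nonneg_left ih (by positivity)
    refine h1.trans ?_
    -- M * (M/e)^M ≤ ((M+1)/e)^(M+1)
    have h2 : (M : ℝ) * ((M : ℝ) / Real.exp 1) ^ M ≤ (((M : ℝ) + 1) / Real.exp 1) ^ (M + 1) := by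
      have h3 : (((M : ℝ) + 1) / Real.exp 1) ^ (M + 1)
          = (((M : ℝ) + 1) / M) ^ (M + 1) * ((M : ℝ) * ((M : ℝ) / Real.exp 1) ^ M) / Real.exp 1 := by
        rw [div_pow, div_pow, div_pow, pow_succ (Real.exp 1) M, pow_succ (M : ℝ) M]
        field_simp
      rw [h3, le_div_iff₀ he]
      have hnn : (0 : ℝ) ≤ (M : ℝ) * ((M : ℝ) / Real.exp 1) ^ M := by positivity
      calc (M : ℝ) * ((M : ℝ) / Real.exp 1) ^ M * Real.exp 1
          = Real.exp 1 * ((M : ℝ) * ((M : ℝ) / Real.exp 1) ^ M) := by ring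
        _ ≤ _ := mul_le_mul_of_nonneg_right hkey hnn
    calc ((M : ℝ) + 1) * (Real.exp 1 * M * ((M : ℝ) / Real.exp 1) ^ M)
        = Real.exp 1 * ((M : ℝ) + 1) * ((M : ℝ) * ((M : ℝ) / Real.exp 1) ^ M) := by ring
      _ ≤ Real.exp 1 * ((M : ℝ) + 1) * (((M : ℝ) + 1) / Real.exp 1) ^ (M + 1) :=
        mul_le_mul_of_nonneg_left h2 (by positivity)

end Vale.Agent.P170
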