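import Mathlib
import Vale.Agent.P170.LocalIneq
import Vale.Agent.P170.PowA
import Vale.Agent.P170.SiteSum
import Vale.Agent.P170.Words
import Vale.Agent.P170.Restrict

namespace Vale.Agent.P170

open Finset

lemma add_smul_pow_apply {X : Type} (P : Module.End ℝ (X → ℝ)) (c1 : ℝ) (M : ℕ) (f : X → ℝ)
    (s : X) :
    ((P + c1 • (1 : Module.End ℝ (X → ℝ))) ^ M) f s =
      ∑ m ∈ range (M + 1), (M.choose m : ℝ) * c1 ^ (M - m) * ((P ^ m) f s) := by
  have hc : Commute P (c1 • (1 : Module.End ℝ (X → ℝ))) := (Commute.one_right P).smul_right c1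
  rw [hc.add_pow]
  rw [LinearMap.sum_apply, Finset.sum_apply]
  apply Finset.sum_congr rfl
  intro m _
  rw [smul_pow, one_pow]
  have e : (P ^ m * c1 ^ (M - m) • (1 : Module.End ℝ (X → ℝ)) * (M.choose m : Module.End ℝ (X → ℝ)))
      = ((M.choose m : ℝ) * c1 ^ (M - m)) • P ^ m := by
    rw [mul_smul_comm, mul_one, smul_mul_assoc, ← nsmul_eq_mul', mul_smul,
      Nat.cast_smul_eq_nsmul, smul_comm]
  rw [e]
  simp [LinearMap.smul_apply]

/-- bound for the single-site generating function, direct form -/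
lemma site_sum_le' (lam θ q : ℝ) (hl0 : 0 < lam) (hθ : 0 ≤ θ) (hq0 : 0 ≤ q)
    (hq1 : q ≤ 1) (D M : ℕ) (hDM : D ≤ M) :
    ∑ a ∈ range (M + 1), ∑ b ∈ range (M + 1),
        θ ^ a / (a.factorial : ℝ) * (θ ^ b / (b.factorial : ℝ)) *
          (1 - (1 - q ^ a) * (1 - q ^ b)) ^ lam
      ≤ Real.exp (2 * θ) - ∑ a ∈ range (D + 1), ∑ b ∈ range (D + 1),
        θ ^ a / (a.factorial : ℝ) * (θ ^ b / (b.factorial : ℝ)) *
          (1 - (1 - (1 - q ^ a) * (1 - q ^ b)) ^ lam) := by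
  set w : ℕ → ℝ := fun a => θ ^ a / (a.factorial : ℝ) with hw
  set u : ℕ → ℝ := fun a => 1 - q ^ a with hu
  have hw0 : ∀ a, 0 ≤ w a := fun a => by simp only [hw]; positivity
  have hu0 : ∀ a, 0 ≤ u a := fun a => by
    simp only [hu]; linarith [pow_le_one₀ (n := a) hq0 hq1]
  have hu1 : ∀ a, u a ≤ 1 := fun a => by
    simp only [hu]; linarith [pow_nonneg hq0 a]
  have hy0 : ∀ a b, 0 ≤ 1 - u a * u b := fun a b => by
    nlinarith [hu0 a, hu0 b, hu1 a, hu1 b]
  have hy1 : ∀ a b, (1 - u a * u b) ^ lam ≤ 1 := fun a b =>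
    Real.rpow_le_one (hy0 a b) (by nlinarith [hu0 a, hu0 b]) hl0.le
  have hW : (∑ a ∈ range (M + 1), w a) ^ 2 ≤ Real.exp (2 * θ) := by
    have h1 : ∑ a ∈ range (M + 1), w a ≤ Real.exp θ := Real.sum_le_exp_of_nonneg hθ (M + 1)
    have h0 : 0 ≤ ∑ a ∈ range (M + 1), w a := Finset.sum_nonneg fun a _ => hw0 a
    have e : Real.exp (2 * θ) = Real.exp θ ^ 2 := by
      rw [sq, ← Real.exp_add]; ring_nf
    rw [e]
    exact pow_le_pow_left₀ h0 h1 2
  have e1 : ∑ a ∈ range (M + 1), ∑ b ∈ range (M + 1), w a * w b * (1 - u a * u b) ^ lam =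
      (∑ a ∈ range (M + 1), w a) ^ 2 -
      ∑ a ∈ range (M + 1), ∑ b ∈ range (M + 1), w a * w b * (1 - (1 - u a * u b) ^ lam) := by
    rw [sq, Finset.sum_mul_sum, ← Finset.sum_sub_distrib]
    apply Finset.sum_congr rfl
    intro a _
    rw [← Finset.sum_sub_distrib]
    apply Finset.sum_congr rfl
    intro b _
    ring
  have hsub : range (D + 1) ⊆ range (M + 1) := Finset.range_subset_range.2 (by omega)
  have hterm : ∀ a b, 0 ≤ w a * w b * (1 - (1 - u a * u b) ^ lam) := fun a b =>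
    mul_nonneg (mul_nonneg (hw0 a) (hw0 b)) (by linarith [hy1 a b])
  have e2 : ∑ a ∈ range (D + 1), ∑ b ∈ range (D + 1), w a * w b * (1 - (1 - u a * u b) ^ lam) ≤
      ∑ a ∈ range (M + 1), ∑ b ∈ range (M + 1), w a * w b * (1 - (1 - u a * u b) ^ lam) := by
    calc _ ≤ ∑ a ∈ range (D + 1), ∑ b ∈ range (M + 1), w a * w b * (1 - (1 - u a * u b) ^ lam) :=
          Finset.sum_le_sum fun a _ =>
            Finset.sum_le_sum_of_subset_of_nonneg hsub fun b _ _ => hterm a b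
      _ ≤ _ := Finset.sum_le_sum_of_subset_of_nonneg hsub fun a _ _ =>
            Finset.sum_nonneg fun b _ => hterm a b
  rw [e1]
  linarith

variable {V : Type} [Fintype V] [DecidableEq V]

/-- the non-asymptotic interpolation bound -/
theorem finite_bound (j : ℕ) (hn : j + 1 ≤ Fintype.card V)
    (p π lam c1 θ : ℝ) (hp0 : 0 ≤ p) (hπ0 : 0 ≤ π) (hπ1 : π ≤ 1) (hl0 : 0 < lam) (hl1 : lam ≤ 1)
    (hc0 : 0 ≤ c1) (hθ : 0 < θ)
    (hc1 : c1 ≤ ((j : ℝ) + 1) * p ^ j - 1 - j * p ^ (j + 1) * (1 - (1 - π ^ (j + 1)) ^ lam)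
          - ((j : ℝ) + 1) * j / ((2:ℝ) ^ (j + 2) * (Fintype.card V : ℝ)))
    (M m D : ℕ) (hDM : D ≤ M) :
    satP (j + 1) V m * ((1 + c1) ^ M * (1 - (M : ℝ) / ((1 + c1) * ((m : ℝ) + 1)))) ≤
      (((j : ℝ) + 1) * p ^ j) ^ M * (((M.factorial : ℝ) / θ ^ M *
        (Real.exp (2 * θ) - ∑ a ∈ range (D + 1), ∑ b ∈ range (D + 1),
          θ ^ a / (a.factorial : ℝ) * (θ ^ b / (b.factorial : ℝ)) *
          (1 - (1 - (1 - (1 - π ^ j) ^ a) * (1 - (1 - π ^ j) ^ b)) ^ lam)) ^ (Fintype.card V))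
        / (2 * (Fintype.card V : ℝ)) ^ M) := by
  set κ := ((j : ℝ) + 1) * p ^ j with hκ
  have hκ0 : 0 ≤ κ := by positivity
  have hη0 : 0 ≤ π ^ j := by positivity
  have hη1 : π ^ j ≤ 1 := pow_le_one₀ hπ0 hπ1
  set η := π ^ j with hη
  set P := opA (fun (c : Clause (j + 1) V) (ξ : St V) => resB (clSet c) ξ) with hP
  set Q := opA (fun (l : V × Bool) (ξ : St V) => warn η (litSet l) ξ) with hQ
  have hPm : MonoOn Good P := opA_monoOn Good _ (fun c s h => h.resB _)
  have hQm : MonoOn Good Q := opA_monoOn Good _ (fun c s h => h.warn hη0 hη1 _)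
  have hPQ : Commute P Q := opA_commute _ _ (fun c d s => resB_warn_comm _ _ _ _)
  have hA : MonoOn Good (P + c1 • (1 : Module.End ℝ (St V → ℝ))) := hPm.add (MonoOn.one.smul hc0)
  have hB : MonoOn Good (κ • Q) := hQm.smul hκ0
  have hcomm : Commute (P + c1 • (1 : Module.End ℝ (St V → ℝ))) (κ • Q) :=
    (hPQ.add_left ((Commute.one_left Q).smul_left c1)).smul_right κ
  have hloc : LeOn Good ((P + c1 • (1 : Module.End ℝ (St V → ℝ))) (Th lam)) ((κ • Q) (Th lam)) := by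
    intro ξ hξ
    have h1 := local_ineq j hn p π lam hp0 hπ0 hπ1 hl0 hl1 ξ hξ
    have h2 := Th_nonneg hξ lam
    simp only [LinearMap.add_apply, LinearMap.smul_apply, Module.End.one_apply, Pi.add_apply,
      Pi.smul_apply, smul_eq_mul, hP, hQ, opA_apply]
    have h3 := mul_le_mul_of_nonneg_right hc1 h2
    linarith
  have hmain := pow_leOn_pow hA hB hcomm (Th lam) hloc M ind good_ind
  rw [add_smul_pow_apply, smul_pow] at hmain
  simp only [LinearMap.smul_apply, Pi.smul_apply, smul_eq_mul] at hmain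
  simp_rw [hP, opA_clause_pow lam hl0] at hmain
  have hlow := binom_markov M m c1 hc0 (satP (j + 1) V) satP_antitone satP_nonneg
  refine hlow.trans (hmain.trans ?_)
  apply mul_le_mul_of_nonneg_left _ (pow_nonneg hκ0 M)
  rw [hQ, opA_pow_apply]
  have hN2 : (Fintype.card (V × Bool) : ℝ) = 2 * (Fintype.card V : ℝ) := by
    rw [Fintype.card_prod, Fintype.card_bool]; push_cast; ring
  rw [hN2]
  apply div_le_div_of_nonneg_right _ (by positivity)
  have hq0 : 0 ≤ 1 - η := by linarith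
  have hq1 : 1 - η ≤ 1 := by linarith
  have hy0 : ∀ a b : ℕ, 0 ≤ 1 - (1 - (1 - η) ^ a) * (1 - (1 - η) ^ b) := by
    intro a b
    have h1 := pow_le_one₀ (n := a) hq0 hq1
    have h2 := pow_le_one₀ (n := b) hq0 hq1
    have h3 := pow_nonneg hq0 a
    have h4 := pow_nonneg hq0 b
    nlinarith
  have hTh : ∀ w : Fin M → V × Bool,
      Th lam (wst (fun (l : V × Bool) (ξ : St V) => warn η (litSet l) ξ) M w ind) =
        ∏ i : V, (fun a b : ℕ => (1 - (1 - (1 - η) ^ a) * (1 - (1 - η) ^ b)) ^ lam)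
          ((univ.filter (fun j => w j = (i, true))).card)
          ((univ.filter (fun j => w j = (i, false))).card) := by
    intro w
    unfold Th
    rw [wst_warn_univ, Real.finsetProd_rpow]
    intro i _
    exact hy0 _ _
  simp_rw [hTh]
  refine (word_sum_le M θ hθ _ (fun a b => Real.rpow_nonneg (hy0 a b) _)).trans ?_
  apply mul_le_mul_of_nonneg_left _ (by positivity)
  apply pow_le_pow_left₀
  · exact Finset.sum_nonneg fun a _ => Finset.sum_nonneg fun b _ =>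
      mul_nonneg (by positivity) (Real.rpow_nonneg (hy0 a b) _)
  · exact site_sum_le' lam θ (1 - η) hl0 hθ.le hq0 hq1 D M hDM

end Vale.Agent.P170
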