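import Mathlib
import Vale.Agent.P170.Finite
import Vale.Agent.P170.Moment

namespace Vale.Agent.P170

open Finset

/-- The unsatisfiability criterion: any admissible choice of the parameters gives an upper bound
`T2 / (1 + c1)` for the clause density above which random `(j+1)`-SAT is unsatisfiable whp. -/
theorem criterion (j : ℕ) (p π lam c1 : ℝ) (T2 D : ℕ) (hT : 0 < T2) (hp0 : 0 ≤ p) (hπ0 : 0 ≤ π)
    (hπ1 : π ≤ 1) (hl0 : 0 < lam) (hl1 : lam ≤ 1) (hc0 : 0 ≤ c1)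
    (hc1 : c1 < ((j : ℝ) + 1) * p ^ j - 1 - j * p ^ (j + 1) * (1 - (1 - π ^ (j + 1)) ^ lam))
    (hbase : (((j : ℝ) + 1) * p ^ j / (1 + c1)) ^ T2 *
      (1 - Real.exp (-(T2 : ℝ)) * ∑ a ∈ range (D + 1), ∑ b ∈ range (D + 1),
          ((T2 : ℝ) / 2) ^ a / (a.factorial : ℝ) * (((T2 : ℝ) / 2) ^ b / (b.factorial : ℝ)) *
          (1 - (1 - (1 - (1 - π ^ j) ^ a) * (1 - (1 - π ^ j) ^ b)) ^ lam)) < 1)
    (c : ℝ) (hc : (T2 : ℝ) / (1 + c1) < c) :
    Filter.Tendsto (fun n : ℕ => satProb (j + 1) n ⌊c * n⌋₊) Filter.atTop (nhds 0) := by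
  set κ := ((j : ℝ) + 1) * p ^ j with hκ
  have hκ0 : 0 ≤ κ := by positivity
  set θ : ℝ := (T2 : ℝ) / 2 with hθdef
  have hTr : (0:ℝ) < T2 := by exact_mod_cast hT
  have hθ : 0 < θ := by positivity
  set Sig := ∑ a ∈ range (D + 1), ∑ b ∈ range (D + 1),
          θ ^ a / (a.factorial : ℝ) * (θ ^ b / (b.factorial : ℝ)) *
          (1 - (1 - (1 - (1 - π ^ j) ^ a) * (1 - (1 - π ^ j) ^ b)) ^ lam) with hSig
  have hη0 : 0 ≤ π ^ j := by positivity
  have hη1 : π ^ j ≤ 1 := pow_le_one₀ hπ0 hπ1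
  have hq0 : 0 ≤ 1 - π ^ j := by linarith
  have hq1 : 1 - π ^ j ≤ 1 := by linarith
  have h2θ : 2 * θ = T2 := by rw [hθdef]; ring
  have hy0 : ∀ a b : ℕ, 0 ≤ 1 - (1 - (1 - π ^ j) ^ a) * (1 - (1 - π ^ j) ^ b) := by
    intro a b
    have h1 := pow_le_one₀ (n := a) hq0 hq1
    have h2 := pow_le_one₀ (n := b) hq0 hq1
    have h3 := pow_nonneg hq0 a
    have h4 := pow_nonneg hq0 b
    nlinarith
  have hSle : Sig ≤ Real.exp T2 := by
    have h := site_sum_le' lam θ (1 - π ^ j) hl0 hθ.le hq0 hq1 D D le_rfl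
    rw [h2θ] at h
    have h0 : 0 ≤ ∑ a ∈ range (D + 1), ∑ b ∈ range (D + 1),
        θ ^ a / (a.factorial : ℝ) * (θ ^ b / (b.factorial : ℝ)) *
          (1 - (1 - (1 - π ^ j) ^ a) * (1 - (1 - π ^ j) ^ b)) ^ lam :=
      Finset.sum_nonneg fun a _ => Finset.sum_nonneg fun b _ =>
        mul_nonneg (by positivity) (Real.rpow_nonneg (hy0 a b) _)
    linarith
  set s := Real.exp (-(T2 : ℝ)) * Sig with hs
  have hs1 : 0 ≤ 1 - s := by
    have : s ≤ Real.exp (-(T2 : ℝ)) * Real.exp T2 :=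
      mul_le_mul_of_nonneg_left hSle (Real.exp_pos _).le
    rw [← Real.exp_add] at this
    simp at this
    linarith
  have h1c : 0 < 1 + c1 := by linarith
  set base := (κ / (1 + c1)) ^ T2 * (1 - s) with hbasedef
  have hb0 : 0 ≤ base := mul_nonneg (by positivity) hs1
  have hcpos : 0 < c := lt_of_le_of_lt (by positivity) hc
  set ρ := (T2 : ℝ) / (1 + c1) * (1 / c) with hρ
  have hρ1 : ρ < 1 := by
    rw [hρ, mul_one_div, div_lt_one hcpos]
    exact hc
  set δ := κ - 1 - j * p ^ (j + 1) * (1 - (1 - π ^ (j + 1)) ^ lam) - c1 with hδ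
  have hδ0 : 0 < δ := by rw [hδ]; linarith
  set Ec := ((j : ℝ) + 1) * j / (2:ℝ) ^ (j + 2) with hEc
  set C := Real.exp 1 * T2 / (1 - ρ) with hC
  have key : ∀ᶠ n : ℕ in Filter.atTop,
      satProb (j + 1) n ⌊c * n⌋₊ ≤ C * ((n : ℝ) * base ^ n) := by
    filter_upwards [Filter.eventually_ge_atTop (max (j + 1) (max D (max 1 ⌈Ec / δ⌉₊)))] with n hn
    have hn1 : j + 1 ≤ n := le_trans (le_max_left _ _) hn
    have hn2 : D ≤ n := le_trans (le_trans (le_max_left _ _) (le_max_right _ _)) hn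
    have hn3 : 1 ≤ n :=
      le_trans (le_trans (le_trans (le_max_left _ _) (le_max_right _ _)) (le_max_right _ _)) hn
    have hn4 : ⌈Ec / δ⌉₊ ≤ n :=
      le_trans (le_trans (le_trans (le_max_right _ _) (le_max_right _ _)) (le_max_right _ _)) hn
    have hnr : (0:ℝ) < n := by exact_mod_cast hn3
    have herr : ((j : ℝ) + 1) * j / ((2:ℝ) ^ (j + 2) * (n : ℝ)) ≤ δ := by
      have h1 : Ec / δ ≤ n := le_trans (Nat.le_ceil _) (by exact_mod_cast hn4)
      rw [div_le_iff₀ hδ0] at h1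
      rw [← div_div, div_le_iff₀ hnr]
      linarith
    have hDM : D ≤ T2 * n := le_trans hn2 (Nat.le_mul_of_pos_left n hT)
    have fb := finite_bound (V := Fin n) j (by simpa using hn1) p π lam c1 θ hp0 hπ0 hπ1 hl0 hl1
      hc0 hθ (by simp only [Fintype.card_fin]; rw [hδ] at herr; linarith) (T2 * n) ⌊c * n⌋₊ D hDM
    simp only [Fintype.card_fin] at fb
    rw [h2θ] at fb
    change satProb (j + 1) n ⌊c * n⌋₊ * _ ≤ _ at fb
    set A := satProb (j + 1) n ⌊c * n⌋₊ with hA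
    have hA0 : 0 ≤ A := satProb_nonneg _ _
    set M := T2 * n with hM
    have hMr : (M : ℝ) = T2 * n := by rw [hM]; push_cast; ring
    have hMpos : (0:ℝ) < M := by rw [hMr]; positivity
    have hM1 : 1 ≤ M := by
      have : 0 < M := by exact_mod_cast hMpos
      omega
    -- lower bound for the bracket
    have hfl : c * n < (⌊c * n⌋₊ : ℝ) + 1 := Nat.lt_floor_add_one _
    have hm1 : (0:ℝ) < (⌊c * n⌋₊ : ℝ) + 1 := by positivity
    have L1 : 1 - ρ ≤ 1 - (M : ℝ) / ((1 + c1) * ((⌊c * n⌋₊ : ℝ) + 1)) := by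
      have e : (M : ℝ) / ((1 + c1) * ((⌊c * n⌋₊ : ℝ) + 1)) =
          (T2 : ℝ) / (1 + c1) * ((n : ℝ) / ((⌊c * n⌋₊ : ℝ) + 1)) := by
        rw [hMr]; field_simp
      have h2 : (n : ℝ) / ((⌊c * n⌋₊ : ℝ) + 1) ≤ 1 / c := by
        rw [div_le_div_iff₀ hm1 hcpos]
        linarith
      have h3 := mul_le_mul_of_nonneg_left h2 (by positivity : 0 ≤ (T2 : ℝ) / (1 + c1))
      rw [e]
      linarith
    -- upper bound for the right-hand side
    have f1 := factorial_le_exp M hM1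
    have f2 : ((M : ℝ) / Real.exp 1) ^ M = (M : ℝ) ^ M / Real.exp M := by
      rw [div_pow, Real.exp_one_pow]
    have f3 : θ ^ M * (2 * (n : ℝ)) ^ M = (M : ℝ) ^ M := by
      rw [← mul_pow, hMr, hθdef]; congr 1; ring
    have f4 : (Real.exp T2 - Sig) ^ n = Real.exp M * (1 - s) ^ n := by
      have : Real.exp T2 - Sig = Real.exp T2 * (1 - s) := by
        rw [hs, mul_sub, mul_one, ← mul_assoc, ← Real.exp_add]; simp
      rw [this, mul_pow, ← Real.exp_nat_mul, hMr]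
      congr 2; ring
    have hMM : (0:ℝ) < (M : ℝ) ^ M := by positivity
    have hsn : 0 ≤ (1 - s) ^ n := pow_nonneg hs1 n
    have R1 : (M.factorial : ℝ) / θ ^ M * (Real.exp T2 - Sig) ^ n / (2 * (n : ℝ)) ^ M ≤
        Real.exp 1 * M * (1 - s) ^ n := by
      rw [f4]
      have e : (M.factorial : ℝ) / θ ^ M * (Real.exp M * (1 - s) ^ n) / (2 * (n : ℝ)) ^ M =
          (M.factorial : ℝ) * (Real.exp M * (1 - s) ^ n / (M : ℝ) ^ M) := by
        rw [← f3]; field_simp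
      rw [e]
      rw [f2] at f1
      have h5 := mul_le_mul_of_nonneg_right f1
        (by positivity : 0 ≤ Real.exp M * (1 - s) ^ n / (M : ℝ) ^ M)
      refine h5.trans (le_of_eq ?_)
      have := Real.exp_pos (M : ℝ)
      field_simp
    have hκM : 0 ≤ κ ^ M := pow_nonneg hκ0 M
    have h6 : A * ((1 + c1) ^ M * (1 - ρ)) ≤ κ ^ M * (Real.exp 1 * M * (1 - s) ^ n) := by
      calc A * ((1 + c1) ^ M * (1 - ρ)) ≤
          A * ((1 + c1) ^ M * (1 - (M : ℝ) / ((1 + c1) * ((⌊c * n⌋₊ : ℝ) + 1)))) :=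
            mul_le_mul_of_nonneg_left (mul_le_mul_of_nonneg_left L1 (by positivity)) hA0
        _ ≤ _ := fb
        _ ≤ _ := mul_le_mul_of_nonneg_left R1 hκM
    have h1ρ : 0 < 1 - ρ := by linarith
    have hpos : 0 < (1 + c1) ^ M * (1 - ρ) := by positivity
    rw [← le_div_iff₀ hpos] at h6
    refine h6.trans (le_of_eq ?_)
    have e1 : base ^ n = (κ / (1 + c1)) ^ M * (1 - s) ^ n := by
      rw [hbasedef, mul_pow ((κ / (1 + c1)) ^ T2) (1 - s) n, ← pow_mul]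
    have e2 : (κ / (1 + c1)) ^ M = κ ^ M / (1 + c1) ^ M := div_pow _ _ _
    rw [hC, e1, e2, hMr]
    field_simp
  have lim : Filter.Tendsto (fun n : ℕ => C * ((n : ℝ) * base ^ n)) Filter.atTop (nhds 0) := by
    simpa using (tendsto_self_mul_const_pow_of_lt_one hb0 hbase).const_mul C
  exact squeeze_zero' (Filter.Eventually.of_forall fun n => satProb_nonneg _ _) key lim

end Vale.Agent.P170
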