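import Mathlib
import Vale.Agent.P170.AnalysisA
import Vale.Agent.P170.Abstract

namespace Vale.Agent.P170

open Filter

variable {k : ℕ} {r : ℕ → ℝ}

theorem scaleMono_of_thresholdSeq (hk : 1 ≤ k) (hr : IsThresholdSeq k r) : ScaleMono r :=
  scale_mono r (fun _ hε => propA hk hr hε) (fun _ hε => propB hk hr hε)

lemma limiting_of_tendsto (hr : IsThresholdSeq k r) {α : ℝ} (h0 : 0 < α)
    (hα : Tendsto r atTop (nhds α)) : HasLimitingThreshold k α := by
  refine ⟨h0, ?_, ?_⟩
  · intro c _ hc
    set ε := (α - c) / 2 with hε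
    have hε0 : 0 < ε := by rw [hε]; linarith
    have h1 := (hr ε hε0).1
    have h2 : ∀ᶠ n in atTop, c + ε < r n :=
      hα.eventually (lt_mem_nhds (by rw [hε]; linarith))
    apply tendsto_of_tendsto_of_tendsto_of_le_of_le' h1 tendsto_const_nhds
    · filter_upwards [h2] with n hn
      apply satProb_antitone n
      apply Nat.floor_le_floor
      apply mul_le_mul_of_nonneg_right _ (Nat.cast_nonneg _)
      linarith
    · exact Eventually.of_forall (fun n => satProb_le_one _ _)
  · intro c hc
    set ε := (c - α) / 2 with hε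
    have hε0 : 0 < ε := by rw [hε]; linarith
    have h1 := (hr ε hε0).2
    have h2 : ∀ᶠ n in atTop, r n < c - ε :=
      hα.eventually (gt_mem_nhds (by rw [hε]; linarith))
    apply tendsto_of_tendsto_of_tendsto_of_le_of_le' tendsto_const_nhds h1
    · exact Eventually.of_forall (fun n => satProb_nonneg _ _)
    · filter_upwards [h2] with n hn
      apply satProb_antitone n
      apply Nat.floor_le_floor
      apply mul_le_mul_of_nonneg_right _ (Nat.cast_nonneg _)
      linarith

lemma tendsto_of_limiting (hr : IsThresholdSeq k r) {α : ℝ} (h : HasLimitingThreshold k α) :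
    Tendsto r atTop (nhds α) := by
  obtain ⟨h0, hlow, hup⟩ := h
  rw [Metric.tendsto_atTop]
  intro ε hε
  -- work with a smaller ε' < α
  set e := min (ε / 2) (α / 2) with he
  have he0 : 0 < e := lt_min (by positivity) (by positivity)
  have heε : e < ε := lt_of_le_of_lt (min_le_left _ _) (by linarith)
  have heα : e < α := lt_of_le_of_lt (min_le_right _ _) (by linarith)
  obtain ⟨n1, hn1⟩ := ev_bounds hr (show 0 < e / 2 by positivity) (show (0:ℝ) < 1 / 4 by norm_num)
  have l1 := (hlow (α - e / 2) (by linarith) (by linarith)).eventually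
    (Ici_mem_nhds (show (1:ℝ) / 2 < 1 by norm_num))
  have l2 := (hup (α + e / 2) (by linarith)).eventually
    (Iic_mem_nhds (show (0:ℝ) < 1 / 2 by norm_num))
  obtain ⟨n2, hn2⟩ := Filter.eventually_atTop.1 (l1.and l2)
  refine ⟨max n1 n2, fun n hn => ?_⟩
  have ha := hn1 n (le_trans (le_max_left _ _) hn)
  have hb := hn2 n (le_trans (le_max_right _ _) hn)
  have hb1 : (1:ℝ) / 2 ≤ satProb k n ⌊(α - e / 2) * n⌋₊ := hb.1
  have hb2 : satProb k n ⌊(α + e / 2) * n⌋₊ ≤ (1:ℝ) / 2 := hb.2
  rw [Real.dist_eq, abs_lt]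
  constructor
  · -- r n > α - ε
    by_contra hcon
    push Not at hcon
    have h1 : satProb k n ⌊(α - e / 2) * n⌋₊ ≤ satProb k n ⌊(r n + e / 2) * n⌋₊ := by
      apply satProb_antitone n
      apply Nat.floor_le_floor
      apply mul_le_mul_of_nonneg_right _ (Nat.cast_nonneg _)
      linarith
    linarith [ha.2]
  · by_contra hcon
    push Not at hcon
    have h1 : satProb k n ⌊(r n - e / 2) * n⌋₊ ≤ satProb k n ⌊(α + e / 2) * n⌋₊ := by
      apply satProb_antitone n
      apply Nat.floor_le_floor
      apply mul_le_mul_of_nonneg_right _ (Nat.cast_nonneg _)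
      linarith
    linarith [ha.1]

/-- main equivalence -/
theorem limiting_iff_subseq (hk : 1 ≤ k) (hr : IsThresholdSeq k r) (ν : ℕ → ℕ) (hν : StrictMono ν)
    (ρ : ℕ) (hρ : ∀ j, ν (j + 1) ≤ ρ * ν j) (α : ℝ) (h0 : 0 < α) :
    HasLimitingThreshold k α ↔ Tendsto (fun j => r (ν j)) atTop (nhds α) := by
  constructor
  · intro h
    exact (tendsto_of_limiting hr h).comp hν.tendsto_atTop
  · intro h
    exact limiting_of_tendsto hr h0
      (subseq_conv r (scaleMono_of_thresholdSeq hk hr) ν hν ρ hρ α h)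

end Vale.Agent.P170
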