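import Mathlib

namespace Vale.Agent.P170

open Finset

/-- certified upper bound for a small real power, from an inequality between natural numbers -/
lemma y_le_general (a b N S L qn qd : ℕ) (hS : 0 < S) (hL : 0 < L) (hqd : 0 < qd) (hq : qn ≤ qd)
    (h : (qn ^ a * qd ^ b + qn ^ b * qd ^ a) * S ^ L ≤ N ^ L * qd ^ (a + b) + qn ^ (a + b) * S ^ L) :
    (1 - (1 - ((qn : ℝ) / qd) ^ a) * (1 - ((qn : ℝ) / qd) ^ b)) ^ ((L : ℝ)⁻¹) ≤ (N : ℝ) / S := by
  have hSr : (0:ℝ) < S := by exact_mod_cast hS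
  have hqdr : (0:ℝ) < qd := by exact_mod_cast hqd
  have hqr : (qn : ℝ) ≤ qd := by exact_mod_cast hq
  have hq0 : (0:ℝ) ≤ (qn : ℝ) / qd := by positivity
  have hq1 : (qn : ℝ) / qd ≤ 1 := by rw [div_le_one hqdr]; exact hqr
  set t : ℝ := (N : ℝ) / S with ht
  have ht0 : 0 ≤ t := by positivity
  have h' : ((qn : ℝ) ^ a * qd ^ b + qn ^ b * qd ^ a) * S ^ L ≤
      (N : ℝ) ^ L * qd ^ (a + b) + qn ^ (a + b) * S ^ L := by exact_mod_cast h
  have hy0 : 0 ≤ 1 - (1 - ((qn : ℝ) / qd) ^ a) * (1 - ((qn : ℝ) / qd) ^ b) := by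
    have h1 := pow_le_one₀ (n := a) hq0 hq1
    have h2 := pow_le_one₀ (n := b) hq0 hq1
    have h3 := pow_nonneg hq0 a
    have h4 := pow_nonneg hq0 b
    nlinarith
  have hy : 1 - (1 - ((qn : ℝ) / qd) ^ a) * (1 - ((qn : ℝ) / qd) ^ b) ≤ t ^ L := by
    have e : 1 - (1 - ((qn : ℝ) / qd) ^ a) * (1 - ((qn : ℝ) / qd) ^ b) =
        ((qn : ℝ) ^ a * qd ^ b + qn ^ b * qd ^ a - qn ^ (a + b)) / qd ^ (a + b) := by
      rw [div_pow, div_pow, pow_add, pow_add]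
      field_simp
      ring
    rw [e, ht, div_pow, div_le_div_iff₀ (by positivity) (by positivity)]
    linarith
  calc _ ≤ (t ^ L) ^ ((L : ℝ)⁻¹) := Real.rpow_le_rpow hy0 hy (by positivity)
    _ = t := Real.pow_rpow_inv_natCast ht0 hL.ne'

/-- certified lower bound for a small real power -/
lemma z_ge_general (N S L zn zd : ℕ) (hS : 0 < S) (hL : 0 < L) (hzd : 0 < zd)
    (h : N ^ L * zd ≤ zn * S ^ L) :
    (N : ℝ) / S ≤ ((zn : ℝ) / zd) ^ ((L : ℝ)⁻¹) := by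
  have hSr : (0:ℝ) < S := by exact_mod_cast hS
  have hzdr : (0:ℝ) < zd := by exact_mod_cast hzd
  set t : ℝ := (N : ℝ) / S with ht
  have ht0 : 0 ≤ t := by positivity
  have h' : (N : ℝ) ^ L * zd ≤ zn * S ^ L := by exact_mod_cast h
  have hy : t ^ L ≤ (zn : ℝ) / zd := by
    rw [ht, div_pow, div_le_div_iff₀ (by positivity) hzdr]
    exact h'
  calc t = (t ^ L) ^ ((L : ℝ)⁻¹) := (Real.pow_rpow_inv_natCast ht0 hL.ne').symm
    _ ≤ _ := Real.rpow_le_rpow (by positivity) hy (by positivity)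

end Vale.Agent.P170
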