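import Mathlib
import Vale.Agent.P170.PowA

namespace Vale.Agent.P170

open Finset

/-- weighted sum of the composition operators of a family of actions on a state space -/
noncomputable def opW {X Ω : Type} [Fintype Ω] (wt : Ω → ℝ) (act : Ω → X → X) :
    Module.End ℝ (X → ℝ) where
  toFun f := fun s => ∑ c, wt c * f (act c s)
  map_add' f g := by
    funext S
    simp [Finset.sum_add_distrib, mul_add]
  map_smul' r f := by
    funext S
    simp only [Pi.smul_apply, smul_eq_mul, RingHom.id_apply]
    rw [Finset.mul_sum]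
    apply Finset.sum_congr rfl
    intro c _
    ring

lemma opW_apply {X Ω : Type} [Fintype Ω] (wt : Ω → ℝ) (act : Ω → X → X) (f : X → ℝ) (s : X) :
    opW wt act f s = ∑ c, wt c * f (act c s) := rfl

lemma opA_opW_commute {X Ω Ω' : Type} [Fintype Ω] [Fintype Ω'] (act : Ω → X → X) (wt : Ω' → ℝ)
    (act' : Ω' → X → X) (h : ∀ c d s, act c (act' d s) = act' d (act c s)) :
    Commute (opA act) (opW wt act') := by
  apply LinearMap.ext
  intro f
  funext S
  simp only [Module.End.mul_apply, opA_apply, opW_apply]
  rw [Finset.sum_comm]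
  simp_rw [mul_div_assoc', ← Finset.mul_sum]
  rw [← Finset.sum_div]
  congr 1
  apply Finset.sum_congr rfl
  intro d _
  congr 1
  apply Finset.sum_congr rfl
  intro c _
  rw [h]

lemma opW_monoOn {X Ω : Type} [Fintype Ω] (G : X → Prop) (wt : Ω → ℝ) (hwt : ∀ c, 0 ≤ wt c)
    (act : Ω → X → X) (h : ∀ c s, G s → G (act c s)) : MonoOn G (opW wt act) := by
  intro f g hfg s hs
  simp only [opW_apply]
  exact Finset.sum_le_sum (fun c _ => mul_le_mul_of_nonneg_left (hfg _ (h c s hs)) (hwt c))

/-- formula for the iterated weighted operator -/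
lemma opW_pow_apply {X Ω : Type} [Fintype Ω] (wt : Ω → ℝ) (act : Ω → X → X) (m : ℕ) (f : X → ℝ)
    (s : X) :
    ((opW wt act) ^ m) f s = ∑ F : Fin m → Ω, (∏ i, wt (F i)) * f (wst act m F s) := by
  induction m generalizing s with
  | zero => simp [wst]
  | succ m ih =>
    rw [pow_succ']
    simp only [Module.End.mul_apply, opW_apply]
    simp_rw [ih]
    rw [← (Fin.consEquiv (fun _ => Ω)).sum_comp, Fintype.sum_prod_type]
    apply Finset.sum_congr rfl
    intro c _
    rw [Finset.mul_sum]
    apply Finset.sum_congr rfl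
    intro F _
    rw [Fin.prod_univ_succ, ← mul_assoc]
    rfl

end Vale.Agent.P170
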