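import Mathlib
import Vale.Agent.P170.PowA

namespace Vale.Agent.P170

open Finset

variable {V : Type} [DecidableEq V] [Fintype V]

lemma pphi_stepT_true (q : ℝ) (n : ℕ) (g : Bool → Bool) (a b : ℕ) :
    pphi q g (a + n) b
      = (1 - (1 - q ^ n)) * pphi q g a b
        + (1 - q ^ n) * pphi q (fun c => g c && (c == true)) a b := by
  simp only [pphi]
  rcases Bool.eq_false_or_eq_true (g true) with h1 | h1 <;>
    rcases Bool.eq_false_or_eq_true (g false) with h2 | h2 <;> simp [h1, h2] <;> ring

lemma pphi_stepT_false (q : ℝ) (n : ℕ) (g : Bool → Bool) (a b : ℕ) :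
    pphi q g a (b + n)
      = (1 - (1 - q ^ n)) * pphi q g a b
        + (1 - q ^ n) * pphi q (fun c => g c && (c == false)) a b := by
  simp only [pphi]
  rcases Bool.eq_false_or_eq_true (g true) with h1 | h1 <;>
    rcases Bool.eq_false_or_eq_true (g false) with h2 | h2 <;> simp [h1, h2] <;> ring

lemma warnT_bbox (β : ℝ) (n : ℕ) (l : V × Bool) (ξ : St V) (a0 b0 : V → ℕ)
    (h : ∀ al, ξ (bbox al) = ∏ i, pphi β (al i) (a0 i) (b0 i)) (al : V → Bool → Bool) :
    warn (1 - β ^ n) (litSet l) ξ (bbox al)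
      = ∏ i, pphi β (al i) (a0 i + if l = (i, true) then n else 0)
          (b0 i + if l = (i, false) then n else 0) := by
  obtain ⟨v, b⟩ := l
  simp only [warn]
  rw [bbox_inter_litSet, h, h]
  rw [← Finset.mul_prod_erase univ _ (Finset.mem_univ v),
    ← Finset.mul_prod_erase univ (fun i => pphi β
      (Function.update al v (fun c => al v c && (c == b)) i) (a0 i) (b0 i)) (Finset.mem_univ v),
    ← Finset.mul_prod_erase univ (fun i => pphi β (al i)
      (a0 i + if (v, b) = (i, true) then n else 0)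
      (b0 i + if (v, b) = (i, false) then n else 0)) (Finset.mem_univ v)]
  have e1 : ∏ i ∈ univ.erase v, pphi β
      (Function.update al v (fun c => al v c && (c == b)) i) (a0 i) (b0 i)
      = ∏ i ∈ univ.erase v, pphi β (al i) (a0 i) (b0 i) := by
    apply Finset.prod_congr rfl
    intro i hi
    rw [Function.update_of_ne (Finset.ne_of_mem_erase hi)]
  have e2 : ∏ i ∈ univ.erase v, pphi β (al i)
      (a0 i + if (v, b) = (i, true) then n else 0)
      (b0 i + if (v, b) = (i, false) then n else 0)
      = ∏ i ∈ univ.erase v, pphi β (al i) (a0 i) (b0 i) := by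
    apply Finset.prod_congr rfl
    intro i hi
    have hne : v ≠ i := (Finset.ne_of_mem_erase hi).symm
    simp [hne]
  rw [e1, e2, Function.update_self]
  cases b
  · simp only [Prod.mk.injEq, Bool.false_eq_true, and_false, if_false, if_true,
      add_zero]
    rw [pphi_stepT_false]
    ring
  · simp only [Prod.mk.injEq, Bool.true_eq_false, and_false, if_false, if_true,
      add_zero]
    rw [pphi_stepT_true]
    ring

lemma wst_warnT_bbox {Ty : Type} (β : ℝ) (e : Ty → ℕ) (m : ℕ)
    (w : Fin m → V × (Bool × Ty)) (ξ : St V) (a0 b0 : V → ℕ)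
    (h : ∀ al, ξ (bbox al) = ∏ i, pphi β (al i) (a0 i) (b0 i)) (al : V → Bool → Bool) :
    wst (fun (l : V × (Bool × Ty)) (ξ : St V) =>
        warn (1 - β ^ (e l.2.2)) (litSet (l.1, l.2.1)) ξ) m w ξ (bbox al)
      = ∏ i, pphi β (al i)
          (a0 i + ∑ j, if ((w j).1, (w j).2.1) = (i, true) then e (w j).2.2 else 0)
          (b0 i + ∑ j, if ((w j).1, (w j).2.1) = (i, false) then e (w j).2.2 else 0) := by
  induction m generalizing ξ a0 b0 al with
  | zero => simp [wst, h]
  | succ m ih =>
    show wst _ m (Fin.tail w) (warn (1 - β ^ (e (w 0).2.2)) (litSet ((w 0).1, (w 0).2.1)) ξ)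
      (bbox al) = _
    rw [ih (Fin.tail w) _ _ _ (warnT_bbox β (e (w 0).2.2) ((w 0).1, (w 0).2.1) ξ a0 b0 h)]
    apply Finset.prod_congr rfl
    intro i _
    rw [Fin.sum_univ_succ, Fin.sum_univ_succ, add_assoc, add_assoc]
    rfl

omit [Fintype V] in
lemma sum_typed_eq {Ty : Type} [Fintype Ty] [DecidableEq Ty] (e : Ty → ℕ) (m : ℕ)
    (w : Fin m → V × (Bool × Ty)) (i : V) (b : Bool) :
    ∑ j, (if ((w j).1, (w j).2.1) = (i, b) then e (w j).2.2 else 0)
      = ∑ t, e t * (univ.filter (fun j => w j = (i, (b, t)))).card := by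
  simp_rw [Finset.card_filter, Finset.mul_sum]
  rw [Finset.sum_comm]
  apply Finset.sum_congr rfl
  intro j _
  rcases hw : w j with ⟨v, c, s⟩
  by_cases hvc : (v, c) = (i, b)
  · rw [if_pos hvc, Finset.sum_eq_single s]
    · simp only [Prod.mk.injEq] at hvc
      simp [hvc.1, hvc.2]
    · intro t _ hts
      simp [hts.symm]
    · intro hh; exact absurd (Finset.mem_univ s) hh
  · rw [if_neg hvc]
    symm
    apply Finset.sum_eq_zero
    intro t _
    have : ¬ ((v, c, s) = (i, (b, t))) := by
      intro hh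
      apply hvc
      simp only [Prod.mk.injEq] at hh ⊢
      exact ⟨hh.1, hh.2.1⟩
    simp [this]

/-- value of the state obtained from `ind` by a word of typed warnings (a warning of type `t` has
strength `1 - β ^ e t`): product over the variables -/
lemma wst_warnT_univ {Ty : Type} [Fintype Ty] [DecidableEq Ty] (β : ℝ) (e : Ty → ℕ) (m : ℕ)
    (w : Fin m → V × (Bool × Ty)) :
    wst (fun (l : V × (Bool × Ty)) (ξ : St V) =>
        warn (1 - β ^ (e l.2.2)) (litSet (l.1, l.2.1)) ξ) m w ind Set.univ =
      ∏ i : V, (1 - (1 - β ^ (∑ t, e t * (univ.filter (fun j => w j = (i, (true, t)))).card)) *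
                   (1 - β ^ (∑ t, e t * (univ.filter (fun j => w j = (i, (false, t)))).card))) := by
  have hu : (Set.univ : Set (V → Bool)) = bbox (fun _ _ => true) := by
    ext σ
    simp [bbox]
  rw [hu, wst_warnT_bbox β e m w ind (fun _ => 0) (fun _ => 0) (ind_bbox β)]
  apply Finset.prod_congr rfl
  intro i _
  rw [sum_typed_eq, sum_typed_eq]
  simp only [pphi, if_true, zero_add, pow_add]
  ring

end Vale.Agent.P170
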