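import Mathlib

namespace Vale.Agent.P170

open Finset

/-- bound for the single-site generating function with typed warnings -/
lemma site_sum_le_gen {Ty : Type} [Fintype Ty] [DecidableEq Ty] (lam β : ℝ) (hl0 : 0 < lam)
    (hβ0 : 0 ≤ β) (hβ1 : β ≤ 1) (ϑ : Ty → ℝ) (hϑ : ∀ t, 0 ≤ ϑ t) (e : Ty → ℕ) (D M : ℕ)
    (hDM : D ≤ M) :
    ∑ k ∈ Fintype.piFinset (fun _ : Bool × Ty => range (M + 1)),
        (∏ s, ϑ s.2 ^ (k s) / ((k s).factorial : ℝ)) *
          (1 - (1 - β ^ (∑ t, e t * k (true, t))) * (1 - β ^ (∑ t, e t * k (false, t)))) ^ lam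
      ≤ Real.exp (2 * ∑ t, ϑ t) -
        ∑ k ∈ Fintype.piFinset (fun _ : Bool × Ty => range (D + 1)),
        (∏ s, ϑ s.2 ^ (k s) / ((k s).factorial : ℝ)) *
          (1 - (1 - (1 - β ^ (∑ t, e t * k (true, t))) *
            (1 - β ^ (∑ t, e t * k (false, t)))) ^ lam) := by
  classical
  set w : (Bool × Ty → ℕ) → ℝ := fun k => ∏ s, ϑ s.2 ^ (k s) / ((k s).factorial : ℝ) with hw
  set y : (Bool × Ty → ℕ) → ℝ := fun k =>
    1 - (1 - β ^ (∑ t, e t * k (true, t))) * (1 - β ^ (∑ t, e t * k (false, t))) with hy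
  have hw0 : ∀ k, 0 ≤ w k := fun k => by
    simp only [hw]
    refine Finset.prod_nonneg (fun s _ => ?_)
    have := hϑ s.2
    positivity
  have hu0 : ∀ a : ℕ, 0 ≤ 1 - β ^ a := fun a => by
    linarith [pow_le_one₀ (n := a) hβ0 hβ1]
  have hu1 : ∀ a : ℕ, 1 - β ^ a ≤ 1 := fun a => by
    linarith [pow_nonneg hβ0 a]
  have hy0 : ∀ k, 0 ≤ y k := fun k => by
    simp only [hy]
    nlinarith [hu0 (∑ t, e t * k (true, t)), hu0 (∑ t, e t * k (false, t)),
      hu1 (∑ t, e t * k (true, t)), hu1 (∑ t, e t * k (false, t))]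
  have hy1 : ∀ k, y k ^ lam ≤ 1 := fun k =>
    Real.rpow_le_one (hy0 k) (by
      simp only [hy]
      nlinarith [hu0 (∑ t, e t * k (true, t)), hu0 (∑ t, e t * k (false, t))]) hl0.le
  have hW : ∑ k ∈ Fintype.piFinset (fun _ : Bool × Ty => range (M + 1)), w k
      ≤ Real.exp (2 * ∑ t, ϑ t) := by
    simp only [hw]
    rw [← Finset.prod_univ_sum (fun _ : Bool × Ty => range (M + 1))
      (fun s j => ϑ s.2 ^ j / (j.factorial : ℝ))]
    have h1 : ∀ s : Bool × Ty, ∑ j ∈ range (M + 1), ϑ s.2 ^ j / (j.factorial : ℝ)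
        ≤ Real.exp (ϑ s.2) := fun s => Real.sum_le_exp_of_nonneg (hϑ s.2) (M + 1)
    have h0 : ∀ s : Bool × Ty, 0 ≤ ∑ j ∈ range (M + 1), ϑ s.2 ^ j / (j.factorial : ℝ) :=
      fun s => Finset.sum_nonneg fun j _ => by
        have := hϑ s.2
        positivity
    refine (Finset.prod_le_prod (fun s _ => h0 s) (fun s _ => h1 s)).trans ?_
    rw [← Real.exp_sum, Fintype.sum_prod_type, Fintype.sum_bool, two_mul]
  have e1 : ∑ k ∈ Fintype.piFinset (fun _ : Bool × Ty => range (M + 1)), w k * y k ^ lam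
      = ∑ k ∈ Fintype.piFinset (fun _ : Bool × Ty => range (M + 1)), w k
        - ∑ k ∈ Fintype.piFinset (fun _ : Bool × Ty => range (M + 1)),
            w k * (1 - y k ^ lam) := by
    rw [← Finset.sum_sub_distrib]
    refine Finset.sum_congr rfl (fun k _ => ?_)
    ring
  have hsub : Fintype.piFinset (fun _ : Bool × Ty => range (D + 1))
      ⊆ Fintype.piFinset (fun _ : Bool × Ty => range (M + 1)) :=
    Fintype.piFinset_subset _ _ (fun _ => Finset.range_subset_range.2 (by omega))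
  have e2 : ∑ k ∈ Fintype.piFinset (fun _ : Bool × Ty => range (D + 1)), w k * (1 - y k ^ lam)
      ≤ ∑ k ∈ Fintype.piFinset (fun _ : Bool × Ty => range (M + 1)), w k * (1 - y k ^ lam) :=
    Finset.sum_le_sum_of_subset_of_nonneg hsub
      (fun k _ _ => mul_nonneg (hw0 k) (by linarith [hy1 k]))
  rw [e1]
  linarith

end Vale.Agent.P170
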