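import Mathlib
import Vale.Agent.P170.Main

/-!
# Consequences of an unsatisfiability bound for threshold sequences and limiting thresholds
-/

namespace Vale.Agent.P170

open Filter

variable {k : ℕ} {r : ℕ → ℝ}

/-- If random `k`-SAT is whp unsatisfiable at density `c`, every sharp threshold sequence is
eventually at most `c + ε`. -/
theorem eventually_le_of_unsat (hr : IsThresholdSeq k r) {c : ℝ}
    (hc : Tendsto (fun n : ℕ => satProb k n ⌊c * n⌋₊) atTop (nhds 0)) {ε : ℝ} (hε : 0 < ε) :
    ∀ᶠ n in atTop, r n ≤ c + ε := by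
  obtain ⟨n1, hn1⟩ := ev_bounds hr hε (show (0:ℝ) < 1 / 4 by norm_num)
  have l2 := hc.eventually (Iic_mem_nhds (show (0:ℝ) < 1 / 2 by norm_num))
  filter_upwards [l2, eventually_ge_atTop n1] with n h2 hn
  have h2' : satProb k n ⌊c * n⌋₊ ≤ (1:ℝ) / 2 := h2
  by_contra hcon
  push Not at hcon
  have h1 : satProb k n ⌊(r n - ε) * n⌋₊ ≤ satProb k n ⌊c * n⌋₊ := by
    apply satProb_antitone n
    apply Nat.floor_le_floor
    apply mul_le_mul_of_nonneg_right _ (Nat.cast_nonneg _)
    linarith
  linarith [(hn1 n hn).1]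

/-- If random `k`-SAT is whp unsatisfiable at density `c`, a limiting threshold is at most `c`. -/
theorem limiting_le_of_unsat {c : ℝ} (h0 : 0 ≤ c)
    (hc : Tendsto (fun n : ℕ => satProb k n ⌊c * n⌋₊) atTop (nhds 0)) {α : ℝ}
    (h : HasLimitingThreshold k α) : α ≤ c := by
  by_contra hcon
  push Not at hcon
  have h1 := h.2.1 c h0 hcon
  have := tendsto_nhds_unique h1 hc
  norm_num at this

end Vale.Agent.P170
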