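import Mathlib
import Vale.Agent.P170.Words

namespace Vale.Agent.P170

open Finset

/-- Weighted word-sum lemma over an alphabet `V × S`: generalisation of `word_sum_le`. -/
lemma word_sum_le_gen {V S : Type} [Fintype V] [DecidableEq V] [Fintype S] [DecidableEq S] (M : ℕ)
    (wt : S → ℝ) (hwt : ∀ s, 0 ≤ wt s) (ψ : (S → ℕ) → ℝ) (hψ : ∀ k, 0 ≤ ψ k) :
    ∑ w : Fin M → V × S, (∏ j, wt (w j).2) *
        ∏ i : V, ψ (fun s => (univ.filter (fun j => w j = (i, s))).card)
      ≤ (M.factorial : ℝ) *
        (∑ k ∈ Fintype.piFinset (fun _ : S => range (M + 1)),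
          (∏ s, wt s ^ (k s) / ((k s).factorial : ℝ)) * ψ k) ^ (Fintype.card V) := by
  classical
  have hcount : ∀ w : Fin M → V × S, ∏ j, wt (w j).2
      = ∏ a : V × S, wt a.2 ^ (univ.filter (fun j => w j = a)).card := by
    intro w
    rw [← Finset.prod_fiberwise (univ : Finset (Fin M)) w (fun j => wt (w j).2)]
    refine Finset.prod_congr rfl (fun a _ => ?_)
    rw [Finset.prod_congr rfl (g := fun _ => wt a.2)
      (fun j hj => by rw [(Finset.mem_filter.1 hj).2]), Finset.prod_const]
  have h0 := word_sum_eq (α := V × S) M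
    (fun k => (∏ a : V × S, wt a.2 ^ k a) * ∏ i : V, ψ (fun s => k (i, s)))
  simp only at h0
  rw [Finset.sum_congr rfl (fun w _ => by rw [hcount w]), h0]
  set T : (S → ℕ) → ℝ := fun q =>
    (∏ s, wt s ^ (q s) / ((q s).factorial : ℝ)) * ψ q with hT
  have hTnn : ∀ q, 0 ≤ T q := fun q => by
    simp only [hT]
    refine mul_nonneg (Finset.prod_nonneg (fun s _ => ?_)) (hψ q)
    have := hwt s
    positivity
  -- each term
  have hterm : ∀ k ∈ piAntidiag (univ : Finset (V × S)) M,
      (Nat.multinomial univ k : ℝ) *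
          ((∏ a : V × S, wt a.2 ^ k a) * ∏ i : V, ψ (fun s => k (i, s)))
        = (M.factorial : ℝ) * ∏ i : V, T (fun s => k (i, s)) := by
    intro k hk
    have hsum : ∑ a, k a = M := (mem_piAntidiag.1 hk).1
    have hspec : ((∏ a, ((k a).factorial : ℝ)) * (Nat.multinomial univ k : ℝ))
        = (M.factorial : ℝ) := by
      have := Nat.multinomial_spec (univ : Finset (V × S)) k
      rw [hsum] at this
      exact_mod_cast this
    have hfac : (∏ a, ((k a).factorial : ℝ)) ≠ 0 :=
      Finset.prod_ne_zero_iff.2 (fun a _ => by positivity)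
    have hsplit : ∏ i : V, T (fun s => k (i, s))
        = (∏ a : V × S, wt a.2 ^ k a) / (∏ a, ((k a).factorial : ℝ))
          * ∏ i : V, ψ (fun s => k (i, s)) := by
      rw [← Finset.prod_div_distrib, Fintype.prod_prod_type, ← Finset.prod_mul_distrib]
    rw [hsplit, ← hspec]
    field_simp
  rw [Finset.sum_congr rfl hterm, ← Finset.mul_sum]
  refine mul_le_mul_of_nonneg_left ?_ (by positivity)
  -- reindex
  let κ : (V × S → ℕ) → (V → S → ℕ) := fun k i s => k (i, s)
  have hinj : Function.Injective κ := by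
    intro k k' h
    funext ⟨i, s⟩
    exact congrFun (congrFun h i) s
  have h1 : ∑ k ∈ piAntidiag (univ : Finset (V × S)) M, ∏ i : V, T (fun s => k (i, s))
      = ∑ q ∈ (piAntidiag (univ : Finset (V × S)) M).image κ, ∏ i : V, T (q i) := by
    rw [Finset.sum_image (fun a _ b _ h => hinj h)]
  rw [h1]
  have hsub : (piAntidiag (univ : Finset (V × S)) M).image κ
      ⊆ Fintype.piFinset (fun _ : V => Fintype.piFinset (fun _ : S => range (M + 1))) := by
    intro q hq
    obtain ⟨k, hk, rfl⟩ := Finset.mem_image.1 hq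
    have hsum : ∑ a, k a = M := (mem_piAntidiag.1 hk).1
    have hle : ∀ a, k a ≤ M := fun a => by
      rw [← hsum]
      exact Finset.single_le_sum (f := k) (fun _ _ => Nat.zero_le _) (Finset.mem_univ a)
    rw [Fintype.mem_piFinset]
    intro i
    rw [Fintype.mem_piFinset]
    intro s
    simp only [κ, Finset.mem_range]
    exact Nat.lt_succ_of_le (hle _)
  refine (Finset.sum_le_sum_of_subset_of_nonneg hsub
    (fun q _ _ => Finset.prod_nonneg (fun i _ => hTnn _))).trans ?_
  rw [← Finset.prod_univ_sum, Finset.prod_const, Finset.card_univ]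

end Vale.Agent.P170
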